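import Vale.Agent.P178.Rep

/-! P178: additivity of the classes of representations. -/

namespace Vale.Agent.P178

open CategoryTheory unitInterval Function

universe v u v' u'

theorem add_const {C : Type u'} [Category.{v'} C] {D : Type u} [Category.{v} D] (F : C ⥤ D)
    (c : C) : (Functor.const J).obj c ⋙ F = (Functor.const J).obj (F.obj c) :=
  CategoryTheory.Functor.hext (fun _ => rfl) fun _ _ _ => heq_of_eq (F.map_id c)

theorem add_grpd {G : Type u} [Groupoid.{v} G] {Z U V W : G} (a b : Z ⟶ U) (c d : Z ⟶ W)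
    (j : U ⟶ V) (p : W ⟶ V) (h : c ≫ p = b ≫ j) :
    (a ≫ j) ≫ Groupoid.inv (d ≫ p) = (a ≫ Groupoid.inv b) ≫ (c ≫ Groupoid.inv d) := by
  have h1 : c = b ≫ j ≫ Groupoid.inv p := by
    rw [← Category.assoc, ← h]
    simp
  subst h1
  simp

section Edge

variable {D : Type u} [Category.{v} D]

/-- the edge of an arrow -/
noncomputable def addEdge {X Y : D} (f : X ⟶ Y) : Path (objPt X) (objPt Y) where
  toFun s := pt (thr s ⋙ ComposableArrows.mk₁ f)
  continuous_toFun := (fam_thr.whisker _).continuous_pt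
  source' := by
    show pt (thr 0 ⋙ _) = _
    rw [thr_zero, add_const]
    exact pt_const X
  target' := by
    show pt (thr 1 ⋙ _) = _
    rw [thr_one, add_const]
    exact pt_const Y

/-- the square folded onto the triangle -/
def addM : Fin 2 × Fin 2 ⥤ Fin 3 where
  obj p := if p.1 = 0 then 0 else if p.2 = 0 then 1 else 2
  map {p q} f := homOfLE (by
    have h1 := leOfHom f.1
    have h2 := leOfHom f.2
    clear f
    revert h1 h2
    obtain ⟨a, b⟩ := p
    obtain ⟨c, d⟩ := q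
    revert a b c d
    decide)

theorem add_key (G : J ⥤ Fin 3) (s : I) (d : Fin 2 → Fin 3) (hd : Monotone d)
    (h : ∀ a, G.obj a = d (thrFun s a)) (τ : ComposableArrows D 2) :
    G ⋙ τ = thr s ⋙ ComposableArrows.mk₁ (τ.map (homOfLE (hd zero_le_one))) := by
  have h1 : G = thr s ⋙ hd.functor :=
    CategoryTheory.Functor.ext h fun _ _ _ => Subsingleton.elim _ _
  have h2 : hd.functor ⋙ τ = ComposableArrows.mk₁ (τ.map (homOfLE (hd zero_le_one))) :=
    ComposableArrows.ext₁ rfl rfl ((Category.id_comp _).trans (Category.comp_id _)).symm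
  rw [h1, ← h2]
  rfl

theorem add_edge_trans {X Y Z : D} (f : X ⟶ Y) (g : Y ⟶ Z) :
    ((addEdge f).trans (addEdge g)).Homotopic (addEdge (f ≫ g)) := by
  let T : I × I → BC D := fun p =>
    pt (((thr p.1).prod' (thr p.2) ⋙ addM) ⋙ ComposableArrows.mk₂ f g)
  have hT : Continuous T := ((((fam_thr.comp continuous_fst).prod'
    (fam_thr.comp continuous_snd)).whisker _).whisker _).continuous_pt
  have h1 : ∀ u, T (u, 0) = addEdge f u := fun u =>
    congrArg pt (add_key _ u ![0, 1] (by decide) (fun a => by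
      show addM.obj (thrFun u a, thrFun 0 a) = _
      rw [thrFun_zero]
      generalize thrFun u a = i
      revert i
      decide) _)
  have h2 : ∀ u, T (1, u) = addEdge g u := fun u =>
    congrArg pt (add_key _ u ![1, 2] (by decide) (fun a => by
      show addM.obj (thrFun 1 a, thrFun u a) = _
      rw [thrFun_one]
      generalize thrFun u a = i
      revert i
      decide) _)
  have h3 : ∀ u, T (u, 1) = addEdge (f ≫ g) u := fun u =>
    congrArg pt (add_key _ u ![0, 2] (by decide) (fun a => by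
      show addM.obj (thrFun u a, thrFun 1 a) = _
      rw [thrFun_one]
      generalize thrFun u a = i
      revert i
      decide) _)
  have h4 : ∀ u, T (0, u) = objPt X := fun u => by
    have e : (thr 0).prod' (thr u) ⋙ addM = (Functor.const J).obj 0 :=
      CategoryTheory.Functor.ext (fun a => by
        show addM.obj (thrFun 0 a, thrFun u a) = _
        rw [thrFun_zero]
        rfl) fun _ _ _ => Subsingleton.elim _ _
    show pt (((thr 0).prod' (thr u) ⋙ addM) ⋙ _) = _
    rw [e, add_const]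
    exact pt_const X
  refine ⟨⟨⟨⟨fun p => T (cl ((2 - p.1) * p.2), cl (2 * p.2 - 1 + 2 * p.1)),
    hT.comp ((continuous_cl.comp (by fun_prop)).prodMk (continuous_cl.comp (by fun_prop)))⟩,
    fun s => ?_, fun s => ?_⟩, fun r s hs => ?_⟩⟩
  · show T (cl ((2 - ((0 : I) : ℝ)) * s), cl (2 * s - 1 + 2 * ((0 : I) : ℝ))) =
      (addEdge f).trans (addEdge g) s
    rw [Path.trans_apply, Set.Icc.coe_zero, sub_zero, mul_zero, add_zero]
    split_ifs with h
    · rw [face_cl0 (x := 2 * s - 1) (by linarith), h1,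
        per_cl_of_mem ((mul_pos_mem_iff zero_lt_two).2 ⟨s.2.1, h⟩)]
    · rw [face_cl1 (x := 2 * s) (by linarith), h2,
        per_cl_of_mem (two_mul_sub_one_mem_iff.2 ⟨(not_le.1 h).le, s.2.2⟩)]
  · show T (cl ((2 - ((1 : I) : ℝ)) * s), cl (2 * s - 1 + 2 * ((1 : I) : ℝ))) = addEdge (f ≫ g) s
    have := s.2.1
    rw [Set.Icc.coe_one, face_cl1 (x := 2 * s - 1 + 2 * 1) (by linarith), h3,
      show (2 - 1 : ℝ) * s = s by ring, face_cl_coe]
  · show T (cl ((2 - (r : ℝ)) * s), cl (2 * s - 1 + 2 * (r : ℝ))) =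
      (addEdge f).trans (addEdge g) s
    have h5 := r.2.1
    have h6 := r.2.2
    rcases hs with rfl | rfl
    · rw [Path.source, Set.Icc.coe_zero, mul_zero, face_cl0 le_rfl, h4]
    · rw [Path.target, Set.Icc.coe_one, face_cl1 (x := (2 - (r : ℝ)) * 1) (by linarith),
        face_cl1 (x := 2 * 1 - 1 + 2 * (r : ℝ)) (by linarith), h2, Path.target]

/-- the class of an edge in the fundamental groupoid -/
noncomputable def addE {X Y : D} (f : X ⟶ Y) :
    FundamentalGroupoid.mk (objPt X) ⟶ FundamentalGroupoid.mk (objPt Y) :=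
  Path.Homotopic.Quotient.mk (addEdge f)

theorem addE_comp {X Y Z : D} (f : X ⟶ Y) (g : Y ⟶ Z) : addE (f ≫ g) = addE f ≫ addE g :=
  (Path.Homotopic.Quotient.eq.2 (add_edge_trans f g)).symm

end Edge

variable {R : Type} [CommRing R] (Z : QP R) [Subsingleton Z.M]
  {ι : Type} [Fintype ι] [DecidableEq ι]

/-- `0 ↣ V` on a representation -/
def addI (V : QP R) (ρ : Multiplicative (ι → ℤ) →* Au V) :
    (Functor.const (BZ ι)).obj Z ⟶ ρ.toFunctor ⋙ gr V :=
  Functor.whiskerLeft ρ.toFunctor (iN Z V)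

/-- `V ↠ 0` on a representation -/
def addQ (V : QP R) (ρ : Multiplicative (ι → ℤ) →* Au V) :
    (Functor.const (BZ ι)).obj Z ⟶ ρ.toFunctor ⋙ gr V :=
  Functor.whiskerLeft ρ.toFunctor (qN Z V)

omit [Subsingleton Z.M] [Fintype ι] [DecidableEq ι] in
theorem add_cone (V : QP R) (ρ : Multiplicative (ι → ℤ) →* Au V)
    (η : (Functor.const _).obj Z ⟶ gr V) (G : J ⥤ Fin 2) (G' : J ⥤ BZ ι) :
    G.prod' (G' ⋙ ρ.toFunctor) ⋙ Functor.uncurry.obj (ComposableArrows.mk₁ η) =
      (G ⋙ ComposableArrows.mk₁ (Functor.whiskerLeft ρ.toFunctor η)).prod' G' ⋙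
        Functor.uncurry.obj (𝟭 (BZ ι ⥤ QP R)) := by
  have h : ComposableArrows.mk₁ (Functor.whiskerLeft ρ.toFunctor η) =
      ComposableArrows.mk₁ η ⋙ (Functor.whiskeringLeft _ _ _).obj ρ.toFunctor :=
    ComposableArrows.ext₁ rfl rfl ((Category.id_comp _).trans (Category.comp_id _)).symm
  rw [h]
  rfl

theorem add_exists : ∃ φ : FundamentalGroup (BC (BZ ι ⥤ QP R))
    (objPt ((Functor.const (BZ ι)).obj Z)) →* Gam ι (objPt Z),
    ∀ (V : QP R) (ρ : Multiplicative (ι → ℤ) →* Au V),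
      φ (addE (addI Z V ρ) ≫ Groupoid.inv (addE (addQ Z V ρ))) = cls (lam Z V ρ) := by
  obtain ⟨φ, hφ⟩ := exists_thetaHom (ι := ι) (x0 := objPt Z)
    ⟨fun p : BC (BZ ι ⥤ QP R) × (ι → I) =>
      pt ((rep p.1).prod' (wz p.2) ⋙ Functor.uncurry.obj (𝟭 (BZ ι ⥤ QP R))),
      (fam_wz ι).continuous_prod _⟩
    (fun z y i => congrArg
      (fun G => pt ((rep z).prod' G ⋙ Functor.uncurry.obj (𝟭 (BZ ι ⥤ QP R)))) (wz_per y i))
    (objPt ((Functor.const (BZ ι)).obj Z)) (fun y => by
      show pt ((rep (objPt _)).prod' (wz y) ⋙ _) = _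
      rw [rep_vertex, ← pt_const]
      exact congrArg pt (CategoryTheory.Functor.hext (fun _ => rfl)
        fun _ _ _ => heq_of_eq (Category.id_comp _)))
  refine ⟨φ, fun V ρ => hφ ((addEdge (addI Z V ρ)).trans (addEdge (addQ Z V ρ)).symm) _
    fun s y => ?_⟩
  show Lam Z V s _ = pt ((rep ((addEdge (addI Z V ρ)).trans (addEdge (addQ Z V ρ)).symm s)).prod'
    (wz y) ⋙ _)
  rw [Path.trans_apply, Lam]
  split_ifs with h
  · rw [coneI, add_cone, per_cl_of_mem ((mul_pos_mem_iff zero_lt_two).2 ⟨s.2.1, h⟩)]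
    exact congrArg (fun G => pt (Functor.prod' G (wz y) ⋙ _))
      (rep_pt ((fam_thr.whisker _).isStep _)).symm
  · have h1 := s.2.2
    have e : cl (2 - 2 * s) =
        σ ⟨2 * s - 1, two_mul_sub_one_mem_iff.2 ⟨(not_le.1 h).le, s.2.2⟩⟩ := by
      rw [per_cl_of_mem (x := 2 - 2 * s) ⟨by linarith, by linarith⟩]
      ext
      rw [coe_symm_eq]
      ring
    rw [coneQ, add_cone, e]
    exact congrArg (fun G => pt (Functor.prod' G (wz y) ⋙ _))
      (rep_pt ((fam_thr.whisker _).isStep _)).symm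

theorem lam_add {U V W : QP R} {j : U.M →ₗ[R] V.M} {p : V.M →ₗ[R] W.M} (h : IsSES j p)
    (ρU : Multiplicative (ι → ℤ) →* Au U) (ρV : Multiplicative (ι → ℤ) →* Au V)
    (ρW : Multiplicative (ι → ℤ) →* Au W) (hj : ∀ n x, j (ρU n x) = ρV n (j x))
    (hp : ∀ n x, p (ρV n x) = ρW n (p x)) :
    cls (lam Z V ρV) = cls (lam Z W ρW) * cls (lam Z U ρU) := by
  obtain ⟨φ, hφ⟩ := add_exists Z (ι := ι)
  let jN : ρU.toFunctor ⋙ gr U ⟶ ρV.toFunctor ⋙ gr V :=
    { app := fun _ => qMono h
      naturality := fun _ _ n => qG_qMono h (ρU n) (ρV n) (hj n) }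
  let pN : ρW.toFunctor ⋙ gr W ⟶ ρV.toFunctor ⋙ gr V :=
    { app := fun _ => qEpi h
      naturality := fun _ _ n => qG_qEpi h (ρW n) (ρV n) (hp n) }
  have e1 : addI Z V ρV = addI Z U ρU ≫ jN := NatTrans.ext (funext fun _ => (qI_qMono Z h).symm)
  have e2 : addQ Z V ρV = addQ Z W ρW ≫ pN := NatTrans.ext (funext fun _ => (qQ_qEpi Z h).symm)
  have e3 : addI Z W ρW ≫ pN = addQ Z U ρU ≫ jN := NatTrans.ext (funext fun _ => qI_qEpi Z h)
  rw [← hφ, ← hφ, ← hφ, ← map_mul, e1, e2, addE_comp, addE_comp,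
    add_grpd _ (addE (addQ Z U ρU)) (addE (addI Z W ρW)) _ _ _ (by
      rw [← addE_comp, ← addE_comp, e3])]
  rfl

theorem lam_iso {U V : QP R} (e : U.M ≃ₗ[R] V.M) (ρU : Multiplicative (ι → ℤ) →* Au U)
    (ρV : Multiplicative (ι → ℤ) →* Au V) (he : ∀ n x, e (ρU n x) = ρV n (e x)) :
    cls (lam Z U ρU) = cls (lam Z V ρV) := by
  obtain ⟨φ, hφ⟩ := add_exists Z (ι := ι)
  let eN : ρU.toFunctor ⋙ gr U ⟶ ρV.toFunctor ⋙ gr V :=
    { app := fun _ => qG e
      naturality := fun _ _ n => (qG_comp (ρU n) e).trans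
        ((congrArg qG (LinearEquiv.ext (he n))).trans (qG_comp e (ρV n)).symm) }
  have e1 : addI Z V ρV = addI Z U ρU ≫ eN := NatTrans.ext (funext fun _ => (qI_qG Z e).symm)
  have e2 : addQ Z V ρV = addQ Z U ρU ≫ eN := NatTrans.ext (funext fun _ => (qQ_qG Z e).symm)
  rw [← hφ, ← hφ, e1, e2, addE_comp, addE_comp]
  simp

/-- the free module of rank two -/
def addV (R : Type) [CommRing R] : QP R := ⟨R × R⟩

/-- the sum of two characters -/
def addSum (a b : ι → Rˣ) : Multiplicative (ι → ℤ) →* Au (addV R) where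
  toFun n := LinearEquiv.prodCongr (scal (rk1 R) a n) (scal (rk1 R) b n)
  map_one' := by
    rw [map_one, map_one]
    rfl
  map_mul' m n := by
    rw [map_mul, map_mul]
    rfl

theorem add_ses1 : IsSES (U := rk1 R) (V := addV R) (W := rk1 R) (LinearMap.inl R R R)
    (LinearMap.snd R R R) :=
  ⟨LinearMap.inl_injective (M := R) (M₂ := R), LinearMap.snd_surjective (M := R) (M₂ := R),
    LinearMap.range_inl R R R⟩

theorem add_ses2 : IsSES (U := rk1 R) (V := addV R) (W := rk1 R) (LinearMap.inr R R R)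
    (LinearMap.fst R R R) :=
  ⟨LinearMap.inr_injective (M := R) (M₂ := R), LinearMap.fst_surjective (M := R) (M₂ := R),
    LinearMap.range_inr R R R⟩

theorem Sy_commute (a b : ι → Rˣ) : Commute (Sy Z a) (Sy Z b) := by
  have h1 := lam_add Z add_ses1 (scal _ a) (addSum a b) (scal _ b)
    (fun n x => Prod.ext rfl (map_zero (scal (rk1 R) b n)).symm) fun _ _ => rfl
  have h2 := lam_add Z add_ses2 (scal _ b) (addSum a b) (scal _ a)
    (fun n x => Prod.ext (map_zero (scal (rk1 R) a n)).symm rfl) fun _ _ => rfl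
  exact h2.symm.trans h1

theorem add_rid (S : Type) [CommRing S] [Algebra R S] (w : Rˣ) (x : TensorProduct R S R) :
    TensorProduct.AlgebraTensorModule.rid R S S
      (LinearEquiv.baseChange R S R R (DistribMulAction.toModuleAut R R w) x) =
      algebraMap R S w * TensorProduct.AlgebraTensorModule.rid R S S x := by
  induction x using TensorProduct.induction_on with
  | zero => simp
  | tmul c r => simp [Algebra.smul_def, Units.smul_def, mul_assoc]
  | add x y hx hy => rw [map_add, map_add, hx, hy, map_add, mul_add]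

theorem Sy_map (S : Type) [CommRing S] [Algebra R S] (a : ι → Rˣ) :
    Gam.map (BMap (QP.bc R S)) (BMap_vertex _ Z) (Sy Z a) =
      Sy ((QP.bc R S).obj Z) (fun i => Units.map (algebraMap R S : R →* S) (a i)) := by
  rw [Sy, Gam.map_cls, lam_map]
  refine lam_iso _ (U := (QP.bc R S).obj (rk1 R)) (V := rk1 S)
    (TensorProduct.AlgebraTensorModule.rid R S S) _ _ fun n x => ?_
  have e : unitsHom (fun i => Units.map (algebraMap R S : R →* S) (a i)) n =
      Units.map (algebraMap R S : R →* S) (unitsHom a n) := by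
    simp [unitsHom]
  show TensorProduct.AlgebraTensorModule.rid R S S
    (bcHom S (rk1 R) (smulHom (rk1 R) (unitsHom a n)) x) =
      smulHom (rk1 S) (unitsHom _ n) (TensorProduct.AlgebraTensorModule.rid R S S x)
  rw [e]
  exact add_rid (R := R) S (unitsHom a n) x

end Vale.Agent.P178
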