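import Vale.Agent.P178.Fam

/-! P178: Čech data of a step functor by majority vote on disjoint intervals. -/

namespace Vale.Agent.P178

open CategoryTheory Filter Topology MeasureTheory
open scoped ENNReal

universe v u v' u' w

variable {C : Type u} [Category.{v} C] {C' : Type u'} [Category.{v'} C']

/-- outer Lebesgue measure -/
noncomputable def mu (S : Set J) : ℝ≥0∞ := volume (Subtype.val '' S)

theorem Maj_mu_mono {S T : Set J} (h : S ⊆ T) : mu S ≤ mu T := measure_mono (Set.image_mono h)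

theorem Maj_mu_union (S T : Set J) : mu (S ∪ T) ≤ mu S + mu T := by
  unfold mu
  rw [Set.image_union]
  exact measure_union_le _ _

theorem Maj_mu_empty : mu ∅ = 0 := by simp [mu]

theorem Maj_arr {X Y X' Y' : C} {f : X ⟶ Y} {f' : X' ⟶ Y'} (h : Arrow.mk f = Arrow.mk f') :
    X = X' ∧ Y = Y' ∧ HEq f f' := by
  obtain ⟨rfl, rfl, h⟩ := (Arrow.mk_eq_mk_iff _ _).1 h
  exact ⟨rfl, rfl, heq_of_eq (by simpa using h)⟩

theorem Maj_idl {X Y Z : C} {f : X ⟶ Y} (g : Y ⟶ Z) (h : Arrow.mk f = Arrow.mk (𝟙 X)) :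
    Arrow.mk (f ≫ g) = Arrow.mk g := by
  obtain ⟨-, rfl, h⟩ := Maj_arr h
  rw [eq_of_heq h, Category.id_comp]

theorem Maj_idr {X Y Z : C} (f : X ⟶ Y) {g : Y ⟶ Z} (h : Arrow.mk g = Arrow.mk (𝟙 Y)) :
    Arrow.mk (f ≫ g) = Arrow.mk f := by
  obtain ⟨-, rfl, h⟩ := Maj_arr h
  rw [eq_of_heq h, Category.comp_id]

/-- two functors agree on `S` -/
def Agree (G G' : J ⥤ C) (S : Set J) : Prop :=
  ∀ (a b : J) (h : a ≤ b), a ∈ S → b ∈ S →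
    Arrow.mk (G.map (homOfLE h)) = Arrow.mk (G'.map (homOfLE h))

/-- functors `J ⥤ C` with the distance `measure of the set of disagreement` -/
def SF (C : Type u) [Category.{v} C] : Type (max u v) := J ⥤ C

noncomputable instance : PseudoEMetricSpace (SF C) where
  edist G G' := ⨅ (S : Set J) (_ : Agree G G' S), mu Sᶜ
  edist_self G := le_antisymm (iInf₂_le_of_le Set.univ (fun _ _ _ _ _ => rfl)
    (by rw [Set.compl_univ, Maj_mu_empty])) zero_le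
  edist_comm G G' := iInf_congr fun S => iInf_congr_Prop
    ⟨fun h a b k ha hb => (h a b k ha hb).symm, fun h a b k ha hb => (h a b k ha hb).symm⟩
    fun _ => rfl
  edist_triangle G G' G'' := ENNReal.le_iInf₂_add_iInf₂ fun S hS T hT =>
    iInf₂_le_of_le (S ∩ T) (fun a b k ha hb => (hS a b k ha.1 hb.1).trans (hT a b k ha.2 hb.2))
      (by rw [Set.compl_inter]; exact Maj_mu_union _ _)

/-- a functor as a point of `SF C` -/
def toSF (G : J ⥤ C) : SF C := G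

/-- a point of `SF C` as a functor -/
def SF.fn (G : SF C) : J ⥤ C := G

theorem Maj_edist (G G' : SF C) :
    edist G G' = ⨅ (S : Set J) (_ : Agree G.fn G'.fn S), mu Sᶜ := rfl

theorem Maj_near (G0 : SF C) {e : ℝ≥0∞} (he : 0 < e) :
    ∀ᶠ G in 𝓝 G0, ∃ S, Agree G.fn G0.fn S ∧ mu Sᶜ < e := by
  filter_upwards [Metric.eball_mem_nhds G0 he] with G hG
  rw [Metric.mem_eball, Maj_edist] at hG
  obtain ⟨S, hS⟩ := iInf_lt_iff.1 hG
  obtain ⟨h1, h2⟩ := iInf_lt_iff.1 hS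
  exact ⟨S, h1, h2⟩

theorem Maj_obj {G G' : J ⥤ C} {S : Set J} (h : Agree G G' S) {a : J} (ha : a ∈ S) :
    G.obj a = G'.obj a :=
  (Maj_arr (h a a le_rfl ha ha)).1

theorem continuous_rep : Continuous fun x : BC C => toSF (rep x) := by
  refine continuous_of_simplex _ fun n σ => continuous_iff_continuousAt.2 fun t0 => ?_
  simp only [rep_simplexMap]
  refine tendsto_iff_edist_tendsto_0.2 ?_
  have h1 : Tendsto (fun t : stdSimplex ℝ (Fin (n + 1)) => ∑ j : Fin (n + 1),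
      ENNReal.ofReal |∑ i ∈ Finset.Iic j, t0 i - ∑ i ∈ Finset.Iic j, t i|) (𝓝 t0) (𝓝 0) := by
    have hc : Continuous fun t : stdSimplex ℝ (Fin (n + 1)) => ∑ j : Fin (n + 1),
        ENNReal.ofReal |∑ i ∈ Finset.Iic j, t0 i - ∑ i ∈ Finset.Iic j, t i| :=
      continuous_finsetSum _ fun j _ => ENNReal.continuous_ofReal.comp
        (continuous_const.sub (continuous_finsetSum _ fun i _ =>
          (continuous_apply i).comp continuous_subtype_val)).abs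
    simpa using hc.tendsto t0
  refine tendsto_of_tendsto_of_tendsto_of_le_of_le tendsto_const_nhds h1 (fun _ => zero_le)
    fun t => ?_
  have h2 : ∀ (x y x' y' : Fin (n + 1)) (f : x ⟶ y) (f' : x' ⟶ y'), x = x' → y = y' →
      Arrow.mk (σ.map f) = Arrow.mk (σ.map f') := by
    rintro x y _ _ f f' rfl rfl
    rw [Subsingleton.elim f f']
  refine (iInf₂_le_of_le (f := fun (S : Set J) (_ : Agree (vtx t ⋙ σ) (vtx t0 ⋙ σ) S) => mu Sᶜ)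
    {a | vtxFun t a = vtxFun t0 a} (fun a b k ha hb => h2 _ _ _ _ _ _ ha hb) ?_)
  simp only [← Real.volume_interval]
  refine le_trans (measure_mono ?_) (measure_iUnion_fintype_le _ _)
  rintro _ ⟨a, ha, rfl⟩
  by_contra hn
  refine ha (eq_of_forall_ge_iff fun j => ?_)
  rw [vtxFun_le_iff, vtxFun_le_iff]
  have := fun h => hn (Set.mem_iUnion.2 ⟨j, h⟩)
  rw [Set.mem_uIcc] at this
  constructor
  · intro h
    by_contra h'
    exact this (Or.inr ⟨(not_le.1 h').le, h⟩)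
  · intro h
    by_contra h'
    exact this (Or.inl ⟨(not_le.1 h').le, h⟩)

theorem Fam.continuous_SF {W : Type w} [TopologicalSpace W] {G : W → J ⥤ C} (h : Fam G) :
    Continuous fun x => toSF (G x) := by
  have e : (fun x => toSF (G x)) = fun x => toSF (rep (pt (G x))) :=
    funext fun x => by rw [rep_pt (h.isStep x)]
  rw [e]
  exact continuous_rep.comp h.continuous_pt

/-- the `k`-th voting interval -/
def Jk (k : ℕ) : Set J := {a | (k : ℝ) / (k + 1) < a.1 ∧ a.1 < ((k : ℝ) + 1) / (k + 2)}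

/-- the arrow between `a` and `b` is an identity -/
def Eqv (G : J ⥤ C) (a b : J) : Prop :=
  (∀ h : a ≤ b, Arrow.mk (G.map (homOfLE h)) = Arrow.mk (𝟙 (G.obj a))) ∧
    ∀ h : b ≤ a, Arrow.mk (G.map (homOfLE h)) = Arrow.mk (𝟙 (G.obj b))

/-- the class of `a` wins the vote in the `k`-th interval -/
def Good (G : J ⥤ C) (k : ℕ) (a : J) : Prop :=
  a ∈ Jk k ∧ 2 * mu {b | b ∈ Jk k ∧ ¬ Eqv G a b} < mu (Jk k)

/-- functors with a winner in the `k`-th interval -/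
def UU (C : Type u) [Category.{v} C] (k : ℕ) : Set (SF C) := {G | ∃ a, Good G.fn k a}

theorem Maj_frac_le {k l : ℕ} (h : k ≤ l) : (k : ℝ) / (k + 1) ≤ (l : ℝ) / (l + 1) := by
  have : (k : ℝ) ≤ l := by exact_mod_cast h
  rw [div_le_div_iff₀ (by positivity) (by positivity)]
  nlinarith

theorem Maj_Jk_pos (k : ℕ) : 0 < mu (Jk k) := by
  have h0 : (0 : ℝ) ≤ (k : ℝ) / (k + 1) := by positivity
  have h1 : ((k : ℝ) + 1) / (k + 2) ≤ 1 := by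
    rw [div_le_one (by positivity)]
    linarith
  have h2 : (k : ℝ) / (k + 1) < ((k : ℝ) + 1) / (k + 2) := by
    rw [div_lt_div_iff₀ (by positivity) (by positivity)]
    nlinarith
  refine lt_of_lt_of_le ?_ (measure_mono (s := Set.Ioo ((k : ℝ) / (k + 1)) (((k : ℝ) + 1) / (k + 2)))
    fun x hx => ⟨⟨x, h0.trans_lt hx.1, hx.2.trans_le h1⟩, hx, rfl⟩)
  rw [Real.volume_Ioo]
  exact ENNReal.ofReal_pos.2 (sub_pos.2 h2)

theorem Maj_map (G : J ⥤ C) {a b c : J} (h : a ≤ b) (h' : b ≤ c) (h'' : a ≤ c) :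
    G.map (homOfLE h'') = G.map (homOfLE h) ≫ G.map (homOfLE h') := by
  rw [← G.map_comp, homOfLE_comp]

theorem Maj_left {G : J ⥤ C} {a a' b : J} (h : Eqv G a a') (h1 : a ≤ b) (h2 : a' ≤ b) :
    Arrow.mk (G.map (homOfLE h1)) = Arrow.mk (G.map (homOfLE h2)) := by
  rcases le_total a a' with k | k
  · rw [Maj_map G k h2 h1, Maj_idl _ (h.1 k)]
  · rw [Maj_map G k h1 h2, Maj_idl _ (h.2 k)]

theorem Maj_right {G : J ⥤ C} {a b b' : J} (h : Eqv G b b') (h1 : a ≤ b) (h2 : a ≤ b') :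
    Arrow.mk (G.map (homOfLE h1)) = Arrow.mk (G.map (homOfLE h2)) := by
  rcases le_total b b' with k | k
  · rw [Maj_map G h1 k h2, Maj_idr _ (h.1 k)]
  · rw [Maj_map G h2 k h1, Maj_idr _ (h.2 k)]

theorem Maj_arrow {G : J ⥤ C} {a a' b b' : J} (h : Eqv G a a') (h' : Eqv G b b') (h1 : a ≤ b)
    (h2 : a' ≤ b') : Arrow.mk (G.map (homOfLE h1)) = Arrow.mk (G.map (homOfLE h2)) := by
  rcases le_total b b' with k | k
  · exact (Maj_right h' h1 (h1.trans k)).trans (Maj_left h _ h2)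
  · exact (Maj_left h h1 (h2.trans k)).trans (Maj_right h' _ h2)

theorem Maj_refl (G : J ⥤ C) (a : J) : Eqv G a a :=
  ⟨fun _ => congrArg Arrow.mk (G.map_id a), fun _ => congrArg Arrow.mk (G.map_id a)⟩

theorem Maj_eqv_obj {G : J ⥤ C} {a b : J} (h : Eqv G a b) : G.obj a = G.obj b := by
  rcases le_total a b with k | k
  · exact (Maj_arr (h.1 k)).2.1.symm
  · exact (Maj_arr (h.2 k)).2.1

theorem Maj_trans {G : J ⥤ C} {a b c : J} (h : Eqv G a b) (h' : Eqv G b c) : Eqv G a c :=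
  ⟨fun k => ((Maj_arrow h h'.symm k le_rfl).trans ((Maj_refl G b).1 le_rfl)).trans
      (congrArg (fun X => Arrow.mk (𝟙 X)) (Maj_eqv_obj h).symm),
    fun k => ((Maj_arrow h'.symm h k le_rfl).trans ((Maj_refl G b).1 le_rfl)).trans
      (congrArg (fun X => Arrow.mk (𝟙 X)) (Maj_eqv_obj h'))⟩

theorem Maj_winners {G : J ⥤ C} {k : ℕ} {a a' : J} (h : Good G k a) (h' : Good G k a') :
    Eqv G a a' := by
  by_contra hn
  have h1 : mu (Jk k) ≤ mu {b | b ∈ Jk k ∧ ¬ Eqv G a b} + mu {b | b ∈ Jk k ∧ ¬ Eqv G a' b} := by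
    refine le_trans (Maj_mu_mono fun b hb => ?_) (Maj_mu_union _ _)
    by_cases k : Eqv G a b
    · exact Or.inr ⟨hb, fun k' => hn (Maj_trans k k'.symm)⟩
    · exact Or.inl ⟨hb, k⟩
  have h2 := ENNReal.add_lt_add h.2 h'.2
  rw [← mul_add, ← two_mul] at h2
  exact absurd (mul_le_mul_right h1 2) (not_le.2 h2)

theorem Maj_agree_eqv {G G0 : J ⥤ C} {S : Set J} (h : Agree G G0 S) {a b : J} (ha : a ∈ S)
    (hb : b ∈ S) (e : Eqv G0 a b) : Eqv G a b :=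
  ⟨fun k => ((h a b k ha hb).trans (e.1 k)).trans
      (congrArg (fun X => Arrow.mk (𝟙 X)) (Maj_obj h ha).symm),
    fun k => ((h b a k hb ha).trans (e.2 k)).trans
      (congrArg (fun X => Arrow.mk (𝟙 X)) (Maj_obj h hb).symm)⟩

theorem Maj_core {G0 : J ⥤ C} {k : ℕ} (h : toSF G0 ∈ UU C k) : ∃ e : ℝ≥0∞, 0 < e ∧
    ∀ (G : J ⥤ C) (S : Set J), Agree G G0 S → mu Sᶜ < e →
      ∃ a, a ∈ S ∧ Good G0 k a ∧ Good G k a := by
  obtain ⟨a0, h0, h1⟩ : ∃ a, Good G0 k a := h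
  obtain ⟨r, hr, h2⟩ := ENNReal.lt_iff_exists_add_pos_lt.1 h1
  refine ⟨r / 2, ENNReal.half_pos (by simpa using hr.ne'), fun G S hS he => ?_⟩
  have h3 : 2 * mu ({b | b ∈ Jk k ∧ ¬ Eqv G0 a0 b} ∪ Sᶜ) < mu (Jk k) := by
    refine lt_of_le_of_lt ?_ h2
    refine (mul_le_mul_right ((Maj_mu_union _ _).trans (add_le_add_right he.le _)) 2).trans_eq ?_
    rw [mul_add, ENNReal.mul_div_cancel (by simp) (by simp)]
  obtain ⟨a, ha, haS, e⟩ : ∃ a, a ∈ Jk k ∧ a ∈ S ∧ Eqv G0 a0 a := by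
    by_contra hn
    refine absurd h3 (not_lt.2 (le_trans (Maj_mu_mono fun b hb => ?_)
      (le_mul_of_one_le_left zero_le one_le_two)))
    by_cases k : b ∈ S
    · exact Or.inl ⟨hb, fun k' => hn ⟨b, hb, k, k'⟩⟩
    · exact Or.inr k
  refine ⟨a, haS, ⟨ha, lt_of_le_of_lt (mul_le_mul_right (Maj_mu_mono fun b hb => ?_) 2) h1⟩,
    ha, lt_of_le_of_lt (mul_le_mul_right (Maj_mu_mono fun b hb => ?_) 2) h3⟩
  · exact ⟨hb.1, fun k => hb.2 (Maj_trans e.symm k)⟩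
  · by_cases k : b ∈ S
    · exact Or.inl ⟨hb.1, fun k' => hb.2 (Maj_agree_eqv hS haS k (Maj_trans e.symm k'))⟩
    · exact Or.inr k

theorem isOpen_UU (k : ℕ) : IsOpen (UU C k) := by
  refine isOpen_iff_mem_nhds.2 fun G0 h => ?_
  obtain ⟨e, he, h1⟩ := Maj_core (G0 := G0.fn) h
  filter_upwards [Maj_near G0 he] with G ⟨S, h2, h3⟩
  obtain ⟨a, -, -, h4⟩ := h1 G.fn S h2 h3
  exact ⟨a, h4⟩

theorem IsStep.exists_UU {G : J ⥤ C} (h : IsStep G) : ∃ k, toSF G ∈ UU C k := by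
  obtain ⟨c, hc, h1⟩ := h.eventually_const
  obtain ⟨k, hk⟩ := exists_nat_gt (1 / (1 - c))
  have h2 : c ≤ (k : ℝ) / (k + 1) := by
    rw [div_lt_iff₀ (sub_pos.2 hc)] at hk
    rw [le_div_iff₀ (by positivity)]
    nlinarith
  obtain ⟨a, ha⟩ : (Jk k).Nonempty := Set.nonempty_iff_ne_empty.2 fun e => by
    have := Maj_Jk_pos k
    rw [e, Maj_mu_empty] at this
    exact lt_irrefl _ this
  refine ⟨k, a, ha, ?_⟩
  have e : {b | b ∈ Jk k ∧ ¬ Eqv (toSF G).fn a b} = ∅ := Set.eq_empty_of_forall_notMem fun b hb =>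
    hb.2 ⟨fun l => h1 a b l (h2.trans_lt ha.1), fun l => h1 b a l (h2.trans_lt hb.1.1)⟩
  rw [e, Maj_mu_empty, mul_zero]
  exact Maj_Jk_pos k

theorem Good.whisker {G : J ⥤ C'} {k : ℕ} {a : J} (h : Good G k a) (K : C' ⥤ C) :
    Good (G ⋙ K) k a := by
  refine ⟨h.1, lt_of_le_of_lt (mul_le_mul_right (Maj_mu_mono fun b hb => ?_) 2) h.2⟩
  exact ⟨hb.1, fun e => hb.2
    ⟨fun l => (congrArg K.mapArrow.obj (e.1 l)).trans (congrArg Arrow.mk (K.map_id _)),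
      fun l => (congrArg K.mapArrow.obj (e.2 l)).trans (congrArg Arrow.mk (K.map_id _))⟩⟩

theorem Jk_le {k l : ℕ} {a b : J} (ha : a ∈ Jk k) (hb : b ∈ Jk l) (h : k < l) : a ≤ b := by
  have h1 := Maj_frac_le (Nat.succ_le_of_lt h)
  rw [Nat.cast_succ, add_assoc, one_add_one_eq_two] at h1
  exact ((ha.2.trans_le h1).trans hb.1).le

open Classical in
/-- a winner -/
noncomputable def maj (G : J ⥤ C) (k : ℕ) : J :=
  if h : ∃ a, Good G k a then h.choose else ⟨1 / 2, by norm_num, by norm_num⟩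

theorem good_maj {G : J ⥤ C} {k : ℕ} (h : toSF G ∈ UU C k) : Good G k (maj G k) := by
  have h' : ∃ a, Good G k a := h
  rw [maj, dif_pos h']
  exact h'.choose_spec

theorem maj_le {G : J ⥤ C} {k l : ℕ} (hk : toSF G ∈ UU C k) (hl : toSF G ∈ UU C l) (h : k ≤ l) :
    maj G k ≤ maj G l := by
  rcases h.eq_or_lt with rfl | h
  · exact le_rfl
  · exact Jk_le (good_maj hk).1 (good_maj hl).1 h

/-- 4-cochains on the nerve -/
abbrev Coc (C : Type u) [Category.{v} C] (M : Type) : Type (max u v) :=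
  ∀ ⦃X0 X1 X2 X3 X4 : C⦄, (X0 ⟶ X1) → (X1 ⟶ X2) → (X2 ⟶ X3) → (X3 ⟶ X4) → M

variable {M : Type} [AddCommGroup M]

/-- the cocycle identity -/
def IsCoc (c : Coc C M) : Prop :=
  ∀ ⦃X0 X1 X2 X3 X4 X5 : C⦄ (f1 : X0 ⟶ X1) (f2 : X1 ⟶ X2) (f3 : X2 ⟶ X3) (f4 : X3 ⟶ X4)
    (f5 : X4 ⟶ X5), c f2 f3 f4 f5 - c (f1 ≫ f2) f3 f4 f5 + c f1 (f2 ≫ f3) f4 f5 -
      c f1 f2 (f3 ≫ f4) f5 + c f1 f2 f3 (f4 ≫ f5) - c f1 f2 f3 f4 = 0

open Classical in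
/-- value of a cochain on five heights -/
noncomputable def cvl (c : Coc C M) (G : J ⥤ C) (a0 a1 a2 a3 a4 : J) : M :=
  if h : a0 ≤ a1 ∧ a1 ≤ a2 ∧ a2 ≤ a3 ∧ a3 ≤ a4 then
    c (G.map (homOfLE h.1)) (G.map (homOfLE h.2.1)) (G.map (homOfLE h.2.2.1))
      (G.map (homOfLE h.2.2.2))
  else 0

/-- the Čech cochain -/
noncomputable def cech (c : Coc C M) (G : SF C) (k0 k1 k2 k3 k4 : ℕ) : M :=
  cvl c G.fn (maj G.fn k0) (maj G.fn k1) (maj G.fn k2) (maj G.fn k3) (maj G.fn k4)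

omit [AddCommGroup M] in
theorem Maj_coc (c : Coc C M) {X0 X1 X2 X3 X4 Y0 Y1 Y2 Y3 Y4 : C} {f1 : X0 ⟶ X1} {f2 : X1 ⟶ X2}
    {f3 : X2 ⟶ X3} {f4 : X3 ⟶ X4} {g1 : Y0 ⟶ Y1} {g2 : Y1 ⟶ Y2} {g3 : Y2 ⟶ Y3} {g4 : Y3 ⟶ Y4}
    (h1 : Arrow.mk f1 = Arrow.mk g1) (h2 : Arrow.mk f2 = Arrow.mk g2)
    (h3 : Arrow.mk f3 = Arrow.mk g3) (h4 : Arrow.mk f4 = Arrow.mk g4) :
    c f1 f2 f3 f4 = c g1 g2 g3 g4 := by
  obtain ⟨rfl, rfl, e1⟩ := Maj_arr h1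
  obtain ⟨rfl, rfl, e3⟩ := Maj_arr h3
  obtain ⟨-, rfl, e4⟩ := Maj_arr h4
  obtain ⟨-, -, e2⟩ := Maj_arr h2
  rw [eq_of_heq e1, eq_of_heq e2, eq_of_heq e3, eq_of_heq e4]

theorem cech_eq (c : Coc C M) {G : J ⥤ C} {k0 k1 k2 k3 k4 : ℕ} {a0 a1 a2 a3 a4 : J}
    (hk : k0 ≤ k1 ∧ k1 ≤ k2 ∧ k2 ≤ k3 ∧ k3 ≤ k4) (ha : a0 ≤ a1 ∧ a1 ≤ a2 ∧ a2 ≤ a3 ∧ a3 ≤ a4)
    (g0 : Good G k0 a0) (g1 : Good G k1 a1) (g2 : Good G k2 a2) (g3 : Good G k3 a3)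
    (g4 : Good G k4 a4) : cech c (toSF G) k0 k1 k2 k3 k4 = cvl c G a0 a1 a2 a3 a4 := by
  have w : ∀ {k a}, Good G k a → Eqv G (maj G k) a := fun g => Maj_winners (good_maj ⟨_, g⟩) g
  have m : ∀ {k l a b}, Good G k a → Good G l b → k ≤ l → maj G k ≤ maj G l :=
    fun g g' h => maj_le ⟨_, g⟩ ⟨_, g'⟩ h
  change cvl c G (maj G k0) (maj G k1) (maj G k2) (maj G k3) (maj G k4) = _
  rw [cvl, cvl, dif_pos ha,
    dif_pos ⟨m g0 g1 hk.1, m g1 g2 hk.2.1, m g2 g3 hk.2.2.1, m g3 g4 hk.2.2.2⟩]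
  exact Maj_coc c (Maj_arrow (w g0) (w g1) _ _) (Maj_arrow (w g1) (w g2) _ _)
    (Maj_arrow (w g2) (w g3) _ _) (Maj_arrow (w g3) (w g4) _ _)

theorem cech_eventually (c : Coc C M) {G0 : SF C} {k0 k1 k2 k3 k4 : ℕ}
    (hk : k0 ≤ k1 ∧ k1 ≤ k2 ∧ k2 ≤ k3 ∧ k3 ≤ k4) (g0 : G0 ∈ UU C k0) (g1 : G0 ∈ UU C k1)
    (g2 : G0 ∈ UU C k2) (g3 : G0 ∈ UU C k3) (g4 : G0 ∈ UU C k4) :
    ∀ᶠ G in 𝓝 G0, cech c G k0 k1 k2 k3 k4 = cech c G0 k0 k1 k2 k3 k4 := by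
  classical
  obtain ⟨e0, p0, q0⟩ := Maj_core (G0 := G0.fn) g0
  obtain ⟨e1, p1, q1⟩ := Maj_core (G0 := G0.fn) g1
  obtain ⟨e2, p2, q2⟩ := Maj_core (G0 := G0.fn) g2
  obtain ⟨e3, p3, q3⟩ := Maj_core (G0 := G0.fn) g3
  obtain ⟨e4, p4, q4⟩ := Maj_core (G0 := G0.fn) g4
  filter_upwards [Maj_near G0 (lt_min p0 (lt_min p1 (lt_min p2 (lt_min p3 p4))))] with G ⟨S, hS, he⟩
  simp only [lt_min_iff] at he
  obtain ⟨f, hf⟩ : ∃ f : ℕ → J, ∀ k, (∃ a, a ∈ S ∧ Good G0.fn k a ∧ Good G.fn k a) →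
      f k ∈ S ∧ Good G0.fn k (f k) ∧ Good G.fn k (f k) :=
    ⟨fun k => if h : ∃ a, a ∈ S ∧ Good G0.fn k a ∧ Good G.fn k a then h.choose else maj G.fn k,
      fun k h => by simp only [dif_pos h]; exact h.choose_spec⟩
  have r0 := hf k0 (q0 _ S hS he.1)
  have r1 := hf k1 (q1 _ S hS he.2.1)
  have r2 := hf k2 (q2 _ S hS he.2.2.1)
  have r3 := hf k3 (q3 _ S hS he.2.2.2.1)
  have r4 := hf k4 (q4 _ S hS he.2.2.2.2)
  have m : ∀ {k l}, f k ∈ Jk k → f l ∈ Jk l → k ≤ l → f k ≤ f l := fun h h' hkl => by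
    rcases hkl.eq_or_lt with rfl | hkl
    · exact le_rfl
    · exact Jk_le h h' hkl
  have ha : f k0 ≤ f k1 ∧ f k1 ≤ f k2 ∧ f k2 ≤ f k3 ∧ f k3 ≤ f k4 :=
    ⟨m r0.2.1.1 r1.2.1.1 hk.1, m r1.2.1.1 r2.2.1.1 hk.2.1, m r2.2.1.1 r3.2.1.1 hk.2.2.1,
      m r3.2.1.1 r4.2.1.1 hk.2.2.2⟩
  refine (cech_eq c hk ha r0.2.2 r1.2.2 r2.2.2 r3.2.2 r4.2.2).trans
    (Eq.trans ?_ (cech_eq c hk ha r0.2.1 r1.2.1 r2.2.1 r3.2.1 r4.2.1).symm)
  rw [cvl, cvl, dif_pos ha, dif_pos ha]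
  exact Maj_coc c (hS _ _ _ r0.1 r1.1) (hS _ _ _ r1.1 r2.1) (hS _ _ _ r2.1 r3.1)
    (hS _ _ _ r3.1 r4.1)

theorem cech_cocycle {c : Coc C M} (hc : IsCoc c) {G : SF C} {k0 k1 k2 k3 k4 k5 : ℕ}
    (hk : k0 ≤ k1 ∧ k1 ≤ k2 ∧ k2 ≤ k3 ∧ k3 ≤ k4 ∧ k4 ≤ k5) (g0 : G ∈ UU C k0) (g1 : G ∈ UU C k1)
    (g2 : G ∈ UU C k2) (g3 : G ∈ UU C k3) (g4 : G ∈ UU C k4) (g5 : G ∈ UU C k5) :
    cech c G k1 k2 k3 k4 k5 - cech c G k0 k2 k3 k4 k5 + cech c G k0 k1 k3 k4 k5 -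
      cech c G k0 k1 k2 k4 k5 + cech c G k0 k1 k2 k3 k5 - cech c G k0 k1 k2 k3 k4 = 0 := by
  have m01 := maj_le (G := G.fn) g0 g1 hk.1
  have m12 := maj_le (G := G.fn) g1 g2 hk.2.1
  have m23 := maj_le (G := G.fn) g2 g3 hk.2.2.1
  have m34 := maj_le (G := G.fn) g3 g4 hk.2.2.2.1
  have m45 := maj_le (G := G.fn) g4 g5 hk.2.2.2.2
  simp only [cech, cvl]
  rw [dif_pos ⟨m12, m23, m34, m45⟩, dif_pos ⟨m01.trans m12, m23, m34, m45⟩,
    dif_pos ⟨m01, m12.trans m23, m34, m45⟩, dif_pos ⟨m01, m12, m23.trans m34, m45⟩,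
    dif_pos ⟨m01, m12, m23, m34.trans m45⟩, dif_pos ⟨m01, m12, m23, m34⟩,
    Maj_map G.fn m01 m12 (m01.trans m12), Maj_map G.fn m12 m23 (m12.trans m23),
    Maj_map G.fn m23 m34 (m23.trans m34), Maj_map G.fn m34 m45 (m34.trans m45)]
  exact hc _ _ _ _ _

theorem cech_const (c : Coc C M) (X : C) (h : c (𝟙 X) (𝟙 X) (𝟙 X) (𝟙 X) = 0)
    (k0 k1 k2 k3 k4 : ℕ) : cech c (toSF ((Functor.const J).obj X)) k0 k1 k2 k3 k4 = 0 := by
  rw [cech, cvl]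
  split_ifs
  · exact h
  · rfl

theorem maj_eventually (K : C' ⥤ C)
    (hK : ∀ (x y : C') (f : x ⟶ y), Arrow.mk (K.map f) = Arrow.mk (𝟙 (K.obj x)) → x = y)
    {G0 : SF C'} {k : ℕ} (h : toSF (G0.fn ⋙ K) ∈ UU C k) :
    ∀ᶠ G in 𝓝 G0, G.fn.obj (maj (G.fn ⋙ K) k) = G0.fn.obj (maj (G0.fn ⋙ K) k) := by
  have key : ∀ (G : J ⥤ C') (a : J), Good (G ⋙ K) k a → G.obj (maj (G ⋙ K) k) = G.obj a := by
    intro G a g
    have e := Maj_winners (good_maj ⟨_, g⟩) g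
    rcases le_total (maj (G ⋙ K) k) a with l | l
    · exact hK _ _ _ (e.1 l)
    · exact (hK _ _ _ (e.2 l)).symm
  obtain ⟨e, he, h1⟩ := Maj_core h
  filter_upwards [Maj_near G0 he] with G ⟨S, h2, h3⟩
  obtain ⟨a, ha, g0, g⟩ := h1 (G.fn ⋙ K) S
    (fun a b l ha hb => congrArg K.mapArrow.obj (h2 a b l ha hb)) h3
  rw [key _ a g, key _ a g0, Maj_obj h2 ha]

end Vale.Agent.P178
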