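import Vale.Agent.P178.Frame
import Vale.Agent.P178.Maj

/-! P178: the 4-cocycle on the Q-construction attached to three derivations (Dennis trace). -/

namespace Vale.Agent.P178

open CategoryTheory

variable {A B : Type} [CommRing A] [CommRing B]

/-- logarithmic derivative -/
def dlog (π : A →+* B) (D : A →+ B) (w : Aˣ) : B := π ((w⁻¹ : Aˣ) : A) * D w

/-- what is needed of the cocycle -/
structure CocSpec (π : A →+* B) (D : Fin 3 → A →+ B) (Z : QP A) [Subsingleton Z.M]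
    (c : Coc (QP A) B) : Prop where
  coc : IsCoc c
  zero : ∀ ⦃X0 X1 X2 X3 X4 : QP A⦄ (f1 : X0 ⟶ X1) (f2 : X1 ⟶ X2) (f3 : X2 ⟶ X3) (f4 : X3 ⟶ X4),
    (∀ y, ∃ x, (x, y) ∈ (f1 ≫ f2 ≫ f3 ≫ f4).1) → c f1 f2 f3 f4 = 0
  e1 : ∀ w1 w2 w3 : Aˣ, c (qI Z (rk1 A)) (sc w1) (sc w2) (sc w3) =
    dlog π (D 0) w1 * dlog π (D 1) w2 * dlog π (D 2) w3
  e2 : ∀ w2 w3 : Aˣ, c (𝟙 Z) (qI Z (rk1 A)) (sc w2) (sc w3) = 0
  e3 : ∀ w3 : Aˣ, c (𝟙 Z) (𝟙 Z) (qI Z (rk1 A)) (sc w3) = 0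
  e4 : c (𝟙 Z) (𝟙 Z) (𝟙 Z) (qI Z (rk1 A)) = 0

/-- value of a 3-cochain on the fundamental chain of a 3-cube -/
def cube3 {α M : Type} [CommRing M] (w : α → α → α → α → M) (x0 x1 x2 x3 x12 x13 x23 x123 : α) :
    M :=
  w x0 x1 x12 x123 - w x0 x1 x13 x123 - w x0 x2 x12 x123 + w x0 x2 x23 x123 + w x0 x3 x13 x123 -
    w x0 x3 x23 x123

theorem stokes4 {α M : Type} [CommRing M] (w : α → α → α → α → M) (P : α → Prop)
    (hw : ∀ a b c d e, P a → P b → P c → P d → P e →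
      w b c d e - w a c d e + w a b d e - w a b c e + w a b c d = 0)
    {x0 x1 x2 x3 x4 x12 x13 x14 x23 x24 x34 x123 x124 x134 x234 x1234 : α}
    (h0 : P x0) (h1 : P x1) (h2 : P x2) (h3 : P x3)
    (h4 : P x4) (h12 : P x12) (h13 : P x13) (h14 : P x14)
    (h23 : P x23) (h24 : P x24) (h34 : P x34) (h123 : P x123)
    (h124 : P x124) (h134 : P x134) (h234 : P x234) (h1234 : P x1234) :
    (cube3 w x1 x12 x13 x14 x123 x124 x134 x1234 -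
      cube3 w x0 x2 x3 x4 x23 x24 x34 x234) -
    (cube3 w x2 x12 x23 x24 x123 x124 x234 x1234 -
      cube3 w x0 x1 x3 x4 x13 x14 x34 x134) +
    (cube3 w x3 x13 x23 x34 x123 x134 x234 x1234 -
      cube3 w x0 x1 x2 x4 x12 x14 x24 x124) -
    (cube3 w x4 x14 x24 x34 x124 x134 x234 x1234 -
      cube3 w x0 x1 x2 x3 x12 x13 x23 x123) = 0 := by
  simp only [cube3]
  linear_combination
    hw _ _ _ _ _ h0 h1 h12 h123 h1234 -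
    hw _ _ _ _ _ h0 h1 h12 h124 h1234 -
    hw _ _ _ _ _ h0 h1 h13 h123 h1234 +
    hw _ _ _ _ _ h0 h1 h13 h134 h1234 +
    hw _ _ _ _ _ h0 h1 h14 h124 h1234 -
    hw _ _ _ _ _ h0 h1 h14 h134 h1234 -
    hw _ _ _ _ _ h0 h2 h12 h123 h1234 +
    hw _ _ _ _ _ h0 h2 h12 h124 h1234 +
    hw _ _ _ _ _ h0 h2 h23 h123 h1234 -
    hw _ _ _ _ _ h0 h2 h23 h234 h1234 -
    hw _ _ _ _ _ h0 h2 h24 h124 h1234 +
    hw _ _ _ _ _ h0 h2 h24 h234 h1234 +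
    hw _ _ _ _ _ h0 h3 h13 h123 h1234 -
    hw _ _ _ _ _ h0 h3 h13 h134 h1234 -
    hw _ _ _ _ _ h0 h3 h23 h123 h1234 +
    hw _ _ _ _ _ h0 h3 h23 h234 h1234 +
    hw _ _ _ _ _ h0 h3 h34 h134 h1234 -
    hw _ _ _ _ _ h0 h3 h34 h234 h1234 -
    hw _ _ _ _ _ h0 h4 h14 h124 h1234 +
    hw _ _ _ _ _ h0 h4 h14 h134 h1234 +
    hw _ _ _ _ _ h0 h4 h24 h124 h1234 -
    hw _ _ _ _ _ h0 h4 h24 h234 h1234 -
    hw _ _ _ _ _ h0 h4 h34 h134 h1234 +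
    hw _ _ _ _ _ h0 h4 h34 h234 h1234

section Cube

variable {π : A →+* B} {Da Db Dc : A →+ B} {X Y Z : QP A}

theorem cube3_blk {g : Y ⟶ Z} (l0 l1 l2 l3 l4 l5 l6 l7 : Tri X Y)
    {u0 u1 u2 u3 u4 u5 u6 u7 : Tri Y Z} (h0 : OK g u0) (h1 : OK g u1) (h2 : OK g u2)
    (h3 : OK g u3) (h4 : OK g u4) (h5 : OK g u5) (h6 : OK g u6) (h7 : OK g u7) :
    cube3 (om π Da Db Dc) (l0.cat u0) (l1.cat u1) (l2.cat u2) (l3.cat u3) (l4.cat u4) (l5.cat u5)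
      (l6.cat u6) (l7.cat u7) = cube3 (om π Da Db Dc) u0 u1 u2 u3 u4 u5 u6 u7 +
        cube3 (om π Da Db Dc) l0 l1 l2 l3 l4 l5 l6 l7 := by
  simp only [cube3]
  rw [om_blk _ _ _ _ h0 h1 h4 h7, om_blk _ _ _ _ h0 h1 h5 h7, om_blk _ _ _ _ h0 h2 h4 h7,
    om_blk _ _ _ _ h0 h2 h6 h7, om_blk _ _ _ _ h0 h3 h5 h7, om_blk _ _ _ _ h0 h3 h6 h7]
  ring

variable (ha : ∀ x y, Da (x * y) = π x * Da y + π y * Da x)
  (hb : ∀ x y, Db (x * y) = π x * Db y + π y * Db x)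
  (hc : ∀ x y, Dc (x * y) = π x * Dc y + π y * Dc x)
include ha hb hc

theorem cube3_deg1 {f : X ⟶ Y} {a b c d : Tri X Y} (h0 : OK f a) (h1 : OK f b) (h2 : OK f c)
    (h3 : OK f d) : cube3 (om π Da Db Dc) a a b c b c d d = 0 := by
  simp only [cube3, om_deg1 ha h0, om_deg2 hb h1, om_deg2 hb h2, om_deg3 hc h3]
  ring

theorem cube3_deg2 {f : X ⟶ Y} {a b c d : Tri X Y} (h0 : OK f a) (h1 : OK f b) (h2 : OK f c)
    (h3 : OK f d) : cube3 (om π Da Db Dc) a b a c b d c d = 0 := by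
  simp only [cube3, om_deg1 ha h0, om_deg2 hb h1, om_deg2 hb h2, om_deg3 hc h3]
  ring

theorem cube3_deg3 {f : X ⟶ Y} {a b c d : Tri X Y} (h0 : OK f a) (h1 : OK f b) (h2 : OK f c)
    (h3 : OK f d) : cube3 (om π Da Db Dc) a b c a d b c d = 0 := by
  simp only [cube3, om_deg1 ha h0, om_deg2 hb h1, om_deg2 hb h2, om_deg3 hc h3]
  ring

end Cube

section Main

variable [IsLocalRing A] {X Y : QP A}

/-- chosen frame data -/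
noncomputable def sd (f : X ⟶ Y) : Tri X Y := (exists_tri f).choose

theorem sd_ok (f : X ⟶ Y) : OK f (sd f) := (exists_tri f).choose_spec.1

/-- the cocycle -/
noncomputable def cocQ (π : A →+* B) (Da Db Dc : A →+ B) : Coc (QP A) B :=
  fun _ _ _ _ _ f1 f2 f3 f4 => -cube3 (om π Da Db Dc) (sd (f1 ≫ f2 ≫ f3 ≫ f4))
    ((sd f1).cat (sd (f2 ≫ f3 ≫ f4)))
    ((sd (f1 ≫ f2)).cat (sd (f3 ≫ f4)))
    ((sd (f1 ≫ f2 ≫ f3)).cat (sd f4))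
    ((sd f1).cat ((sd f2).cat (sd (f3 ≫ f4))))
    ((sd f1).cat ((sd (f2 ≫ f3)).cat (sd f4)))
    ((sd (f1 ≫ f2)).cat ((sd f3).cat (sd f4)))
    ((sd f1).cat ((sd f2).cat ((sd f3).cat (sd f4))))

variable {π : A →+* B} {Da Db Dc : A →+ B}

theorem cocQ_isCoc (ha : ∀ x y, Da (x * y) = π x * Da y + π y * Da x)
    (hb : ∀ x y, Db (x * y) = π x * Db y + π y * Db x)
    (hc : ∀ x y, Dc (x * y) = π x * Dc y + π y * Dc x) : IsCoc (cocQ π Da Db Dc) := by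
  intro X0 X1 X2 X3 X4 X5 f1 f2 f3 f4 f5
  have o05_ : OK (f1 ≫ f2 ≫ f3 ≫ f4 ≫ f5) (sd (f1 ≫ f2 ≫ f3 ≫ f4 ≫ f5)) := by
    simpa only [Category.assoc] using sd_ok (f1 ≫ f2 ≫ f3 ≫ f4 ≫ f5)
  have o05_1 : OK (f1 ≫ f2 ≫ f3 ≫ f4 ≫ f5) ((sd f1).cat (sd (f2 ≫ f3 ≫ f4 ≫ f5))) := by
    simpa only [Category.assoc] using (sd_ok f1).cat (sd_ok (f2 ≫ f3 ≫ f4 ≫ f5))
  have o05_2 : OK (f1 ≫ f2 ≫ f3 ≫ f4 ≫ f5) ((sd (f1 ≫ f2)).cat (sd (f3 ≫ f4 ≫ f5))) := by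
    simpa only [Category.assoc] using (sd_ok (f1 ≫ f2)).cat (sd_ok (f3 ≫ f4 ≫ f5))
  have o05_3 : OK (f1 ≫ f2 ≫ f3 ≫ f4 ≫ f5) ((sd (f1 ≫ f2 ≫ f3)).cat (sd (f4 ≫ f5))) := by
    simpa only [Category.assoc] using (sd_ok (f1 ≫ f2 ≫ f3)).cat (sd_ok (f4 ≫ f5))
  have o05_4 : OK (f1 ≫ f2 ≫ f3 ≫ f4 ≫ f5) ((sd (f1 ≫ f2 ≫ f3 ≫ f4)).cat (sd f5)) := by
    simpa only [Category.assoc] using (sd_ok (f1 ≫ f2 ≫ f3 ≫ f4)).cat (sd_ok f5)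
  have o05_12 : OK (f1 ≫ f2 ≫ f3 ≫ f4 ≫ f5) ((sd f1).cat ((sd f2).cat (sd (f3 ≫ f4 ≫ f5)))) := by
    simpa only [Category.assoc] using (sd_ok f1).cat ((sd_ok f2).cat (sd_ok (f3 ≫ f4 ≫ f5)))
  have o05_13 : OK (f1 ≫ f2 ≫ f3 ≫ f4 ≫ f5) ((sd f1).cat ((sd (f2 ≫ f3)).cat (sd (f4 ≫ f5)))) := by
    simpa only [Category.assoc] using (sd_ok f1).cat ((sd_ok (f2 ≫ f3)).cat (sd_ok (f4 ≫ f5)))
  have o05_14 : OK (f1 ≫ f2 ≫ f3 ≫ f4 ≫ f5) ((sd f1).cat ((sd (f2 ≫ f3 ≫ f4)).cat (sd f5))) := by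
    simpa only [Category.assoc] using (sd_ok f1).cat ((sd_ok (f2 ≫ f3 ≫ f4)).cat (sd_ok f5))
  have o05_23 : OK (f1 ≫ f2 ≫ f3 ≫ f4 ≫ f5) ((sd (f1 ≫ f2)).cat ((sd f3).cat (sd (f4 ≫ f5)))) := by
    simpa only [Category.assoc] using (sd_ok (f1 ≫ f2)).cat ((sd_ok f3).cat (sd_ok (f4 ≫ f5)))
  have o05_24 : OK (f1 ≫ f2 ≫ f3 ≫ f4 ≫ f5) ((sd (f1 ≫ f2)).cat ((sd (f3 ≫ f4)).cat (sd f5))) := by
    simpa only [Category.assoc] using (sd_ok (f1 ≫ f2)).cat ((sd_ok (f3 ≫ f4)).cat (sd_ok f5))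
  have o05_34 : OK (f1 ≫ f2 ≫ f3 ≫ f4 ≫ f5) ((sd (f1 ≫ f2 ≫ f3)).cat ((sd f4).cat (sd f5))) := by
    simpa only [Category.assoc] using (sd_ok (f1 ≫ f2 ≫ f3)).cat ((sd_ok f4).cat (sd_ok f5))
  have o05_123 : OK (f1 ≫ f2 ≫ f3 ≫ f4 ≫ f5) ((sd f1).cat ((sd f2).cat ((sd f3).cat (sd (f4 ≫ f5))))) := by
    simpa only [Category.assoc] using (sd_ok f1).cat ((sd_ok f2).cat ((sd_ok f3).cat (sd_ok (f4 ≫ f5))))
  have o05_124 : OK (f1 ≫ f2 ≫ f3 ≫ f4 ≫ f5) ((sd f1).cat ((sd f2).cat ((sd (f3 ≫ f4)).cat (sd f5)))) := by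
    simpa only [Category.assoc] using (sd_ok f1).cat ((sd_ok f2).cat ((sd_ok (f3 ≫ f4)).cat (sd_ok f5)))
  have o05_134 : OK (f1 ≫ f2 ≫ f3 ≫ f4 ≫ f5) ((sd f1).cat ((sd (f2 ≫ f3)).cat ((sd f4).cat (sd f5)))) := by
    simpa only [Category.assoc] using (sd_ok f1).cat ((sd_ok (f2 ≫ f3)).cat ((sd_ok f4).cat (sd_ok f5)))
  have o05_234 : OK (f1 ≫ f2 ≫ f3 ≫ f4 ≫ f5) ((sd (f1 ≫ f2)).cat ((sd f3).cat ((sd f4).cat (sd f5)))) := by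
    simpa only [Category.assoc] using (sd_ok (f1 ≫ f2)).cat ((sd_ok f3).cat ((sd_ok f4).cat (sd_ok f5)))
  have o05_1234 : OK (f1 ≫ f2 ≫ f3 ≫ f4 ≫ f5) ((sd f1).cat ((sd f2).cat ((sd f3).cat ((sd f4).cat (sd f5))))) := by
    simpa only [Category.assoc] using (sd_ok f1).cat ((sd_ok f2).cat ((sd_ok f3).cat ((sd_ok f4).cat (sd_ok f5))))
  have o15_ : OK (f2 ≫ f3 ≫ f4 ≫ f5) (sd (f2 ≫ f3 ≫ f4 ≫ f5)) := by
    simpa only [Category.assoc] using sd_ok (f2 ≫ f3 ≫ f4 ≫ f5)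
  have o15_2 : OK (f2 ≫ f3 ≫ f4 ≫ f5) ((sd f2).cat (sd (f3 ≫ f4 ≫ f5))) := by
    simpa only [Category.assoc] using (sd_ok f2).cat (sd_ok (f3 ≫ f4 ≫ f5))
  have o15_3 : OK (f2 ≫ f3 ≫ f4 ≫ f5) ((sd (f2 ≫ f3)).cat (sd (f4 ≫ f5))) := by
    simpa only [Category.assoc] using (sd_ok (f2 ≫ f3)).cat (sd_ok (f4 ≫ f5))
  have o15_4 : OK (f2 ≫ f3 ≫ f4 ≫ f5) ((sd (f2 ≫ f3 ≫ f4)).cat (sd f5)) := by
    simpa only [Category.assoc] using (sd_ok (f2 ≫ f3 ≫ f4)).cat (sd_ok f5)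
  have o15_23 : OK (f2 ≫ f3 ≫ f4 ≫ f5) ((sd f2).cat ((sd f3).cat (sd (f4 ≫ f5)))) := by
    simpa only [Category.assoc] using (sd_ok f2).cat ((sd_ok f3).cat (sd_ok (f4 ≫ f5)))
  have o15_24 : OK (f2 ≫ f3 ≫ f4 ≫ f5) ((sd f2).cat ((sd (f3 ≫ f4)).cat (sd f5))) := by
    simpa only [Category.assoc] using (sd_ok f2).cat ((sd_ok (f3 ≫ f4)).cat (sd_ok f5))
  have o15_34 : OK (f2 ≫ f3 ≫ f4 ≫ f5) ((sd (f2 ≫ f3)).cat ((sd f4).cat (sd f5))) := by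
    simpa only [Category.assoc] using (sd_ok (f2 ≫ f3)).cat ((sd_ok f4).cat (sd_ok f5))
  have o15_234 : OK (f2 ≫ f3 ≫ f4 ≫ f5) ((sd f2).cat ((sd f3).cat ((sd f4).cat (sd f5)))) := by
    simpa only [Category.assoc] using (sd_ok f2).cat ((sd_ok f3).cat ((sd_ok f4).cat (sd_ok f5)))
  have o25_ : OK (f3 ≫ f4 ≫ f5) (sd (f3 ≫ f4 ≫ f5)) := by
    simpa only [Category.assoc] using sd_ok (f3 ≫ f4 ≫ f5)
  have o25_3 : OK (f3 ≫ f4 ≫ f5) ((sd f3).cat (sd (f4 ≫ f5))) := by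
    simpa only [Category.assoc] using (sd_ok f3).cat (sd_ok (f4 ≫ f5))
  have o25_4 : OK (f3 ≫ f4 ≫ f5) ((sd (f3 ≫ f4)).cat (sd f5)) := by
    simpa only [Category.assoc] using (sd_ok (f3 ≫ f4)).cat (sd_ok f5)
  have o25_34 : OK (f3 ≫ f4 ≫ f5) ((sd f3).cat ((sd f4).cat (sd f5))) := by
    simpa only [Category.assoc] using (sd_ok f3).cat ((sd_ok f4).cat (sd_ok f5))
  have o35_ : OK (f4 ≫ f5) (sd (f4 ≫ f5)) := by
    simpa only [Category.assoc] using sd_ok (f4 ≫ f5)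
  have o35_4 : OK (f4 ≫ f5) ((sd f4).cat (sd f5)) := by
    simpa only [Category.assoc] using (sd_ok f4).cat (sd_ok f5)
  have o45_ : OK f5 (sd f5) := by
    simpa only [Category.assoc] using sd_ok f5
  have o01_ : OK f1 (sd f1) := by
    simpa only [Category.assoc] using sd_ok f1
  have o02_ : OK (f1 ≫ f2) (sd (f1 ≫ f2)) := by
    simpa only [Category.assoc] using sd_ok (f1 ≫ f2)
  have o02_1 : OK (f1 ≫ f2) ((sd f1).cat (sd f2)) := by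
    simpa only [Category.assoc] using (sd_ok f1).cat (sd_ok f2)
  have o03_ : OK (f1 ≫ f2 ≫ f3) (sd (f1 ≫ f2 ≫ f3)) := by
    simpa only [Category.assoc] using sd_ok (f1 ≫ f2 ≫ f3)
  have o03_1 : OK (f1 ≫ f2 ≫ f3) ((sd f1).cat (sd (f2 ≫ f3))) := by
    simpa only [Category.assoc] using (sd_ok f1).cat (sd_ok (f2 ≫ f3))
  have o03_2 : OK (f1 ≫ f2 ≫ f3) ((sd (f1 ≫ f2)).cat (sd f3)) := by
    simpa only [Category.assoc] using (sd_ok (f1 ≫ f2)).cat (sd_ok f3)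
  have o03_12 : OK (f1 ≫ f2 ≫ f3) ((sd f1).cat ((sd f2).cat (sd f3))) := by
    simpa only [Category.assoc] using (sd_ok f1).cat ((sd_ok f2).cat (sd_ok f3))
  have st := stokes4 (om π Da Db Dc) (OK (f1 ≫ f2 ≫ f3 ≫ f4 ≫ f5))
    (fun _ _ _ _ _ => om_coc ha hb hc) o05_ o05_1 o05_2 o05_3 o05_4 o05_12 o05_13 o05_14
    o05_23 o05_24 o05_34 o05_123 o05_124 o05_134 o05_234 o05_1234
  have b1 := cube3_blk (π := π) (Da := Da) (Db := Db) (Dc := Dc)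
    (sd f1)
    (sd f1)
    (sd f1)
    (sd f1)
    (sd f1)
    (sd f1)
    (sd f1)
    (sd f1)
    o15_ o15_2 o15_3 o15_4 o15_23 o15_24 o15_34 o15_234
  have b2 := cube3_blk (π := π) (Da := Da) (Db := Db) (Dc := Dc)
    (sd (f1 ≫ f2))
    ((sd f1).cat (sd f2))
    (sd (f1 ≫ f2))
    (sd (f1 ≫ f2))
    ((sd f1).cat (sd f2))
    ((sd f1).cat (sd f2))
    (sd (f1 ≫ f2))
    ((sd f1).cat (sd f2))
    o25_ o25_ o25_3 o25_4 o25_3 o25_4 o25_34 o25_34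
  have b3 := cube3_blk (π := π) (Da := Da) (Db := Db) (Dc := Dc)
    (sd (f1 ≫ f2 ≫ f3))
    ((sd f1).cat (sd (f2 ≫ f3)))
    ((sd (f1 ≫ f2)).cat (sd f3))
    (sd (f1 ≫ f2 ≫ f3))
    ((sd f1).cat ((sd f2).cat (sd f3)))
    ((sd f1).cat (sd (f2 ≫ f3)))
    ((sd (f1 ≫ f2)).cat (sd f3))
    ((sd f1).cat ((sd f2).cat (sd f3)))
    o35_ o35_ o35_ o35_4 o35_ o35_4 o35_4 o35_4
  have b4 := cube3_blk (π := π) (Da := Da) (Db := Db) (Dc := Dc)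
    (sd (f1 ≫ f2 ≫ f3 ≫ f4))
    ((sd f1).cat (sd (f2 ≫ f3 ≫ f4)))
    ((sd (f1 ≫ f2)).cat (sd (f3 ≫ f4)))
    ((sd (f1 ≫ f2 ≫ f3)).cat (sd f4))
    ((sd f1).cat ((sd f2).cat (sd (f3 ≫ f4))))
    ((sd f1).cat ((sd (f2 ≫ f3)).cat (sd f4)))
    ((sd (f1 ≫ f2)).cat ((sd f3).cat (sd f4)))
    ((sd f1).cat ((sd f2).cat ((sd f3).cat (sd f4))))
    o45_ o45_ o45_ o45_ o45_ o45_ o45_ o45_
  have d1 := cube3_deg1 ha hb hc o01_ o01_ o01_ o01_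
  have d2u := cube3_deg1 ha hb hc o25_ o25_3 o25_4 o25_34
  have d2l := cube3_deg2 ha hb hc o02_ o02_1 o02_ o02_1
  have d3u := cube3_deg1 ha hb hc o35_ o35_ o35_4 o35_4
  have d3l := cube3_deg3 ha hb hc o03_ o03_1 o03_2 o03_12
  have d4 := cube3_deg1 ha hb hc o45_ o45_ o45_ o45_
  simp only [Tri.cat_assoc] at b1 b2 b3 b4
  simp only [cocQ, Category.assoc]
  linear_combination -st + b1 - b2 + b3 - b4 + d1 - d2u - d2l + d3u + d3l - d4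

theorem sd_nil {f : X ⟶ Y} (hf : ∀ y, ∃ x, (x, y) ∈ f.1) : (sd f).U = [] := by
  rw [List.eq_nil_iff_forall_not_mem]
  intro p hp
  obtain ⟨x, hx⟩ := hf p.2
  have h1 := (sd_ok f).van p hp _ _ hx
  rw [(exists_tri f).choose_spec.2.1 p hp] at h1
  exact one_ne_zero h1

theorem cat_sd_id (u : Tri X Y) : ((sd (𝟙 X)).cat u).U = u.U := by
  simp [Tri.cat, sd_nil (f := 𝟙 X) fun y => ⟨y, rfl⟩]

/-- rescaled frame of the rank one module -/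
def scl (p : (A →ₗ[A] A) × A) (w : Aˣ) : Fr (rk1 A) :=
  [(p.1 ∘ₗ (smulHom (rk1 A) w).symm.toLinearMap, smulHom (rk1 A) w p.2)]

theorem cat_sd_sc (l : Tri X (rk1 A)) {p : (A →ₗ[A] A) × A} {w : Aˣ} (h : l.U = scl p w)
    (w' : Aˣ) : (l.cat (sd (sc w'))).U = scl p (w' * w) := by
  have h1 : (sd (sc w')).U = [] :=
    sd_nil fun y => ⟨(smulHom (rk1 A) w').symm y, (mem_qG _ _ _).2 (by simp)⟩
  have h2 : (sd (sc w')).a = (smulHom (rk1 A) w').symm.toLinearMap :=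
    LinearMap.ext fun y => (sd_ok (sc w')).ha _ _ ((mem_qG _ _ _).2 (by simp))
  have h3 : ∀ x, (sd (sc w')).s x = smulHom (rk1 A) w' x := fun x =>
    (mem_qG _ _ _).1 ((sd_ok (sc w')).hs x)
  simp only [Tri.cat, h, h1, h2, h3, scl, List.nil_append, List.map_cons, List.map_nil, map_mul]
  rfl

theorem sd_qI (Z : QP A) [Subsingleton Z.M] :
    ∃ p : (A →ₗ[A] A) × A, p.1 p.2 = 1 ∧ (sd (qI Z (rk1 A))).U = scl p 1 := by
  have h1 := (exists_tri (qI Z (rk1 A))).choose_spec.2.1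
  have h2 := (exists_tri (qI Z (rk1 A))).choose_spec.2.2
  have h3 := (sd_ok (qI Z (rk1 A))).cpl
  change ∀ p ∈ (sd (qI Z (rk1 A))).U, _ at h1
  change (sd (qI Z (rk1 A))).U.Pairwise _ at h2
  rcases hU : (sd (qI Z (rk1 A))).U with _ | ⟨p, _ | ⟨q, l⟩⟩
  · obtain ⟨x, hx⟩ := h3 (1 : A)
    rw [hU, mem_qI] at hx
    exact absurd (show (1 : A) = 0 from (sub_zero _).symm.trans hx) one_ne_zero
  · refine ⟨p, h1 p (by simp [hU]), ?_⟩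
    simp only [scl, map_one]
    rfl
  · exfalso
    rw [hU] at h1 h2
    have e : ∀ (l : A →ₗ[A] A) (x : A), l x = x * l 1 := fun l x => by
      rw [← smul_eq_mul, ← map_smul, smul_eq_mul, mul_one]
    have e1 := (e p.1 p.2).symm.trans (h1 p (by simp))
    have e2 := (e q.1 q.2).symm.trans (h1 q (by simp))
    have e3 := (e p.1 q.2).symm.trans (List.rel_of_pairwise_cons h2 (by simp : q ∈ q :: l))
    have key : ∀ x y u v : A, x * u = 1 → y * v = 1 → y * u = 0 → (1 : A) = 0 :=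
      fun x y u v e1 e2 e3 => by linear_combination x * v * e3 - e1 - x * u * e2
    exact one_ne_zero (key _ _ _ _ e1 e2 e3)

omit [IsLocalRing A] in
theorem om_scl {t0 t1 t2 t3 : Tri X (rk1 A)} {p : (A →ₗ[A] A) × A} (hp : p.1 p.2 = 1)
    {w0 w1 w2 w3 : Aˣ} (h0 : t0.U = scl p w0) (h1 : t1.U = scl p w1) (h2 : t2.U = scl p w2)
    (h3 : t3.U = scl p w3) : om π Da Db Dc t0 t1 t2 t3 =
      Da (w0⁻¹ * w1 : Aˣ) * Db (w1⁻¹ * w2 : Aˣ) * Dc (w2⁻¹ * w3 : Aˣ) * π (w3⁻¹ * w0 : Aˣ) := by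
  have e : ∀ w w' : Aˣ, (p.1 ∘ₗ (smulHom (rk1 A) w).symm.toLinearMap)
      (smulHom (rk1 A) w' p.2) = (w⁻¹ * w' : Aˣ) := fun w w' => by
    change p.1 (((w⁻¹ : Aˣ) : A) • (w' : A) • p.2) = _
    rw [map_smul, map_smul, hp]
    simp
  simp only [om, h0, h1, h2, h3, scl, sm, List.map_cons, List.map_nil, List.sum_cons, List.sum_nil,
    add_zero, e]

omit [IsLocalRing A] in
theorem sc_comp (w w' : Aˣ) : sc w ≫ sc w' = sc (w' * w) := by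
  rw [sc, sc, qG_comp, sc, map_mul]
  rfl

omit [IsLocalRing A] in
theorem qI_sc (Z : QP A) [Subsingleton Z.M] (w : Aˣ) : qI Z (rk1 A) ≫ sc w = qI Z (rk1 A) :=
  qI_qG Z _

end Main

theorem exists_cocSpec [IsLocalRing A] (π : A →+* B) (D : Fin 3 → A →+ B)
    (hD : ∀ k x y, D k (x * y) = π x * D k y + π y * D k x) (Z : QP A) [Subsingleton Z.M] :
    ∃ c : Coc (QP A) B, CocSpec π D Z c := by
  obtain ⟨p, hp, h0⟩ := sd_qI Z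
  have hD1 : ∀ k, D k 1 = 0 := fun k => by simpa using hD k 1 1
  have i0 := (cat_sd_id (sd (qI Z (rk1 A)))).trans h0
  refine ⟨cocQ π (D 2) (D 1) (D 0), cocQ_isCoc (hD 2) (hD 1) (hD 0), ?_, ?_, ?_, ?_, ?_⟩
  · intro X0 X1 X2 X3 X4 f1 f2 f3 f4 h
    simp only [cocQ, cube3, om_zero h (sd_ok _)]
    ring
  · intro w1 w2 w3
    have a := fun w => cat_sd_sc _ h0 w
    have b := fun w w' => cat_sd_sc _ (a w) w'
    have c := cat_sd_sc _ (b w1 w2) w3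
    simp only [cocQ, cube3, sc_comp, qI_sc, ← Tri.cat_assoc]
    rw [om_scl hp h0 (a _) (b _ _) c, om_scl hp h0 (a _) (b _ _) c, om_scl hp h0 (a _) (b _ _) c,
      om_scl hp h0 (a _) (b _ _) c, om_scl hp h0 (a _) (b _ _) c, om_scl hp h0 (a _) (b _ _) c]
    simp only [mul_one, inv_one, one_mul, mul_assoc, inv_mul_cancel, Units.val_one, hD1, mul_zero,
      zero_mul, mul_inv_rev, inv_mul_cancel_left, dlog, Units.val_mul, map_mul]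
    ring
  · intro w2 w3
    have a := fun w => cat_sd_sc _ h0 w
    have b := cat_sd_sc _ (a w2) w3
    simp only [Tri.cat_assoc] at b
    have a' := fun w => (cat_sd_id _).trans (a w)
    have b' := (cat_sd_id _).trans b
    simp only [cocQ, cube3, sc_comp, qI_sc, Category.id_comp]
    rw [om_scl hp h0 i0 (a' _) b', om_scl hp h0 i0 (a' _) b', om_scl hp h0 (a _) (a' _) b',
      om_scl hp h0 (a _) b b', om_scl hp h0 (a _) (a' _) b', om_scl hp h0 (a _) b b']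
    simp [hD1]
  · intro w3
    have a := cat_sd_sc _ h0 w3
    have a' := (cat_sd_id _).trans a
    have a'' := (cat_sd_id _).trans a'
    have i1 := (cat_sd_id _).trans i0
    simp only [cocQ, cube3, qI_sc, Category.id_comp]
    rw [om_scl hp h0 i0 i1 a'', om_scl hp h0 i0 a' a'', om_scl hp h0 a a' a'']
    simp [hD1]
  · simp only [cocQ, cube3, Category.id_comp]
    ring

end Vale.Agent.P178
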