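import Vale.Agent.P178.Fam

/-! P178: loops of periodic maps out of a cube (maps out of a torus). -/

namespace Vale.Agent.P178

open unitInterval Function

universe u v w

/-- periodic maps out of a cube -/
def Per (ι : Type) [DecidableEq ι] (X : Type u) [TopologicalSpace X] : Type u :=
  {f : C(ι → I, X) // ∀ y i, f (update y i 0) = f (update y i 1)}

instance (ι : Type) [DecidableEq ι] (X : Type u) [TopologicalSpace X] :
    TopologicalSpace (Per ι X) :=
  inferInstanceAs (TopologicalSpace {f : C(ι → I, X) // ∀ y i, f (update y i 0) = f (update y i 1)})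

/-- constant periodic map -/
def Per.cst (ι : Type) [DecidableEq ι] {X : Type u} [TopologicalSpace X] (x0 : X) : Per ι X :=
  ⟨ContinuousMap.const _ x0, fun _ _ => rfl⟩

/-- loops of periodic maps, uncurried -/
def Lp (ι : Type) [DecidableEq ι] {X : Type u} [TopologicalSpace X] (x0 : X) : Type u :=
  {F : C(I × (ι → I), X) // (∀ y, F (0, y) = x0) ∧ (∀ y, F (1, y) = x0) ∧
    ∀ s y i, F (s, update y i 0) = F (s, update y i 1)}

instance (ι : Type) [DecidableEq ι] {X : Type u} [TopologicalSpace X] (x0 : X) :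
    TopologicalSpace (Lp ι x0) :=
  inferInstanceAs (TopologicalSpace {F : C(I × (ι → I), X) // (∀ y, F (0, y) = x0) ∧
    (∀ y, F (1, y) = x0) ∧ ∀ s y i, F (s, update y i 0) = F (s, update y i 1)})

/-- the fundamental group of the space of periodic maps -/
def Gam (ι : Type) [DecidableEq ι] {X : Type u} [TopologicalSpace X] (x0 : X) : Type u :=
  FundamentalGroup (Per ι X) (Per.cst ι x0)

noncomputable instance (ι : Type) [DecidableEq ι] {X : Type u} [TopologicalSpace X] (x0 : X) :
    Group (Gam ι x0) :=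
  inferInstanceAs (Group (FundamentalGroup (Per ι X) (Per.cst ι x0)))

variable {ι ι' : Type} [DecidableEq ι] [DecidableEq ι'] {X : Type u} [TopologicalSpace X] {x0 : X}
  {X' : Type v} [TopologicalSpace X'] {x0' : X'}

theorem Lp.ext {F G : Lp ι x0} (h : ∀ s y, F.1 (s, y) = G.1 (s, y)) : F = G :=
  Subtype.ext (ContinuousMap.ext fun p => h p.1 p.2)

theorem Lp.continuous_mk {Z : Type w} [TopologicalSpace Z] (f : Z → Lp ι x0)
    (h : Continuous fun p : Z × (I × (ι → I)) => (f p.1).1 p.2) : Continuous f :=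
  Continuous.subtype_mk (ContinuousMap.continuous_of_continuous_uncurry (fun z => (f z).1) h) _

theorem Lp.continuous_eval : Continuous fun p : Lp ι x0 × (I × (ι → I)) => p.1.1 p.2 :=
  (continuous_subtype_val.comp continuous_fst).eval continuous_snd

/-- the curried loop -/
def Lp.toPath (F : Lp ι x0) : Path (Per.cst ι x0) (Per.cst ι x0) where
  toFun s := ⟨F.1.curry s, fun y i => F.2.2.2 s y i⟩
  continuous_toFun := F.1.curry.continuous.subtype_mk _
  source' := Subtype.ext (ContinuousMap.ext fun y => F.2.1 y)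
  target' := Subtype.ext (ContinuousMap.ext fun y => F.2.2.1 y)

/-- the class of a loop -/
def cls (F : Lp ι x0) : Gam ι x0 :=
  FundamentalGroup.fromPath (Path.Homotopic.Quotient.mk F.toPath)

/-- the constant loop -/
def Lp.cst (ι : Type) [DecidableEq ι] (x0 : X) : Lp ι x0 :=
  ⟨ContinuousMap.const _ x0, fun _ => rfl, fun _ => rfl, fun _ _ _ => rfl⟩

theorem per_cl_of_le {x : ℝ} (h : x ≤ 0) : cl x = 0 := Set.projIcc_of_le_left _ h

theorem per_cl_of_ge {x : ℝ} (h : 1 ≤ x) : cl x = 1 := Set.projIcc_of_right_le _ h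

theorem per_cl_of_mem {x : ℝ} (h : x ∈ I) : cl x = ⟨x, h⟩ := Set.projIcc_of_mem _ h

theorem Lp.conc_aux (F G : Lp ι x0) : Continuous fun p : I × (ι → I) =>
    if (p.1 : ℝ) ≤ 1 / 2 then F.1 (cl (2 * p.1), p.2) else G.1 (cl (2 * p.1 - 1), p.2) := by
  have h1 : Continuous fun p : I × (ι → I) => (p.1 : ℝ) :=
    continuous_subtype_val.comp continuous_fst
  refine Continuous.if_le ?_ ?_ h1 continuous_const ?_
  · exact F.1.continuous.comp
      ((continuous_cl.comp (continuous_const.mul h1)).prodMk continuous_snd)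
  · exact G.1.continuous.comp
      ((continuous_cl.comp ((continuous_const.mul h1).sub continuous_const)).prodMk continuous_snd)
  · intro p hp
    rw [hp, per_cl_of_ge (by norm_num), per_cl_of_le (by norm_num), F.2.2.1, G.2.1]

/-- concatenation of loops -/
noncomputable def Lp.conc (F G : Lp ι x0) : Lp ι x0 :=
  ⟨⟨fun p => if (p.1 : ℝ) ≤ 1 / 2 then F.1 (cl (2 * p.1), p.2) else G.1 (cl (2 * p.1 - 1), p.2),
    F.conc_aux G⟩, by
    refine ⟨fun y => ?_, fun y => ?_, fun s y i => ?_⟩
    · show (if ((0 : I) : ℝ) ≤ 1 / 2 then F.1 (cl (2 * ((0 : I) : ℝ)), y)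
        else G.1 (cl (2 * ((0 : I) : ℝ) - 1), y)) = x0
      rw [if_pos (by norm_num), per_cl_of_le (by norm_num), F.2.1]
    · show (if ((1 : I) : ℝ) ≤ 1 / 2 then F.1 (cl (2 * ((1 : I) : ℝ)), y)
        else G.1 (cl (2 * ((1 : I) : ℝ) - 1), y)) = x0
      rw [if_neg (by norm_num), per_cl_of_ge (by norm_num), G.2.2.1]
    · show (if (s : ℝ) ≤ 1 / 2 then F.1 (cl (2 * s), update y i 0)
        else G.1 (cl (2 * s - 1), update y i 0)) = (if (s : ℝ) ≤ 1 / 2 then
          F.1 (cl (2 * s), update y i 1) else G.1 (cl (2 * s - 1), update y i 1))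
      rw [F.2.2.2, G.2.2.2]⟩

theorem Lp.conc_apply (F G : Lp ι x0) (s : I) (y : ι → I) : (F.conc G).1 (s, y) =
    if (s : ℝ) ≤ 1 / 2 then F.1 (cl (2 * s), y) else G.1 (cl (2 * s - 1), y) := rfl

theorem per_continuous_eval : Continuous fun p : Per ι X × (ι → I) => p.1.1 p.2 :=
  (continuous_subtype_val.comp continuous_fst).eval continuous_snd

theorem per_continuous_mk {Z : Type w} [TopologicalSpace Z] (f : Z → Per ι X)
    (h : Continuous fun p : Z × (ι → I) => (f p.1).1 p.2) : Continuous f :=
  Continuous.subtype_mk (ContinuousMap.continuous_of_continuous_uncurry (fun z => (f z).1) h) _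

/-- the uncurried loop -/
def perOfPath (γ : Path (Per.cst ι x0) (Per.cst ι x0)) : Lp ι x0 :=
  ⟨⟨fun p => (γ p.1).1 p.2,
    per_continuous_eval.comp ((γ.continuous.comp continuous_fst).prodMk continuous_snd)⟩,
    fun y => by
      show (γ 0).1 y = x0
      rw [γ.source]; rfl,
    fun y => by
      show (γ 1).1 y = x0
      rw [γ.target]; rfl,
    fun s y i => (γ s).2 y i⟩

theorem per_toPath_ofPath (γ : Path (Per.cst ι x0) (Per.cst ι x0)) : (perOfPath γ).toPath = γ := by
  ext s
  rfl

theorem per_toPath_injective {F G : Lp ι x0} (h : F.toPath = G.toPath) : F = G :=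
  Lp.ext fun s y => congrArg (fun γ : Path (Per.cst ι x0) (Per.cst ι x0) => (γ s).1 y) h

theorem cls_surjective : Surjective (cls : Lp ι x0 → Gam ι x0) := by
  intro g
  obtain ⟨γ, hγ⟩ := Path.Homotopic.Quotient.mk_surjective (FundamentalGroup.toPath g)
  refine ⟨perOfPath γ, ?_⟩
  rw [cls, per_toPath_ofPath, hγ]

theorem cls_eq_iff {F G : Lp ι x0} : cls F = cls G ↔ Joined F G := by
  have h0 : cls F = cls G ↔ F.toPath.Homotopic G.toPath := Path.Homotopic.Quotient.eq
  rw [h0]
  constructor
  · rintro ⟨H⟩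
    refine ⟨⟨⟨fun r => perOfPath (H.eval r), Lp.continuous_mk _ ?_⟩, ?_, ?_⟩⟩
    · show Continuous fun p : I × (I × (ι → I)) => (H (p.1, p.2.1)).1 p.2.2
      exact per_continuous_eval.comp ((H.continuous.comp (continuous_fst.prodMk
        (continuous_fst.comp continuous_snd))).prodMk (continuous_snd.comp continuous_snd))
    · apply per_toPath_injective
      show (perOfPath (H.eval 0)).toPath = _
      rw [per_toPath_ofPath, H.eval_zero]
    · apply per_toPath_injective
      show (perOfPath (H.eval 1)).toPath = _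
      rw [per_toPath_ofPath, H.eval_one]
  · rintro ⟨γ⟩
    refine ⟨⟨⟨⟨fun p => (γ p.1).toPath p.2, per_continuous_mk _ ?_⟩, ?_, ?_⟩, ?_⟩⟩
    · show Continuous fun p : (I × I) × (ι → I) => (γ p.1.1).1 (p.1.2, p.2)
      exact Lp.continuous_eval.comp ((γ.continuous.comp (continuous_fst.comp continuous_fst)).prodMk
        ((continuous_snd.comp continuous_fst).prodMk continuous_snd))
    · intro s
      show (γ 0).toPath s = _
      rw [γ.source]; rfl
    · intro s
      show (γ 1).toPath s = _
      rw [γ.target]; rfl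
    · intro r s hs
      show (γ r).toPath s = F.toPath s
      rcases hs with rfl | rfl
      · rw [Path.source, Path.source]
      · rw [Path.target, Path.target]

theorem per_toPath_conc (F G : Lp ι x0) : (F.conc G).toPath = F.toPath.trans G.toPath := by
  ext s
  rw [Path.trans_apply]
  apply Subtype.ext
  apply ContinuousMap.ext
  intro y
  show (if (s : ℝ) ≤ 1 / 2 then F.1 (cl (2 * s), y) else G.1 (cl (2 * s - 1), y)) = _
  split_ifs with h
  · rw [per_cl_of_mem ((mul_pos_mem_iff zero_lt_two).2 ⟨s.2.1, h⟩)]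
    rfl
  · rw [per_cl_of_mem (two_mul_sub_one_mem_iff.2 ⟨(not_le.1 h).le, s.2.2⟩)]
    rfl

theorem cls_conc (F G : Lp ι x0) : cls (F.conc G) = cls G * cls F := by
  rw [cls, per_toPath_conc, Path.Homotopic.Quotient.mk_trans]
  rfl

theorem cls_cst : cls (Lp.cst ι x0) = 1 := by
  have h : (Lp.cst ι x0).toPath = Path.refl _ := by
    ext s
    rfl
  rw [cls, h]
  rfl

theorem exists_liftHom {H : Type w} [Group H] (h : Lp ι x0 → H)
    (hj : ∀ F G, Joined F G → h F = h G) (hc : ∀ F G, h (F.conc G) = h G * h F) :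
    ∃ φ : Gam ι x0 →* H, ∀ F, φ (cls F) = h F := by
  have key : ∀ F : Lp ι x0, h (surjInv cls_surjective (cls F)) = h F := fun F =>
    hj _ _ (cls_eq_iff.1 (surjInv_eq cls_surjective (cls F)))
  refine ⟨MonoidHom.mk' (fun g => h (surjInv cls_surjective g)) fun a b => ?_, key⟩
  obtain ⟨F, rfl⟩ := cls_surjective a
  obtain ⟨G, rfl⟩ := cls_surjective b
  rw [← cls_conc, key, key, key, hc]

/-- periodicity in several coordinates at once -/
theorem per_multi [Finite ι] (f : (ι → I) → X) (hf : ∀ y i, f (update y i 0) = f (update y i 1))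
    (y y' : ι → I) (h : ∀ i, y i = y' i ∨ ((y i = 0 ∨ y i = 1) ∧ (y' i = 0 ∨ y' i = 1))) :
    f y = f y' := by
  have h2 : ∀ (z : ι → I) (i : ι) (a b : I), (a = 0 ∨ a = 1) → (b = 0 ∨ b = 1) →
      f (update z i a) = f (update z i b) := by
    rintro z i a b (rfl | rfl) (rfl | rfl)
    · rfl
    · exact hf z i
    · exact (hf z i).symm
    · rfl
  have key : ∀ s : Finset ι, f y = f (s.piecewise y' y) := by
    intro s
    induction s using Finset.induction_on with
    | empty => simp
    | insert i s hi ih =>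
      rw [ih, Finset.piecewise_insert]
      have h3 : s.piecewise y' y = update (s.piecewise y' y) i (y i) := by
        rw [← Finset.piecewise_eq_of_notMem s y' y hi, update_eq_self]
      rcases h i with h | h
      · rw [← h, ← h3]
      · rw [h3, update_idem]
        exact h2 _ i _ _ h.1 h.2
  have := Fintype.ofFinite ι
  rw [key Finset.univ, Finset.piecewise_univ]

/-- postcomposition -/
def Lp.map (f : C(X, X')) (hf : f x0 = x0') (F : Lp ι x0) : Lp ι x0' :=
  ⟨f.comp F.1, fun y => (congrArg f (F.2.1 y)).trans hf, fun y => (congrArg f (F.2.2.1 y)).trans hf,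
    fun s y i => congrArg f (F.2.2.2 s y i)⟩

/-- the map of cubes attached to `φ` -/
def reCube (φ : ι → Option ι') (y : ι' → I) : ι → I := fun i => (φ i).elim 0 y

theorem continuous_reCube (φ : ι → Option ι') : Continuous (reCube φ) := by
  refine continuous_pi fun i => ?_
  unfold reCube
  cases φ i with
  | none => exact continuous_const
  | some j => exact continuous_apply j

/-- reindexing -/
def Lp.re [Finite ι] (φ : ι → Option ι') (F : Lp ι x0) : Lp ι' x0 :=
  ⟨⟨fun p => F.1 (p.1, reCube φ p.2),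
    F.1.continuous.comp (continuous_fst.prodMk ((continuous_reCube φ).comp continuous_snd))⟩,
    fun _ => F.2.1 _, fun _ => F.2.2.1 _, fun s y j => by
      refine per_multi (fun z => F.1 (s, z)) (F.2.2.2 s) _ _ fun i => ?_
      unfold reCube
      cases φ i with
      | none => exact Or.inl rfl
      | some k =>
        by_cases hk : k = j
        · subst hk
          right
          simp
        · left
          simp [update_of_ne hk]⟩

theorem exists_mapHom (f : C(X, X')) (hf : f x0 = x0') :
    ∃ φ : Gam ι x0 →* Gam ι x0', ∀ F, φ (cls F) = cls (F.map f hf) := by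
  have hc : Continuous (Lp.map f hf : Lp ι x0 → Lp ι x0') :=
    Lp.continuous_mk _ (f.continuous.comp Lp.continuous_eval)
  refine exists_liftHom (fun F => cls (F.map f hf)) (fun F G h => cls_eq_iff.2 (h.map hc))
    fun F G => ?_
  rw [← cls_conc]
  refine congrArg cls (Lp.ext fun s y => ?_)
  exact apply_ite f _ _ _

theorem exists_reHom [Finite ι] (φ : ι → Option ι') :
    ∃ ψ : Gam ι x0 →* Gam ι' x0, ∀ F, ψ (cls F) = cls (F.re φ) := by
  have hc : Continuous (Lp.re φ : Lp ι x0 → Lp ι' x0) :=
    Lp.continuous_mk _ (Lp.continuous_eval.comp (continuous_fst.prodMk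
      ((continuous_fst.comp continuous_snd).prodMk
        ((continuous_reCube φ).comp (continuous_snd.comp continuous_snd)))))
  refine exists_liftHom (fun F => cls (F.re φ)) (fun F G h => cls_eq_iff.2 (h.map hc))
    fun F G => ?_
  rw [← cls_conc]
  exact congrArg cls (Lp.ext fun s y => rfl)

/-- the homomorphism induced by a based map -/
noncomputable def Gam.map (f : C(X, X')) (hf : f x0 = x0') : Gam ι x0 →* Gam ι x0' :=
  (exists_mapHom f hf).choose

theorem Gam.map_cls (f : C(X, X')) (hf : f x0 = x0') (F : Lp ι x0) :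
    Gam.map f hf (cls F) = cls (F.map f hf) := (exists_mapHom f hf).choose_spec F

/-- the homomorphism induced by reindexing -/
noncomputable def Gam.re [Finite ι] (φ : ι → Option ι') : Gam ι x0 →* Gam ι' x0 :=
  (exists_reHom φ).choose

theorem Gam.re_cls [Finite ι] (φ : ι → Option ι') (F : Lp ι x0) :
    Gam.re φ (cls F) = cls (F.re φ) := (exists_reHom φ).choose_spec F

/-- loops coming from a family of periodic maps -/
theorem exists_thetaHom {Z : Type w} [TopologicalSpace Z] (Θ : C(Z × (ι → I), X))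
    (hΘ : ∀ z y i, Θ (z, update y i 0) = Θ (z, update y i 1)) (z0 : Z) (h0 : ∀ y, Θ (z0, y) = x0) :
    ∃ φ : FundamentalGroup Z z0 →* Gam ι x0, ∀ (γ : Path z0 z0) (F : Lp ι x0),
      (∀ s y, F.1 (s, y) = Θ (γ s, y)) →
        φ (FundamentalGroup.fromPath (Path.Homotopic.Quotient.mk γ)) = cls F := by
  let θ : C(Z, Per ι X) := ⟨fun z => ⟨Θ.curry z, fun y i => hΘ z y i⟩,
    Θ.curry.continuous.subtype_mk _⟩
  have hθ : θ z0 = Per.cst ι x0 := Subtype.ext (ContinuousMap.ext h0)
  refine ⟨FundamentalGroup.mapOfEq θ hθ, fun γ F hF => ?_⟩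
  have h1 : F.toPath = (γ.map θ.continuous).cast hθ.symm hθ.symm := by
    ext s
    exact Subtype.ext (ContinuousMap.ext fun y => hF s y)
  rw [cls, h1, Path.Homotopic.Quotient.mk_cast, Path.Homotopic.Quotient.mk_map]
  exact FundamentalGroup.mapOfEq_apply θ hθ _

theorem joined_sum_of [Finite ι] {F G : Lp (Fin 2 ⊕ ι) x0} (K : C(I × I × I, Lp ι x0))
    (h1 : ∀ r t, K (r, 0, t) = K (r, 1, t)) (h2 : ∀ r t, K (r, t, 0) = K (r, t, 1))
    (hF : ∀ t t' s y, (K (0, t, t')).1 (s, y) = F.1 (s, Sum.elim ![t, t'] y))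
    (hG : ∀ t t' s y, (K (1, t, t')).1 (s, y) = G.1 (s, Sum.elim ![t, t'] y)) : Joined F G := by
  have he : ∀ y : Fin 2 ⊕ ι → I,
      Sum.elim ![y (Sum.inl 0), y (Sum.inl 1)] (fun i => y (Sum.inr i)) = y := by
    intro y
    funext i
    rcases i with i | i
    · fin_cases i <;> rfl
    · rfl
  have hc : Continuous fun p : I × (I × (Fin 2 ⊕ ι → I)) =>
      (K (p.1, p.2.2 (Sum.inl 0), p.2.2 (Sum.inl 1))).1 (p.2.1, fun i => p.2.2 (Sum.inr i)) := by
    have h22 : Continuous fun p : I × (I × (Fin 2 ⊕ ι → I)) => p.2.2 :=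
      continuous_snd.comp continuous_snd
    refine Lp.continuous_eval.comp ((K.continuous.comp (continuous_fst.prodMk
      (((continuous_apply (Sum.inl 0 : Fin 2 ⊕ ι)).comp h22).prodMk
        ((continuous_apply (Sum.inl 1 : Fin 2 ⊕ ι)).comp h22)))).prodMk
      ((continuous_fst.comp continuous_snd).prodMk
        (continuous_pi fun i => (continuous_apply (Sum.inr i : Fin 2 ⊕ ι)).comp h22)))
  let γ : I → Lp (Fin 2 ⊕ ι) x0 := fun r =>
    ⟨⟨fun p => (K (r, p.2 (Sum.inl 0), p.2 (Sum.inl 1))).1 (p.1, fun i => p.2 (Sum.inr i)),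
      hc.comp (continuous_const.prodMk continuous_id)⟩,
      fun y => (K _).2.1 _, fun y => (K _).2.2.1 _, fun s y i => by
        show (K (r, update y i 0 (Sum.inl 0), update y i 0 (Sum.inl 1))).1
            (s, fun j => update y i 0 (Sum.inr j)) =
          (K (r, update y i 1 (Sum.inl 0), update y i 1 (Sum.inl 1))).1
            (s, fun j => update y i 1 (Sum.inr j))
        rcases i with i | i
        · have e : ∀ a : I, (fun j => update y (Sum.inl i) a (Sum.inr j)) =
              fun j => y (Sum.inr j) := fun a => funext fun j => update_of_ne Sum.inr_ne_inl _ _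
          rw [e, e]
          fin_cases i
          · simp [h1]
          · simp [h2]
        · have e : ∀ a : I, (fun j => update y (Sum.inr i) a (Sum.inr j)) =
              update (fun j => y (Sum.inr j)) i a := by
            intro a
            funext j
            by_cases hj : j = i
            · subst hj; simp
            · rw [update_of_ne hj, update_of_ne (fun h => hj (Sum.inr_injective h))]
          rw [e, e]
          simp only [update_of_ne Sum.inl_ne_inr]
          exact (K _).2.2.2 s _ i⟩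
  refine ⟨⟨⟨γ, Lp.continuous_mk γ hc⟩, Lp.ext fun s y => ?_, Lp.ext fun s y => ?_⟩⟩
  · exact (hF _ _ s _).trans (by rw [he])
  · exact (hG _ _ s _).trans (by rw [he])

theorem exists_of_joined_sum {F G : Lp (Fin 2 ⊕ ι) x0} (h : Joined F G) :
    ∃ K : C(I × I, Lp ι x0), (∀ r, K (r, 0) = K (r, 1)) ∧
      (∀ t s y, (K (0, t)).1 (s, y) = F.1 (s, Sum.elim ![t, 0] y)) ∧
      (∀ t s y, (K (1, t)).1 (s, y) = G.1 (s, Sum.elim ![t, 0] y)) := by
  obtain ⟨γ⟩ := h
  have hc : Continuous fun p : (I × I) × (I × (ι → I)) =>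
      (γ p.1.1).1 (p.2.1, Sum.elim ![p.1.2, 0] p.2.2) := by
    refine Lp.continuous_eval.comp ((γ.continuous.comp (continuous_fst.comp continuous_fst)).prodMk
      ((continuous_fst.comp continuous_snd).prodMk (continuous_pi fun i => ?_)))
    rcases i with i | i
    · fin_cases i
      · exact continuous_snd.comp continuous_fst
      · exact continuous_const
    · exact (continuous_apply i).comp (continuous_snd.comp continuous_snd)
  have e : ∀ (t : I) (y : ι → I) (i : ι) (a : I), Sum.elim ![t, 0] (update y i a) =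
      update (Sum.elim ![t, 0] y) (Sum.inr i) a := by
    intro t y i a
    funext j
    rcases j with j | j
    · rw [update_of_ne Sum.inl_ne_inr]; rfl
    · by_cases hj : j = i
      · subst hj; simp
      · rw [update_of_ne (fun h => hj (Sum.inr_injective h))]
        exact update_of_ne hj _ _
  have e' : ∀ (y : ι → I) (a : I), Sum.elim ![a, 0] y =
      update (Sum.elim ![0, 0] y) (Sum.inl 0) a := by
    intro y a
    funext j
    rcases j with j | j
    · fin_cases j
      · simp
      · simp
    · rw [update_of_ne Sum.inr_ne_inl]; rfl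
  let κ : I × I → Lp ι x0 := fun q =>
    ⟨⟨fun p => (γ q.1).1 (p.1, Sum.elim ![q.2, 0] p.2),
      hc.comp (continuous_const.prodMk continuous_id)⟩,
      fun y => (γ _).2.1 _, fun y => (γ _).2.2.1 _, fun s y i => by
        show (γ q.1).1 (s, Sum.elim ![q.2, 0] (update y i 0)) =
          (γ q.1).1 (s, Sum.elim ![q.2, 0] (update y i 1))
        rw [e, e]
        exact (γ _).2.2.2 s _ _⟩
  refine ⟨⟨κ, Lp.continuous_mk κ hc⟩, fun r => Lp.ext fun s y => ?_, fun t s y => ?_,
    fun t s y => ?_⟩
  · show (γ r).1 (s, Sum.elim ![0, 0] y) = (γ r).1 (s, Sum.elim ![1, 0] y)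
    rw [e' y 1, ← (γ r).2.2.2, ← e' y 0]
  · show (γ 0).1 (s, Sum.elim ![t, 0] y) = _
    rw [γ.source]
  · show (γ 1).1 (s, Sum.elim ![t, 0] y) = _
    rw [γ.target]

end Vale.Agent.P178
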