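import Vale.Agent.P178.Lab
import Vale.Agent.P178.Per

/-! P178: a 4-cocycle on the nerve defines a homomorphism on loops of maps from the 3-torus. -/

namespace Vale.Agent.P178

open CategoryTheory Filter Topology unitInterval Function

universe v u

variable {C : Type u} [Category.{v} C] {M : Type} [AddCommGroup M]

/-- the cochain on grid vertices -/
noncomputable def coch {n : ℕ} (c : Coc C M) (F : (Fin n → I) → SF C) (N : ℕ)
    (L : (Fin n → ℕ) → ℕ) : List (Fin n → ℕ) → M
  | [v0, v1, v2, v3, v4] => cech c (F (pos N v0)) (L v0) (L v1) (L v2) (L v3) (L v4)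
  | _ => 0

/-- the grid sum -/
noncomputable def hG (c : Coc C M) (F : (Fin 4 → I) → SF C) (N : ℕ) (L : (Fin 4 → ℕ) → ℕ) : M :=
  GS 4 (2 * N) (coch c F N L)

/-- a loop of maps from the 3-torus as a family of step functors on the 4-cube -/
noncomputable def lp4 {X0 : C} (F : Lp (Fin 3) (objPt X0)) (x : Fin 4 → I) : SF C :=
  toSF (rep (F.1 (x 0, Fin.tail x)))

/-- the torus directions -/
def torusDirs : Finset (Fin 4) := {1, 2, 3}

theorem dl_coch {c : Coc C M} (hc : IsCoc c) {H : (Fin 5 → I) → SF C} (hH : Continuous H) {N : ℕ}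
    {L : (Fin 5 → ℕ) → ℕ} (hL : Valid H N L) {q : Fin 5 → ℕ} (hq : ∀ d, q d < 2 * N)
    {l : List (Fin 5 → ℕ)} (hl : CubeChain q l) : dl (coch c H N L) l = 0 := by
  have hch := hL.chain hq hl
  obtain ⟨h6, hin, -⟩ := hl
  match l, h6 with
  | [v0, v1, v2, v3, v4, v5], _ =>
    simp only [List.mem_cons, List.not_mem_nil, or_false, forall_eq_or_imp, forall_eq] at hin
    obtain ⟨i0, i1, i2, i3, i4, i5⟩ := hin
    simp only [List.isChain_cons_cons, List.isChain_singleton, and_true] at hch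
    have u := fun v hv => hL.mem q hq v hv _ (inBox_pos hq i0)
    have e := eq_of_inBox (fun x => cech c (H x) (L v1) (L v2) (L v3) (L v4) (L v5))
      (fun x hx => (hH.tendsto x).eventually (cech_eventually c hch.2 (hL.mem q hq _ i1 x hx)
        (hL.mem q hq _ i2 x hx) (hL.mem q hq _ i3 x hx) (hL.mem q hq _ i4 x hx)
        (hL.mem q hq _ i5 x hx))) (inBox_pos hq i1) (inBox_pos hq i0)
    have h := cech_cocycle hc hch (u _ i0) (u _ i1) (u _ i2) (u _ i3) (u _ i4) (u _ i5)
    simp only [dl, coch]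
    beta_reduce at e
    rw [e]
    refine Eq.trans ?_ h
    abel

theorem coch_map {n m : ℕ} (c : Coc C M) (H : (Fin m → I) → SF C) (N : ℕ) (L : (Fin m → ℕ) → ℕ)
    (g : (Fin n → ℕ) → Fin m → ℕ) (g' : (Fin n → I) → Fin m → I)
    (hg : ∀ v, pos N (g v) = g' (pos N v)) (l : List (Fin n → ℕ)) :
    coch c H N L (l.map g) = coch c (fun x => H (g' x)) N (fun v => L (g v)) l := by
  match l with
  | [] => rfl
  | [_] => rfl
  | [_, _] => rfl
  | [_, _, _] => rfl
  | [_, _, _, _] => rfl
  | [v0, v1, v2, v3, v4] => simp only [List.map_cons, List.map_nil, coch, hg]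
  | _ :: _ :: _ :: _ :: _ :: _ :: _ => rfl

/-- face of a family -/
def fc (H : (Fin 5 → I) → SF C) (i : Fin 5) (t : I) (x : Fin 4 → I) : SF C :=
  H (Fin.insertNth (α := fun _ => I) i t x)

/-- face of a labeling -/
def fl (L : (Fin 5 → ℕ) → ℕ) (i : Fin 5) (m : ℕ) (v : Fin 4 → ℕ) : ℕ :=
  L (Fin.insertNth (α := fun _ => ℕ) i m v)

theorem hG_congr (c : Coc C M) (F : (Fin 4 → I) → SF C) {N : ℕ} {L L' : (Fin 4 → ℕ) → ℕ}
    (h : ∀ v, (∀ e, v e ≤ 2 * N) → L v = L' v) : hG c F N L = hG c F N L' := by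
  refine GS_congr fun q hq l hl => ?_
  obtain ⟨h5, hin, -⟩ := hl
  match l, h5 with
  | [v0, v1, v2, v3, v4], _ =>
    simp only [List.mem_cons, List.not_mem_nil, or_false, forall_eq_or_imp, forall_eq] at hin
    obtain ⟨i0, i1, i2, i3, i4⟩ := hin
    simp only [coch, h _ (inCube_le hq i0), h _ (inCube_le hq i1), h _ (inCube_le hq i2),
      h _ (inCube_le hq i3), h _ (inCube_le hq i4)]

theorem hG_const (c : Coc C M) (X0 : C) (h0 : c (𝟙 X0) (𝟙 X0) (𝟙 X0) (𝟙 X0) = 0) (N : ℕ)
    (L : (Fin 4 → ℕ) → ℕ) : hG c (fun _ => toSF ((Functor.const J).obj X0)) N L = 0 := by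
  refine (GS_congr fun q hq l hl => ?_).trans (GS_zero _ _)
  obtain ⟨h5, -, -⟩ := hl
  match l, h5 with
  | [v0, v1, v2, v3, v4], _ => exact cech_const c X0 h0 _ _ _ _ _

theorem insertNth_eq_update {α : Type} {n : ℕ} (i : Fin (n + 1)) (a b : α) (x : Fin n → α) :
    Fin.insertNth (α := fun _ => α) i a x = update (Fin.insertNth (α := fun _ => α) i b x) i a := by
  simp

/-- the torus directions in dimension five -/
def torus5 : Finset (Fin 5) := {2, 3, 4}

theorem stokes5 {c : Coc C M} (hc : IsCoc c) {H : (Fin 5 → I) → SF C} (hH : Continuous H) {N : ℕ}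
    (hN : 0 < N) {L : (Fin 5 → ℕ) → ℕ} (hL : Valid H N L) (hP : PerL torus5 N L)
    (hp : ∀ d ∈ torus5, ∀ x, H (update x d 0) = H (update x d 1)) :
    hG c (fc H 0 1) N (fl L 0 (2 * N)) - hG c (fc H 0 0) N (fl L 0 0) =
      hG c (fc H 1 1) N (fl L 1 (2 * N)) - hG c (fc H 1 0) N (fl L 1 0) := by
  have h := GS_stokes 4 (2 * N) (coch c H N L)
  rw [GS_congr fun q hq l hl => dl_coch hc hH hL hq hl, GS_zero] at h
  have e1 : ∀ i : Fin 5, GS 4 (2 * N) (fun l => coch c H N L
      (l.map (Fin.insertNth (α := fun _ => ℕ) i (2 * N)))) = hG c (fc H i 1) N (fl L i (2 * N)) :=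
    fun i => congrArg (GS 4 (2 * N)) (funext (coch_map c H N L _ _ (pos_insertNth_top hN i)))
  have e0 : ∀ i : Fin 5, GS 4 (2 * N) (fun l => coch c H N L
      (l.map (Fin.insertNth (α := fun _ => ℕ) i 0))) = hG c (fc H i 0) N (fl L i 0) :=
    fun i => congrArg (GS 4 (2 * N)) (funext (coch_map c H N L _ _ (pos_insertNth_zero N i)))
  have e : ∀ i ∈ torus5, hG c (fc H i 1) N (fl L i (2 * N)) = hG c (fc H i 0) N (fl L i 0) := by
    intro i hi
    have : fc H i 1 = fc H i 0 := funext fun x => by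
      rw [fc, fc, insertNth_eq_update i 1 0, ← hp i hi, ← insertNth_eq_update]
    rw [this]
    refine hG_congr c _ fun v hv => ?_
    rw [fl, fl, insertNth_eq_update i (2 * N) 0, ← hP i hi, ← insertNth_eq_update]
    intro e
    refine Fin.succAboveCases i ?_ (fun j => ?_) e
    · simp
    · simpa using hv j
  simp only [e1, e0] at h
  have h' := h.trans (Fin.sum_univ_five _)
  rw [e 2 (by decide), e 3 (by decide), e 4 (by decide)] at h'
  simp only [sub_self, smul_zero, add_zero, Fin.isValue, Fin.coe_ofNat_eq_mod, Nat.zero_mod,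
    pow_zero, one_smul, Nat.one_mod, pow_one, neg_smul] at h'
  exact sub_eq_zero.1 (by rw [h']; abel)

theorem PerL.face {N : ℕ} {L : (Fin 5 → ℕ) → ℕ} (hP : PerL torus5 N L) (i : Fin 5)
    (hi : i = 0 ∨ i = 1) {m : ℕ} (hm : m ≤ 2 * N) : PerL torusDirs N (fl L i m) := by
  intro d hd v hv
  have h1 : i.succAbove d ∈ torus5 := by
    revert d
    rcases hi with rfl | rfl <;> decide
  rw [fl, fl, Fin.insertNth_update, Fin.insertNth_update]
  refine hP _ h1 _ fun e => ?_
  refine Fin.succAboveCases i ?_ (fun j => ?_) e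
  · simpa using hm
  · simpa using hv j

variable {X0 : C}

theorem continuous_lp4 (F : Lp (Fin 3) (objPt X0)) : Continuous (lp4 F) :=
  continuous_rep.comp (F.1.continuous.comp ((continuous_apply 0).prodMk
    (continuous_pi fun i => continuous_apply i.succ)))

/-- the family on the 5-cube attached to a two-parameter family of maps from the 3-cube -/
noncomputable def h5 (T : I × I × (Fin 3 → I) → BC C) (x : Fin 5 → I) : SF C :=
  toSF (rep (T (x 0, x 1, Fin.tail (Fin.tail x))))

theorem continuous_h5 {T : I × I × (Fin 3 → I) → BC C} (hT : Continuous T) : Continuous (h5 T) :=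
  continuous_rep.comp (hT.comp ((continuous_apply 0).prodMk ((continuous_apply 1).prodMk
    (continuous_pi fun i => continuous_apply i.succ.succ))))

theorem h5_per {T : I × I × (Fin 3 → I) → BC C}
    (hT : ∀ r s y i, T (r, s, update y i 0) = T (r, s, update y i 1)) :
    ∀ d ∈ torus5, ∀ x, h5 T (update x d 0) = h5 T (update x d 1) := by
  intro d hd x
  obtain ⟨i, rfl⟩ : ∃ i : Fin 3, d = i.succ.succ := by
    revert d
    decide
  have h0 : (0 : Fin 5) ≠ i.succ.succ := (Fin.succ_ne_zero _).symm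
  have h1 : (1 : Fin 5) ≠ i.succ.succ := by
    revert i
    decide
  simp only [h5, Fin.tail_update_succ, update_of_ne h0, update_of_ne h1, hT]

theorem fc_h5_zero (T : I × I × (Fin 3 → I) → BC C) (t : I) (x : Fin 4 → I) :
    fc (h5 T) 0 t x = toSF (rep (T (t, x 0, Fin.tail x))) := by
  rw [fc, Fin.insertNth_zero']
  rfl

theorem fc_h5_one (T : I × I × (Fin 3 → I) → BC C) (t : I) (x : Fin 4 → I) :
    fc (h5 T) 1 t x = toSF (rep (T (x 0, t, Fin.tail x))) := by
  have h0 : Fin.insertNth (α := fun _ => I) (1 : Fin 5) t x 0 = x 0 :=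
    Fin.insertNth_apply_succAbove (α := fun _ => I) (1 : Fin 5) t x 0
  have h1 : Fin.tail (Fin.tail (Fin.insertNth (α := fun _ => I) (1 : Fin 5) t x)) = Fin.tail x := by
    funext i
    have : (i.succ.succ : Fin 5) = (1 : Fin 5).succAbove i.succ := by
      revert i
      decide
    change Fin.insertNth (α := fun _ => I) (1 : Fin 5) t x i.succ.succ = x i.succ
    rw [this, Fin.insertNth_apply_succAbove]
  rw [fc, h5, h0, h1, Fin.insertNth_apply_same]

theorem hG_indep {c : Coc C M} (hc : IsCoc c) (h0 : c (𝟙 X0) (𝟙 X0) (𝟙 X0) (𝟙 X0) = 0)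
    (F : Lp (Fin 3) (objPt X0)) {N : ℕ} (hN : 0 < N) {L L' : (Fin 4 → ℕ) → ℕ}
    (hL : Valid (lp4 F) N L) (hP : PerL torusDirs N L) (hL' : Valid (lp4 F) N L')
    (hP' : PerL torusDirs N L') : hG c (lp4 F) N L = hG c (lp4 F) N L' := by
  let T : I × I × (Fin 3 → I) → BC C := fun p => F.1 p.2
  let L5 : (Fin 5 → ℕ) → ℕ := fun v => if v 0 = 0 then L (Fin.tail v) else
    if Even (v 0) then L' (Fin.tail v) else max (L (Fin.tail v)) (L' (Fin.tail v))
  have hV : Valid (h5 T) N L5 := by
    constructor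
    · intro q hq v hv x hx
      have a := hL.mem (Fin.tail q) (fun d => hq d.succ) (Fin.tail v) (fun d => hv d.succ)
        (Fin.tail x) fun d => hx d.succ
      have b := hL'.mem (Fin.tail q) (fun d => hq d.succ) (Fin.tail v) (fun d => hv d.succ)
        (Fin.tail x) fun d => hx d.succ
      simp only [L5]
      split_ifs
      · exact a
      · exact b
      · rcases max_choice (L (Fin.tail v)) (L' (Fin.tail v)) with h | h <;> rw [h]
        exacts [a, b]
    · intro q hq v hv d
      refine Fin.cases ?_ (fun j => ?_) d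
      · have h1 : od (q 0) ≠ 0 ∧ ¬ Even (od (q 0)) := by
          unfold od
          split_ifs with h
          · exact ⟨by omega, by simpa [Nat.even_add_one] using h⟩
          · exact ⟨fun h' => h (by simp [h']), h⟩
        simp only [L5, update_self, Fin.tail_update_zero, if_neg h1.1, if_neg h1.2]
        split_ifs
        exacts [le_max_left _ _, le_max_right _ _, le_rfl]
      · have a := hL.mono (Fin.tail q) (fun d => hq d.succ) (Fin.tail v) (fun d => hv d.succ) j
        have b := hL'.mono (Fin.tail q) (fun d => hq d.succ) (Fin.tail v) (fun d => hv d.succ) j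
        simp only [L5, Fin.tail_update_succ, update_of_ne (Fin.succ_ne_zero j).symm]
        split_ifs
        exacts [a, b, max_le_max a b]
  have hP5 : PerL torus5 N L5 := by
    intro d hd v hv
    obtain ⟨j, hj, rfl⟩ : ∃ j ∈ torusDirs, d = j.succ := by
      revert d
      decide
    simp only [L5, Fin.tail_update_succ, update_of_ne (Fin.succ_ne_zero j).symm,
      hP j hj (Fin.tail v) fun e => hv e.succ, hP' j hj (Fin.tail v) fun e => hv e.succ]
  have h := stokes5 hc (continuous_h5 (F.1.continuous.comp continuous_snd)) hN hV hP5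
    (h5_per fun r s y i => F.2.2.2 s y i)
  have e1 : ∀ t, fc (h5 T) 0 t = lp4 F := fun t => funext fun x => fc_h5_zero T t x
  have e2 : fc (h5 T) 1 0 = fun _ => toSF ((Functor.const J).obj X0) := funext fun x => by
    rw [fc_h5_one, ← rep_vertex]
    exact congrArg (fun z => toSF (rep z)) (F.2.1 _)
  have e3 : fc (h5 T) 1 1 = fun _ => toSF ((Functor.const J).obj X0) := funext fun x => by
    rw [fc_h5_one, ← rep_vertex]
    exact congrArg (fun z => toSF (rep z)) (F.2.2.1 _)
  have e4 : fl L5 0 0 = L := funext fun v => by simp [fl, L5]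
  have e5 : fl L5 0 (2 * N) = L' := funext fun v => by simp [fl, L5, hN.ne']
  change hG c (fc (h5 T) 0 1) N _ - hG c (fc (h5 T) 0 0) N _ =
    hG c (fc (h5 T) 1 1) N _ - hG c (fc (h5 T) 1 0) N _ at h
  rw [e1, e1, e2, e3, e4, e5, hG_const c X0 h0, hG_const c X0 h0, sub_zero] at h
  exact (sub_eq_zero.1 h).symm

open Classical in
/-- the grid sum for some valid labeling -/
noncomputable def hNN (c : Coc C M) (F : Lp (Fin 3) (objPt X0)) (N : ℕ) : M :=
  if h : ∃ L, Valid (lp4 F) N L ∧ PerL torusDirs N L then hG c (lp4 F) N h.choose else 0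

theorem hNN_eq {c : Coc C M} (hc : IsCoc c) (h0 : c (𝟙 X0) (𝟙 X0) (𝟙 X0) (𝟙 X0) = 0)
    (F : Lp (Fin 3) (objPt X0)) {N : ℕ} (hN : 0 < N) {L : (Fin 4 → ℕ) → ℕ}
    (hL : Valid (lp4 F) N L) (hP : PerL torusDirs N L) : hNN c F N = hG c (lp4 F) N L := by
  have h : ∃ L, Valid (lp4 F) N L ∧ PerL torusDirs N L := ⟨L, hL, hP⟩
  rw [hNN, dif_pos h]
  exact hG_indep hc h0 F hN h.choose_spec.1 h.choose_spec.2 hL hP

theorem hNN_square {c : Coc C M} (hc : IsCoc c) (h0 : c (𝟙 X0) (𝟙 X0) (𝟙 X0) (𝟙 X0) = 0)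
    {T : I × I × (Fin 3 → I) → BC C} (hT : Continuous T)
    (hp : ∀ r s y i, T (r, s, update y i 0) = T (r, s, update y i 1))
    (F0 F1 G0 G1 : Lp (Fin 3) (objPt X0)) (h00 : ∀ s y, T (0, s, y) = F0.1 (s, y))
    (h01 : ∀ s y, T (1, s, y) = F1.1 (s, y)) (h10 : ∀ s y, T (s, 0, y) = G0.1 (s, y))
    (h11 : ∀ s y, T (s, 1, y) = G1.1 (s, y)) :
    ∀ᶠ N in atTop, hNN c F1 N - hNN c F0 N = hNN c G1 N - hNN c G0 N := by
  filter_upwards [exists_valid (h5 T) (continuous_h5 hT) (fun x => isStep_rep _) torus5 (h5_per hp),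
    eventually_gt_atTop 0] with N ⟨L, hL, hP⟩ hN
  have h := stokes5 hc (continuous_h5 hT) hN hL hP (h5_per hp)
  have e0 : fc (h5 T) 0 0 = lp4 F0 := funext fun x => by rw [fc_h5_zero, h00, lp4]
  have e1 : fc (h5 T) 0 1 = lp4 F1 := funext fun x => by rw [fc_h5_zero, h01, lp4]
  have e2 : fc (h5 T) 1 0 = lp4 G0 := funext fun x => by rw [fc_h5_one, h10, lp4]
  have e3 : fc (h5 T) 1 1 = lp4 G1 := funext fun x => by rw [fc_h5_one, h11, lp4]
  have v0 : Valid (fc (h5 T) 0 0) N (fl L 0 0) := hL.face_zero hN 0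
  have v1 : Valid (fc (h5 T) 0 1) N (fl L 0 (2 * N)) := hL.face_top hN 0
  have v2 : Valid (fc (h5 T) 1 0) N (fl L 1 0) := hL.face_zero hN 1
  have v3 : Valid (fc (h5 T) 1 1) N (fl L 1 (2 * N)) := hL.face_top hN 1
  rw [e0] at v0
  rw [e1] at v1
  rw [e2] at v2
  rw [e3] at v3
  rw [e0, e1, e2, e3] at h
  rw [hNN_eq hc h0 F0 hN v0 (hP.face 0 (Or.inl rfl) (Nat.zero_le _)),
    hNN_eq hc h0 F1 hN v1 (hP.face 0 (Or.inl rfl) le_rfl),
    hNN_eq hc h0 G0 hN v2 (hP.face 1 (Or.inr rfl) (Nat.zero_le _)),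
    hNN_eq hc h0 G1 hN v3 (hP.face 1 (Or.inr rfl) le_rfl), h]

theorem hNN_cst (c : Coc C M) (h0 : c (𝟙 X0) (𝟙 X0) (𝟙 X0) (𝟙 X0) = 0) (N : ℕ) :
    hNN c (Lp.cst (Fin 3) (objPt X0)) N = 0 := by
  have e : lp4 (Lp.cst (Fin 3) (objPt X0)) = fun _ => toSF ((Functor.const J).obj X0) :=
    funext fun x => congrArg toSF (rep_vertex X0)
  rw [hNN]
  split_ifs
  · exact (congrArg (fun F => hG c F N _) e).trans (hG_const c X0 h0 N _)
  · rfl

theorem exists_det (c : Coc C M) (hc : IsCoc c) (X0 : C)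
    (h0 : c (𝟙 X0) (𝟙 X0) (𝟙 X0) (𝟙 X0) = 0) :
    ∃ φ : Gam (Fin 3) (objPt X0) →* Multiplicative (Germ (atTop : Filter ℕ) M),
      ∀ (F : Lp (Fin 3) (objPt X0)) (m : M),
        (∀ᶠ N in atTop, ∃ L, Valid (lp4 F) N L ∧ PerL torusDirs N L ∧ hG c (lp4 F) N L = m) →
          φ (cls F) = Multiplicative.ofAdd (Germ.const m) := by
  obtain ⟨φ, hφ⟩ := exists_liftHom (ι := Fin 3) (x0 := objPt X0)
    (fun F => Multiplicative.ofAdd (Germ.ofFun (l := atTop) (hNN c F))) (fun F G ⟨γ⟩ => by
      refine congrArg Multiplicative.ofAdd (Germ.coe_eq.2 ?_)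
      filter_upwards [hNN_square hc h0 (T := fun p => (γ p.1).1 p.2)
        (Lp.continuous_eval.comp ((γ.continuous.comp continuous_fst).prodMk continuous_snd))
        (fun r s y i => (γ r).2.2.2 s y i) F G (Lp.cst _ _) (Lp.cst _ _)
        (fun s y => by simp) (fun s y => by simp) (fun s y => (γ s).2.1 y)
        (fun s y => (γ s).2.2.1 y)] with N hN
      rw [sub_self, sub_eq_zero] at hN
      exact hN.symm) (fun F G => by
      rw [← ofAdd_add, ← Germ.coe_add]
      refine congrArg Multiplicative.ofAdd (Germ.coe_eq.2 ?_)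
      have hcl : ∀ s : I, cl s = s := fun s => Set.projIcc_val _ s
      have hcl' : ∀ {x : ℝ}, 0 ≤ x → x ≤ 1 → (cl x : ℝ) = x := fun h h' =>
        congrArg Subtype.val (Set.projIcc_of_mem _ ⟨h, h'⟩)
      filter_upwards [hNN_square hc h0
        (T := fun p => (F.conc G).1 (cl (p.2.1 * (1 + p.1) / 2), p.2.2))
        ((F.conc G).1.continuous.comp ((continuous_cl.comp (by fun_prop)).prodMk (by fun_prop)))
        (fun r s y i => (F.conc G).2.2.2 _ y i) F (F.conc G) (Lp.cst _ _) G
        (fun s y => by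
          have h1 : (cl (s * (1 + (0 : I)) / 2) : ℝ) = s / 2 := by
            rw [hcl' (by simpa using div_nonneg s.2.1 zero_le_two) (by
              have := s.2.2; simp only [Set.Icc.coe_zero, add_zero, mul_one]; linarith)]
            simp
          rw [Lp.conc_apply, if_pos (by rw [h1]; linarith [s.2.2]), h1,
            show 2 * ((s : ℝ) / 2) = s by ring, hcl])
        (fun s y => by
          rw [show (s : ℝ) * (1 + (1 : I)) / 2 = s by simp only [Set.Icc.coe_one]; ring, hcl])
        (fun s y => by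
          rw [show ((0 : I) : ℝ) * (1 + s) / 2 = (0 : I) by simp, hcl]
          exact (F.conc G).2.1 y)
        (fun s y => by
          have h1 : (cl ((1 : I) * (1 + s) / 2) : ℝ) = (1 + s) / 2 := by
            have := s.2.1
            have := s.2.2
            rw [hcl' (by simp only [Set.Icc.coe_one]; linarith)
              (by simp only [Set.Icc.coe_one]; linarith)]
            simp
          rw [Lp.conc_apply, h1, show 2 * ((1 + (s : ℝ)) / 2) - 1 = s by ring, hcl]
          split_ifs with h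
          · have hs : s = 0 := Subtype.ext (le_antisymm (by
              simp only [Set.Icc.coe_zero]; linarith) s.2.1)
            rw [hs, show 2 * ((1 + ((0 : I) : ℝ)) / 2) = (1 : I) by simp, hcl, F.2.2.1, G.2.1]
          · rfl)] with N hN
      rw [hNN_cst c h0, sub_zero, sub_eq_iff_eq_add] at hN
      exact hN)
  refine ⟨φ, fun F m h => (hφ F).trans (congrArg Multiplicative.ofAdd (Germ.coe_eq.2 ?_))⟩
  filter_upwards [h, eventually_gt_atTop 0] with N ⟨L, hL, hP, hm⟩ hN
  exact (hNN_eq hc h0 F hN hL hP).trans hm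

end Vale.Agent.P178
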