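import Vale.Agent.P178.Per

/-! P178: classes trivial on all faces of the torus come from the homotopy group. -/

namespace Vale.Agent.P178

open unitInterval Function Topology

universe u v

variable {X : Type u} [TopologicalSpace X] {x0 : X} {X' : Type v} [TopologicalSpace X'] {x0' : X'}

/-- kill the direction `i` -/
def kill {ι : Type} [DecidableEq ι] (i : ι) : ι → Option ι :=
  fun j => if j = i then none else some j

section

variable {ι : Type} [DecidableEq ι]

theorem face_cl_coe (x : I) : cl x = x := Set.projIcc_val _ x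

theorem face_cl0 {x : ℝ} (h : x ≤ 0) : cl x = 0 := Set.projIcc_of_le_left _ h

theorem face_cl1 {x : ℝ} (h : 1 ≤ x) : cl x = 1 := Set.projIcc_of_right_le _ h

/-- stretched coordinate -/
def faceW (θ t : I) : ℝ := (1 + 2 * θ) * t - θ

/-- loop parameter -/
noncomputable def faceT (θ s t : I) : I :=
  cl (min (2 * (s : ℝ)) (2 - 2 * s) * min 1 (min (1 + faceW θ t) (2 - faceW θ t)))

theorem face_contW : Continuous fun p : I × I => faceW p.1 p.2 := by
  unfold faceW
  fun_prop

theorem face_contT : Continuous fun p : I × I × I => faceT p.1 p.2.1 p.2.2 := by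
  have : Continuous fun p : I × I × I => faceW p.1 p.2.2 :=
    face_contW.comp (continuous_fst.prodMk (continuous_snd.comp continuous_snd))
  exact continuous_cl.comp (by fun_prop)

theorem face_W0 (θ : I) : cl (faceW θ 0) = 0 := face_cl0 (by simpa [faceW] using θ.2.1)

theorem face_W1 (θ : I) : cl (faceW θ 1) = 1 := face_cl1 (by
  have := θ.2.1
  simp only [faceW, Set.Icc.coe_one]
  linarith)

theorem face_T01 (θ s : I) : faceT θ s 0 = faceT θ s 1 := by
  simp only [faceT, faceW, Set.Icc.coe_one, Set.Icc.coe_zero]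
  rw [min_comm (1 + _)]
  congr 4 <;> ring

theorem face_contD (i : ι) : Continuous fun p : (I × Lp ι x0) × (I × (ι → I)) =>
    p.1.2.1 (faceT p.1.1 p.2.1 (p.2.2 i),
      update p.2.2 i (if (p.2.1 : ℝ) ≤ 1 / 2 then cl (faceW p.1.1 (p.2.2 i)) else 0)) := by
  have c1 : Continuous fun p : (I × Lp ι x0) × (I × (ι → I)) => p.2.2 i :=
    (continuous_apply i).comp continuous_snd.snd
  have c2 := face_contT.comp (continuous_fst.fst.prodMk (continuous_snd.fst.prodMk c1))
  have c3 := continuous_cl.comp (face_contW.comp (continuous_fst.fst.prodMk c1))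
  have c4 := Lp.continuous_eval.comp (continuous_fst.snd.prodMk (c2.prodMk
    (continuous_snd.snd.update i c3)))
  have c5 := Lp.continuous_eval.comp (continuous_fst.snd.prodMk (c2.prodMk
    (continuous_snd.snd.update i (continuous_const (y := (0 : I))))))
  refine (c4.if_le c5 (continuous_subtype_val.comp continuous_snd.fst)
    (continuous_const (y := (1 / 2 : ℝ))) ?_).congr ?_
  · rintro ⟨⟨θ, F⟩, s, y⟩ (hs : (s : ℝ) = 1 / 2)
    change F.1 (faceT θ s (y i), update y i (cl (faceW θ (y i)))) =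
      F.1 (faceT θ s (y i), update y i 0)
    rcases le_total (faceW θ (y i)) 0 with h0 | h0
    · rw [face_cl0 h0]
    rcases le_total 1 (faceW θ (y i)) with h1 | h1
    · rw [face_cl1 h1, F.2.2.2]
    have : faceT θ s (y i) = 1 := face_cl1 (by
      rw [hs, min_eq_left (le_min (by linarith) (by linarith) : (1 : ℝ) ≤ _)]
      norm_num)
    rw [this, F.2.2.1, F.2.2.1]
  · rintro ⟨⟨θ, F⟩, s, y⟩
    simp only [comp_apply]
    split_ifs <;> rfl

/-- the deformation that makes a loop trivial on the faces in direction `i` -/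
noncomputable def faceD (i : ι) (θ : I) (F : Lp ι x0) : Lp ι x0 :=
  ⟨⟨fun p => F.1 (faceT θ p.1 (p.2 i),
      update p.2 i (if (p.1 : ℝ) ≤ 1 / 2 then cl (faceW θ (p.2 i)) else 0)),
    (face_contD i).comp ((continuous_const (y := (θ, F))).prodMk continuous_id)⟩, by
    refine ⟨fun y => ?_, fun y => ?_, fun s y j => ?_⟩ <;> simp only [ContinuousMap.coe_mk]
    · rw [show faceT θ 0 (y i) = 0 from face_cl0 (by simp), F.2.1]
    · rw [show faceT θ 1 (y i) = 0 from face_cl0 (by simp), F.2.1]
    by_cases h : j = i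
    · subst h
      simp only [update_self, update_idem, face_W0, face_W1, face_T01]
      split_ifs
      · exact F.2.2.2 _ _ _
      · rfl
    · rw [update_of_ne (Ne.symm h), update_of_ne (Ne.symm h), update_comm h, update_comm h]
      exact F.2.2.2 _ _ _⟩

theorem faceD_apply (i : ι) (θ : I) (F : Lp ι x0) (s : I) (y : ι → I) :
    (faceD i θ F).1 (s, y) = F.1 (faceT θ s (y i),
      update y i (if (s : ℝ) ≤ 1 / 2 then cl (faceW θ (y i)) else 0)) := rfl

theorem face_contD' (i : ι) : Continuous fun p : I × Lp ι x0 => faceD i p.1 p.2 :=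
  Lp.continuous_mk _ (face_contD i)

theorem faceD_zero (i : ι) (F : Lp ι x0) (s : I) (y : ι → I) : (faceD i 0 F).1 (s, y) =
    if (s : ℝ) ≤ 1 / 2 then F.1 (cl (2 * s), y) else F.1 (cl (2 - 2 * s), update y i 0) := by
  have e : faceW 0 (y i) = y i := by simp [faceW]
  have h0 := (y i).2.1
  have h1 := (y i).2.2
  rw [faceD_apply, faceT, e, face_cl_coe,
    min_eq_left (le_min (by linarith) (by linarith) : (1 : ℝ) ≤ _), mul_one]
  split_ifs with h
  · rw [min_eq_left (by linarith), update_eq_self]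
  · rw [min_eq_right (by linarith)]

/-- trivial on the faces in the directions of `S` -/
def faceTriv (S : Finset ι) (F : Lp ι x0) : Prop :=
  ∀ s y, ∀ j ∈ S, y j = 0 ∨ y j = 1 → F.1 (s, y) = x0

theorem face_triv {S : Finset ι} {F : Lp ι x0} (h : faceTriv S F) (i : ι) (θ : I) :
    faceTriv S (faceD i θ F) := fun s y j hj hy => by
  refine h _ _ j hj ?_
  by_cases e : j = i
  · subst e
    rw [update_self]
    split_ifs
    · rcases hy with hy | hy <;> simp [hy, face_W0, face_W1]
    · exact Or.inl rfl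
  · rwa [update_of_ne e]

theorem face_triv1 {S : Finset ι} {F : Lp ι x0} (h : faceTriv S F) (i : ι) :
    faceTriv (insert i S) (faceD i 1 F) := fun s y j hj hy => by
  rcases Finset.mem_insert.1 hj with rfl | hj
  · have e : faceT 1 s 0 = 0 := face_cl0 (by norm_num [faceW])
    rw [faceD_apply, show faceT 1 s (y j) = 0 by
      rcases hy with hy | hy <;> simp [hy, ← face_T01, e], F.2.1]
  · exact face_triv h i 1 s y j hj hy

theorem face_join (i : ι) (F : Lp ι x0) {A : Set (Lp ι x0)} (h : ∀ θ, faceD i θ F ∈ A) :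
    JoinedIn A (faceD i 0 F) (faceD i 1 F) :=
  ⟨⟨⟨fun θ => faceD i θ F, (face_contD' i).comp (continuous_id.prodMk continuous_const)⟩,
    rfl, rfl⟩, h⟩

/-- the reversed loop -/
def faceRev (F : Lp ι x0) : Lp ι x0 :=
  ⟨⟨fun p => F.1 (σ p.1, p.2), F.1.continuous.comp
    ((continuous_symm.comp continuous_fst).prodMk continuous_snd)⟩,
    fun y => by simpa using F.2.2.1 y, fun y => by simpa using F.2.1 y,
    fun s y j => F.2.2.2 _ _ _⟩

theorem face_cls [Finite ι] (i : ι) (F : Lp ι x0) (h : Gam.re (kill i) (cls F) = 1) :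
    cls (faceD i 1 F) = cls F := by
  have e : faceD i 0 F = F.conc (faceRev (F.re (kill i))) := Lp.ext fun s y => by
    rw [faceD_zero, Lp.conc_apply]
    split_ifs with h
    · rfl
    change _ = F.1 (σ (cl (2 * s - 1)), reCube (kill i) y)
    have h1 := s.2.2
    congr 2
    · ext
      rw [coe_symm_eq, cl, cl, Set.projIcc_of_mem _ ⟨by linarith, by linarith⟩,
        Set.projIcc_of_mem _ ⟨by linarith, by linarith⟩]
      ring
    · funext j
      by_cases hj : j = i <;> simp [reCube, kill, hj]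
  have c : Continuous (faceRev : Lp ι x0 → Lp ι x0) := Lp.continuous_mk _
    (Lp.continuous_eval.comp (continuous_fst.prodMk
      ((continuous_symm.comp continuous_snd.fst).prodMk continuous_snd.snd)))
  rw [Gam.re_cls, ← cls_cst, cls_eq_iff] at h
  obtain ⟨P⟩ := h
  have h2 : cls (faceRev (F.re (kill i))) = cls (Lp.cst ι x0) := cls_eq_iff.2 ⟨P.map c⟩
  rw [← cls_eq_iff.2 (face_join i F fun _ => Set.mem_univ _).joined, e, cls_conc, h2, cls_cst,
    one_mul]

theorem face_s1 [Finite ι] {γ : Gam ι x0} (hγ : ∀ i, Gam.re (kill i) γ = 1) (S : Finset ι) :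
    ∃ F, cls F = γ ∧ faceTriv S F := by
  induction S using Finset.induction_on with
  | empty =>
    obtain ⟨F, hF⟩ := cls_surjective γ
    exact ⟨F, hF, fun _ _ _ hj => absurd hj (Finset.notMem_empty _)⟩
  | insert i S _ ih =>
    obtain ⟨F, rfl, hF⟩ := ih
    exact ⟨_, face_cls i F (hγ i), face_triv1 hF i⟩

theorem face_s2 [Fintype ι] {F : Lp ι x0} (hF : faceTriv Finset.univ F)
    (h : Joined F (Lp.cst ι x0)) (S : Finset ι) :
    JoinedIn {G | faceTriv S G} F (Lp.cst ι x0) := by
  induction S using Finset.induction_on with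
  | empty =>
    obtain ⟨P⟩ := h
    exact ⟨P, fun _ _ _ _ hj => absurd hj (Finset.notMem_empty _)⟩
  | insert i S _ ih =>
    obtain ⟨P, hP⟩ := ih
    have hF' : faceTriv (insert i S) F := fun s y j _ => hF s y j (Finset.mem_univ j)
    have c : Continuous fun p : I × (I × (ι → I)) => F.1 (cl ((1 + p.1) * p.2.1), p.2.2) :=
      F.1.continuous.comp ((continuous_cl.comp (by fun_prop)).prodMk continuous_snd.snd)
    refine JoinedIn.trans ⟨⟨⟨fun r => ⟨⟨fun p => F.1 (cl ((1 + r) * p.1), p.2),
      c.comp (continuous_const.prodMk continuous_id)⟩, fun y => ?_, fun y => ?_,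
      fun s y j => F.2.2.2 _ _ _⟩, Lp.continuous_mk _ c⟩, Lp.ext fun s y => ?_,
      Lp.ext fun s y => ?_⟩, fun r s y j hj hy => hF' _ y j hj hy⟩
      ((face_join i F fun θ => face_triv hF' i θ).trans ⟨P.map ((face_contD' i).comp
        ((continuous_const (y := (1 : I))).prodMk continuous_id)), fun r => face_triv1 (hP r) i⟩)
    · exact (congrArg (fun t => F.1 (t, y)) (face_cl0 (by simp))).trans (F.2.1 y)
    · exact (congrArg (fun t => F.1 (t, y)) (face_cl1 (by simpa using r.2.1))).trans (F.2.2.1 y)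
    · simp [face_cl_coe]
    · rw [faceD_zero]
      change F.1 (cl ((1 + (1 : I)) * s), y) = _
      rw [Set.Icc.coe_one, one_add_one_eq_two]
      split_ifs with hs
      · rfl
      · rw [face_cl1 (by linarith), F.2.2.1, hF _ _ i (Finset.mem_univ i) (Or.inl (update_self ..))]

end

theorem face_cont {n : ℕ} : Continuous fun x : Fin (n + 1) → I => (x 0, Fin.tail x) :=
  (continuous_apply 0).prodMk (continuous_pi fun j => continuous_apply j.succ)

theorem face_bd {n : ℕ} {F : Lp (Fin n) x0} (hF : faceTriv Finset.univ F) (x : Fin (n + 1) → I)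
    (hx : x ∈ Cube.boundary (Fin (n + 1))) : F.1 (x 0, Fin.tail x) = x0 := by
  obtain ⟨j, hj⟩ := hx
  revert hj
  refine Fin.cases (fun hj => ?_) (fun j hj => hF _ _ j (Finset.mem_univ j) hj) j
  rcases hj with hj | hj <;> rw [hj]
  · exact F.2.1 _
  · exact F.2.2.1 _


theorem exists_genLoop {n : ℕ} (f : C(X, X')) (hf : f x0 = x0') (γ : Gam (Fin n) x0)
    (hγ : ∀ i, Gam.re (kill i) γ = 1) (h1 : γ ≠ 1) (h2 : Gam.map f hf γ = 1) :
    ∃ g : GenLoop (Fin (n + 1)) X x0, ¬ GenLoop.Homotopic g GenLoop.const ∧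
      ContinuousMap.HomotopicRel (f.comp g.1) (f.comp (GenLoop.const (x := x0)).1)
        (Cube.boundary (Fin (n + 1))) := by
  obtain ⟨F, rfl, hF⟩ := face_s1 hγ Finset.univ
  refine ⟨⟨⟨fun x => F.1 (x 0, Fin.tail x), F.1.continuous.comp face_cont⟩, face_bd hF⟩,
    fun ⟨H⟩ => h1 ?_, ?_⟩
  · have hb : ∀ r x, x ∈ Cube.boundary (Fin (n + 1)) → H (r, x) = x0 := fun r x hx =>
      (H.eq_fst r hx).trans (face_bd hF x hx)
    have hc : Continuous fun p : I × (Fin n → I) => (Fin.cons p.1 p.2 : Fin (n + 1) → I) :=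
      continuous_pi fun j => by
        refine Fin.cases ?_ (fun j => ?_) j
        · exact continuous_fst
        · exact (continuous_apply j).comp continuous_snd
    rw [← cls_cst, cls_eq_iff]
    refine ⟨⟨⟨fun r => ⟨⟨fun p => H (r, Fin.cons p.1 p.2),
      H.continuous.comp (continuous_const.prodMk hc)⟩, fun y => hb _ _ ⟨0, Or.inl rfl⟩,
      fun y => hb _ _ ⟨0, Or.inr rfl⟩, fun s y i => (hb _ _ ⟨i.succ, Or.inl (by simp)⟩).trans
        (hb _ _ ⟨i.succ, Or.inr (by simp)⟩).symm⟩, Lp.continuous_mk _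
      (H.continuous.comp (continuous_fst.prodMk (hc.comp continuous_snd)))⟩,
      Lp.ext fun s y => H.apply_zero _, Lp.ext fun s y => H.apply_one _⟩⟩
  · rw [Gam.map_cls, ← cls_cst, cls_eq_iff] at h2
    obtain ⟨P, hP⟩ := face_s2 (fun s y j hj hy => (congrArg f (hF s y j hj hy)).trans hf) h2
      Finset.univ
    refine ⟨⟨⟨⟨fun p => (P p.1).1 (p.2 0, Fin.tail p.2), Lp.continuous_eval.comp
      ((P.continuous.comp continuous_fst).prodMk (face_cont.comp continuous_snd))⟩,
      fun x => ?_, fun x => ?_⟩, fun t x hx => ?_⟩⟩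
    · change (P 0).1 _ = _
      rw [P.source]
      rfl
    · change (P 1).1 _ = _
      rw [P.target]
      exact hf.symm
    · exact (face_bd (hP t) x hx).trans ((congrArg f (face_bd hF x hx)).trans hf).symm

end Vale.Agent.P178
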