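import Vale.Agent.P178.QMor
import Vale.Agent.P178.Face

/-! P178: the loop of maps from a torus attached to a representation of `ℤ^ι`. -/

namespace Vale.Agent.P178

open CategoryTheory unitInterval Function

universe w

/-- the one-object category of `ℤ^ι` -/
abbrev BZ (ι : Type) : Type := SingleObj (Multiplicative (ι → ℤ))

/-- a objPt of the cube as a lattice vector -/
def cbv {ι : Type} (p : Cb ι) : Multiplicative (ι → ℤ) :=
  Multiplicative.ofAdd fun i => ((p i : ℕ) : ℤ)

/-- from the cube to the torus -/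
def cb (ι : Type) : Cb ι ⥤ BZ ι := SingleObj.differenceFunctor cbv

/-- the step functor of a point of the torus -/
noncomputable def wz {ι : Type} (y : ι → I) : J ⥤ BZ ι := cube y ⋙ cb ι

theorem fam_wz (ι : Type) [Fintype ι] : Fam (wz : (ι → I) → J ⥤ BZ ι) := (fam_cube ι).whisker _

theorem singleObj_ext {G : Type} [Monoid G] {F F' : J ⥤ SingleObj G}
    (h : ∀ (a b : J) (f : a ⟶ b), (F.map f : G) = F'.map f) : F = F' :=
  CategoryTheory.Functor.hext (fun _ => rfl) fun a b f => heq_of_eq (h a b f)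

theorem wz_map {ι : Type} (y : ι → I) {a b : J} (f : a ⟶ b) :
    ((wz y).map f : Multiplicative (ι → ℤ)) =
      cbv ((cube y).obj b) * (cbv ((cube y).obj a))⁻¹ := rfl

theorem wz_per {ι : Type} [DecidableEq ι] (y : ι → I) (i : ι) :
    wz (update y i 0) = wz (update y i 1) := by
  refine singleObj_ext fun a b f => ?_
  rw [wz_map, wz_map]
  refine congrArg Multiplicative.ofAdd (funext fun j => ?_)
  change ((thrFun (update y i 0 j) b : ℕ) : ℤ) + -((thrFun (update y i 0 j) a : ℕ) : ℤ) =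
    ((thrFun (update y i 1 j) b : ℕ) : ℤ) + -((thrFun (update y i 1 j) a : ℕ) : ℤ)
  by_cases h : j = i
  · subst h
    rw [update_self, update_self, thrFun_zero, thrFun_zero, thrFun_one, thrFun_one]
    rfl
  · rw [update_of_ne h, update_of_ne h]

variable {R : Type} [CommRing R]

/-- automorphisms as morphisms of the Q-construction -/
def gr (V : QP R) : SingleObj (Au V) ⥤ QP R where
  obj _ := V
  map g := qG (V := V) (W := V) g
  map_id _ := qG_refl V
  map_comp f g := (qG_comp (U := V) (V := V) (W := V) f g).symm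

variable (Z : QP R) [Subsingleton Z.M]

/-- `0 ↣ V` as a natural transformation -/
def iN (V : QP R) : (Functor.const _).obj Z ⟶ gr V where
  app _ := qI Z V
  naturality _ _ f := (Category.id_comp _).trans (qI_qG Z (V := V) (W := V) f).symm

/-- `V ↠ 0` as a natural transformation -/
def qN (V : QP R) : (Functor.const _).obj Z ⟶ gr V where
  app _ := qQ Z V
  naturality _ _ f := (Category.id_comp _).trans (qQ_qG Z (V := V) (W := V) f).symm

/-- the cone along `0 ↣ V` -/
def coneI (V : QP R) : Fin 2 × SingleObj (Au V) ⥤ QP R :=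
  Functor.uncurry.obj (ComposableArrows.mk₁ (iN Z V))

/-- the cone along `V ↠ 0` -/
def coneQ (V : QP R) : Fin 2 × SingleObj (Au V) ⥤ QP R :=
  Functor.uncurry.obj (ComposableArrows.mk₁ (qN Z V))

/-- the suspension map -/
noncomputable def Lam (V : QP R) (s : I) (G : J ⥤ SingleObj (Au V)) : BC (QP R) :=
  if (s : ℝ) ≤ 1 / 2 then pt ((thr (cl (2 * s))).prod' G ⋙ coneI Z V)
  else pt ((thr (cl (2 - 2 * s))).prod' G ⋙ coneQ Z V)

theorem Rep_cone_zero {C D : Type*} [Category C] [Category D] {F F' : C ⥤ D} (η : F ⟶ F')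
    (G : J ⥤ C) :
    ((Functor.const J).obj (0 : Fin 2)).prod' G ⋙
      Functor.uncurry.obj (ComposableArrows.mk₁ η) = G ⋙ F := by
  refine CategoryTheory.Functor.hext (fun _ => rfl) fun a b f => heq_of_eq ?_
  exact Category.id_comp _

theorem Rep_cone_one {C D : Type*} [Category C] [Category D] {F F' : C ⥤ D} (η : F ⟶ F')
    (G : J ⥤ C) :
    ((Functor.const J).obj (1 : Fin 2)).prod' G ⋙
      Functor.uncurry.obj (ComposableArrows.mk₁ η) = G ⋙ F' := by
  refine CategoryTheory.Functor.hext (fun _ => rfl) fun a b f => heq_of_eq ?_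
  exact Category.id_comp _

theorem Lam_zero (V : QP R) (G : J ⥤ SingleObj (Au V)) : Lam Z V 0 G = objPt Z := by
  rw [Lam, if_pos (by norm_num), per_cl_of_le (by norm_num), thr_zero, coneI, Rep_cone_zero,
    ← pt_const]
  rfl

theorem Lam_one (V : QP R) (G : J ⥤ SingleObj (Au V)) : Lam Z V 1 G = objPt Z := by
  rw [Lam, if_neg (by norm_num), per_cl_of_le (by norm_num), thr_zero, coneQ, Rep_cone_zero,
    ← pt_const]
  rfl

theorem continuous_Lam (V : QP R) {W : Type w} [TopologicalSpace W]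
    (G : W → J ⥤ SingleObj (Au V))
    (h : ∀ K : Fin 2 × SingleObj (Au V) ⥤ QP R,
      Continuous fun p : I × W => pt ((thr p.1).prod' (G p.2) ⋙ K)) :
    Continuous fun p : I × W => Lam Z V p.1 (G p.2) := by
  have h1 : Continuous fun p : I × W => (p.1 : ℝ) := continuous_subtype_val.comp continuous_fst
  refine Continuous.if_le ?_ ?_ h1 continuous_const ?_
  · exact (h (coneI Z V)).comp
      ((continuous_cl.comp (continuous_const.mul h1)).prodMk continuous_snd)
  · exact (h (coneQ Z V)).comp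
      ((continuous_cl.comp (continuous_const.sub (continuous_const.mul h1))).prodMk continuous_snd)
  · intro p hp
    rw [hp, per_cl_of_ge (by norm_num), per_cl_of_ge (by norm_num), thr_one, coneI, coneQ,
      Rep_cone_one, Rep_cone_one]

variable {ι ι' : Type} [Fintype ι] [DecidableEq ι] [Fintype ι'] [DecidableEq ι']

/-- the loop attached to a representation -/
noncomputable def lam (V : QP R) (ρ : Multiplicative (ι → ℤ) →* Au V) : Lp ι (objPt Z) :=
  ⟨⟨fun p => Lam Z V p.1 (wz p.2 ⋙ ρ.toFunctor),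
    continuous_Lam Z V (fun y => wz y ⋙ ρ.toFunctor) fun K =>
      (((fam_thr.comp continuous_fst).prod'
        (((fam_wz ι).comp continuous_snd).whisker _)).whisker K).continuous_pt⟩,
    fun _ => Lam_zero Z V _, fun _ => Lam_one Z V _,
    fun s y i => congrArg (fun G => Lam Z V s (G ⋙ ρ.toFunctor)) (wz_per y i)⟩

theorem lam_apply (V : QP R) (ρ : Multiplicative (ι → ℤ) →* Au V) (s : I) (y : ι → I) :
    (lam Z V ρ).1 (s, y) = Lam Z V s (wz y ⋙ ρ.toFunctor) := rfl

/-- the lattice map attached to `φ` -/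
def reHom (φ : ι → Option ι') : Multiplicative (ι' → ℤ) →* Multiplicative (ι → ℤ) where
  toFun n := Multiplicative.ofAdd fun i => (φ i).elim 0 n.toAdd
  map_one' := by
    refine congrArg Multiplicative.ofAdd (funext fun i => ?_)
    cases φ i <;> rfl
  map_mul' m n := by
    refine congrArg Multiplicative.ofAdd (funext fun i => ?_)
    change _ = (φ i).elim 0 m.toAdd + (φ i).elim 0 n.toAdd
    cases φ i <;> rfl

omit [Fintype ι] [DecidableEq ι] [Fintype ι'] [DecidableEq ι'] in
theorem Rep_wz_re (φ : ι → Option ι') (y : ι' → I) :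
    wz (reCube φ y) = wz y ⋙ (reHom φ).toFunctor := by
  refine singleObj_ext fun a b f => ?_
  rw [wz_map]
  refine congrArg Multiplicative.ofAdd (funext fun j => ?_)
  change ((thrFun ((φ j).elim 0 y) b : ℕ) : ℤ) + -((thrFun ((φ j).elim 0 y) a : ℕ) : ℤ) =
    (φ j).elim 0 fun k => ((thrFun (y k) b : ℕ) : ℤ) + -((thrFun (y k) a : ℕ) : ℤ)
  cases φ j with
  | none =>
    change ((thrFun 0 b : ℕ) : ℤ) + -((thrFun 0 a : ℕ) : ℤ) = 0
    rw [thrFun_zero, thrFun_zero]
    rfl
  | some k => rfl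

theorem lam_re (V : QP R) (ρ : Multiplicative (ι → ℤ) →* Au V) (φ : ι → Option ι') :
    (lam Z V ρ).re φ = lam Z V (ρ.comp (reHom φ)) := by
  refine Lp.ext fun s y => ?_
  change Lam Z V s (wz (reCube φ y) ⋙ ρ.toFunctor) = _
  rw [Rep_wz_re]
  rfl

/-- base change of automorphisms -/
noncomputable def bcHom (S : Type) [CommRing S] [Algebra R S] (V : QP R) :
    Au V →* Au ((QP.bc R S).obj V) where
  toFun e := LinearEquiv.baseChange R S V.M V.M e
  map_one' := LinearEquiv.baseChange_one R S V.M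
  map_mul' e f := LinearEquiv.baseChange_mul R S V.M e f

theorem Rep_bc_qI (S : Type) [CommRing S] [Algebra R S] (V : QP R) :
    (QP.bc R S).map (qI Z V) = qI ((QP.bc R S).obj Z) ((QP.bc R S).obj V) := by
  have h := (pres_bot Z V).bc S
  rw [LinearMap.baseChange_zero, LinearMap.baseChange_zero] at h
  exact Subtype.ext (h.ext (pres_bot ((QP.bc R S).obj Z) ((QP.bc R S).obj V)))

theorem Rep_bc_qQ (S : Type) [CommRing S] [Algebra R S] (V : QP R) :
    (QP.bc R S).map (qQ Z V) = qQ ((QP.bc R S).obj Z) ((QP.bc R S).obj V) := by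
  have h := (pres_top Z V).bc S
  rw [LinearMap.baseChange_id, LinearMap.baseChange_zero] at h
  exact Subtype.ext (h.ext (pres_top ((QP.bc R S).obj Z) ((QP.bc R S).obj V)))

theorem Rep_bc_qG (S : Type) [CommRing S] [Algebra R S] (V : QP R) (e : Au V) :
    (QP.bc R S).map (qG (V := V) (W := V) e) =
      qG (V := (QP.bc R S).obj V) (W := (QP.bc R S).obj V) (bcHom S V e) := by
  have h := (pres_graph (V := V) (W := V) e).bc S
  rw [LinearMap.baseChange_id] at h
  exact Subtype.ext (h.ext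
    (pres_graph (V := (QP.bc R S).obj V) (W := (QP.bc R S).obj V) (bcHom S V e)))

theorem Rep_cone_map {C C' D D' : Type*} [Category C] [Category C'] [Category D] [Category D']
    {F F' : C ⥤ D} (η : F ⟶ F') {E E' : C' ⥤ D'} (θ : E ⟶ E') (K : C ⥤ C') (L : D ⥤ D')
    (h : F ⋙ L = K ⋙ E) (h' : F' ⋙ L = K ⋙ E')
    (hη : ∀ X, HEq (L.map (η.app X)) (θ.app (K.obj X))) (T : J ⥤ Fin 2) (G : J ⥤ C) :
    (T.prod' G ⋙ Functor.uncurry.obj (ComposableArrows.mk₁ η)) ⋙ L =
      T.prod' (G ⋙ K) ⋙ Functor.uncurry.obj (ComposableArrows.mk₁ θ) := by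
  have e : ComposableArrows.mk₁ η ⋙ (Functor.whiskeringRight C D D').obj L =
      ComposableArrows.mk₁ θ ⋙ (Functor.whiskeringLeft C C' D').obj K := by
    have e0 : Functor.whiskerRight η L =
        eqToHom h ≫ Functor.whiskerLeft K θ ≫ eqToHom h'.symm := by
      ext X
      rw [NatTrans.comp_app, NatTrans.comp_app, eqToHom_app, eqToHom_app]
      exact (conj_eqToHom_iff_heq _ _ (Functor.congr_obj h X) (Functor.congr_obj h' X)).2 (hη X)
    exact ComposableArrows.ext₁ h h' e0
  have e1 : (T.prod' G ⋙ Functor.uncurry.obj (ComposableArrows.mk₁ η)) ⋙ L =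
      T.prod' G ⋙ Functor.uncurry.obj
        (ComposableArrows.mk₁ η ⋙ (Functor.whiskeringRight C D D').obj L) :=
    CategoryTheory.Functor.hext (fun _ => rfl) fun a b f => heq_of_eq (L.map_comp _ _)
  rw [e1, e]
  rfl

theorem Rep_gr_bc (S : Type) [CommRing S] [Algebra R S] (V : QP R) :
    gr V ⋙ QP.bc R S = (bcHom S V).toFunctor ⋙ gr ((QP.bc R S).obj V) :=
  CategoryTheory.Functor.hext (fun _ => rfl) fun _ _ f => heq_of_eq (Rep_bc_qG S V f)

omit [Subsingleton Z.M] in
theorem Rep_const_bc (S : Type) [CommRing S] [Algebra R S] (V : QP R) :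
    (Functor.const (SingleObj (Au V))).obj Z ⋙ QP.bc R S =
      (bcHom S V).toFunctor ⋙ (Functor.const _).obj ((QP.bc R S).obj Z) :=
  CategoryTheory.Functor.hext (fun _ => rfl) fun _ _ _ => heq_of_eq ((QP.bc R S).map_id Z)

theorem lam_map (S : Type) [CommRing S] [Algebra R S] (V : QP R)
    (ρ : Multiplicative (ι → ℤ) →* Au V) :
    (lam Z V ρ).map (BMap (QP.bc R S)) (BMap_vertex _ Z) =
      lam ((QP.bc R S).obj Z) ((QP.bc R S).obj V) ((bcHom S V).comp ρ) := by
  refine Lp.ext fun s y => ?_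
  have hs : ∀ (t : I) (K : Fin 2 × SingleObj (Au V) ⥤ QP R),
      IsStep ((thr t).prod' (wz y ⋙ ρ.toFunctor) ⋙ K) := fun t K =>
    ((fam_thr.isStep t).prod' (((fam_wz ι).isStep y).whisker _)).whisker K
  change BMap (QP.bc R S) (Lam Z V s (wz y ⋙ ρ.toFunctor)) =
    Lam ((QP.bc R S).obj Z) ((QP.bc R S).obj V) s ((wz y ⋙ ρ.toFunctor) ⋙ (bcHom S V).toFunctor)
  unfold Lam
  split_ifs
  · rw [BMap_pt _ (hs _ _), coneI, coneI,
      Rep_cone_map (iN Z V) (iN ((QP.bc R S).obj Z) ((QP.bc R S).obj V)) (bcHom S V).toFunctor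
        (QP.bc R S) (Rep_const_bc Z S V) (Rep_gr_bc S V) fun _ => heq_of_eq (Rep_bc_qI Z S V)]
  · rw [BMap_pt _ (hs _ _), coneQ, coneQ,
      Rep_cone_map (qN Z V) (qN ((QP.bc R S).obj Z) ((QP.bc R S).obj V)) (bcHom S V).toFunctor
        (QP.bc R S) (Rep_const_bc Z S V) (Rep_gr_bc S V) fun _ => heq_of_eq (Rep_bc_qQ Z S V)]

/-- the character of `ℤ^ι` given by a family of units -/
def unitsHom (a : ι → Rˣ) : Multiplicative (ι → ℤ) →* Rˣ where
  toFun n := ∏ i, a i ^ n.toAdd i
  map_one' := by simp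
  map_mul' m n := by simp [zpow_add, Finset.prod_mul_distrib]

/-- scalar representation -/
def scal (V : QP R) (a : ι → Rˣ) : Multiplicative (ι → ℤ) →* Au V :=
  (smulHom V).comp (unitsHom a)

/-- the class of the rank one representation -/
noncomputable def Sy (a : ι → Rˣ) : Gam ι (objPt Z) := cls (lam Z (rk1 R) (scal _ a))

theorem Sy_kill (a : ι → Rˣ) (i : ι) : Gam.re (kill i) (Sy Z a) = Sy Z (update a i 1) := by
  have e : (unitsHom a).comp (reHom (kill i)) = unitsHom (update a i 1) := by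
    refine MonoidHom.ext fun n => Finset.prod_congr rfl fun j _ => ?_
    change a j ^ ((kill i j).elim 0 n.toAdd : ℤ) = update a i 1 j ^ n.toAdd j
    by_cases h : j = i
    · subst h
      simp [kill]
    · simp [kill, h]
  rw [Sy, Sy, Gam.re_cls, lam_re, scal, scal, MonoidHom.comp_assoc, e]

end Vale.Agent.P178
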