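import Vale.Agent.P178.Det
import Vale.Agent.P178.Cocyc
import Vale.Agent.P178.Rep

/-! P178: the grid sum of a rank one representation. -/

namespace Vale.Agent.P178

open CategoryTheory Filter Topology unitInterval Function

variable {A B : Type} [CommRing A] [CommRing B]

section Dlog

variable {π : A →+* B} {D : A →+ B} (hD : ∀ x y, D (x * y) = π x * D y + π y * D x)

/-- logarithmic derivative as a homomorphism -/
def dlogHom : Aˣ →* Multiplicative B where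
  toFun w := Multiplicative.ofAdd (dlog π D w)
  map_one' := by
    have : D 1 = 0 := by simpa using hD 1 1
    simp [dlog, this]
  map_mul' w w' := by
    rw [← ofAdd_add]
    congr 1
    have h1 : π (w⁻¹ : Aˣ) * π w = 1 := by rw [← map_mul, Units.inv_mul, map_one]
    have h2 : π (w'⁻¹ : Aˣ) * π w' = 1 := by rw [← map_mul, Units.inv_mul, map_one]
    simp only [dlog, mul_inv_rev, Units.val_mul, map_mul, hD]
    linear_combination π (w'⁻¹ : Aˣ) * D w' * h1 + π (w⁻¹ : Aˣ) * D w * h2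

include hD in
theorem dlog_unitsHom (a : Fin 3 → Aˣ) (k : Fin 3) (ha : ∀ d, k ≠ d → D (a d) = 0)
    (n : Multiplicative (Fin 3 → ℤ)) :
    dlog π D (unitsHom a n) = (n.toAdd k : B) * dlog π D (a k) := by
  have h := congrArg Multiplicative.toAdd (map_prod (dlogHom hD) (fun i => a i ^ n.toAdd i)
    Finset.univ)
  simp only [map_zpow, toAdd_prod, toAdd_zpow, zsmul_eq_mul] at h
  refine h.trans (Finset.sum_eq_single k (fun d _ hd => ?_) (by simp))
  change _ * dlog π D (a d) = 0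
  simp [dlog, ha d hd.symm]

end Dlog

omit [CommRing B] in
theorem coc_congr4 (c : Coc (QP A) B) {X0 X1 X2 X3 X4 : QP A} {f1 g1 : X0 ⟶ X1} {f2 g2 : X1 ⟶ X2}
    {f3 g3 : X2 ⟶ X3} {f4 g4 : X3 ⟶ X4} (h1 : f1 = g1) (h2 : f2 = g2) (h3 : f3 = g3)
    (h4 : f4 = g4) : c f1 f2 f3 f4 = c g1 g2 g3 g4 := by
  rw [h1, h2, h3, h4]

/-- zero cokernel -/
def Sur {X Y : QP A} (f : X ⟶ Y) : Prop := ∀ y, ∃ x, (x, y) ∈ f.1

theorem Sur.comp {X Y W : QP A} {f : X ⟶ Y} {g : Y ⟶ W} (h : Sur f) (h' : Sur g) :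
    Sur (f ≫ g) := fun z => by
  obtain ⟨y, hy⟩ := h' z
  obtain ⟨x, hx⟩ := h y
  exact ⟨x, y, hx, hy⟩

theorem sur_id (X : QP A) : Sur (𝟙 X) := fun y => ⟨y, rfl⟩

theorem sur_sc (w : Aˣ) : Sur (sc w) :=
  fun y => ⟨(smulHom (rk1 A) w).symm y, (mem_qG _ _ _).2 (by simp)⟩

variable (Z : QP A) [Subsingleton Z.M] (a : Fin 3 → Aˣ)

/-- the cone of the representation along `0 ↣ A` -/
def KI : Fin 2 × BZ (Fin 3) ⥤ QP A :=
  (𝟭 _).prod (scal (rk1 A) a).toFunctor ⋙ coneI Z (rk1 A)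

/-- the cone of the representation along `A ↠ 0` -/
def KQ : Fin 2 × BZ (Fin 3) ⥤ QP A :=
  (𝟭 _).prod (scal (rk1 A) a).toFunctor ⋙ coneQ Z (rk1 A)

theorem KI_00 {x y : BZ (Fin 3)} (f : ((0 : Fin 2), x) ⟶ ((0 : Fin 2), y)) :
    ((KI Z a).map f : Z ⟶ Z) = 𝟙 Z := Category.id_comp _

theorem KI_01 {x y : BZ (Fin 3)} (f : ((0 : Fin 2), x) ⟶ ((1 : Fin 2), y)) :
    ((KI Z a).map f : Z ⟶ rk1 A) = qI Z (rk1 A) := qI_qG Z _

theorem KI_11 {x y : BZ (Fin 3)} (f : ((1 : Fin 2), x) ⟶ ((1 : Fin 2), y)) :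
    ((KI Z a).map f : rk1 A ⟶ rk1 A) = sc (unitsHom a f.2) := Category.id_comp _

theorem KQ_00 {x y : BZ (Fin 3)} (f : ((0 : Fin 2), x) ⟶ ((0 : Fin 2), y)) :
    ((KQ Z a).map f : Z ⟶ Z) = 𝟙 Z := Category.id_comp _

theorem KQ_01 {x y : BZ (Fin 3)} (f : ((0 : Fin 2), x) ⟶ ((1 : Fin 2), y)) :
    ((KQ Z a).map f : Z ⟶ rk1 A) = qQ Z (rk1 A) := qQ_qG Z _

theorem KQ_11 {x y : BZ (Fin 3)} (f : ((1 : Fin 2), x) ⟶ ((1 : Fin 2), y)) :
    ((KQ Z a).map f : rk1 A ⟶ rk1 A) = sc (unitsHom a f.2) := Category.id_comp _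

theorem fin2_cases (b : Fin 2) : b = 0 ∨ b = 1 := by omega

theorem sur_KQ {x y : Fin 2 × BZ (Fin 3)} (f : x ⟶ y) : Sur ((KQ Z a).map f) := by
  obtain ⟨b, x⟩ := x
  obtain ⟨b', y⟩ := y
  have h : b ≤ b' := leOfHom f.1
  rcases fin2_cases b with rfl | rfl <;> rcases fin2_cases b' with rfl | rfl
  · exact (KQ_00 Z a f).symm ▸ sur_id Z
  · exact (KQ_01 Z a f).symm ▸ fun y => ⟨0, trivial⟩
  · exact absurd h (by decide)
  · exact (KQ_11 Z a f).symm ▸ sur_sc _

variable {Z} {π : A →+* B} {D : Fin 3 → A →+ B} {c : Coc (QP A) B}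

theorem eval_KQ (hc : CocSpec π D Z c) {x0 x1 x2 x3 x4 : Fin 2 × BZ (Fin 3)} (f1 : x0 ⟶ x1)
    (f2 : x1 ⟶ x2) (f3 : x2 ⟶ x3) (f4 : x3 ⟶ x4) :
    c ((KQ Z a).map f1) ((KQ Z a).map f2) ((KQ Z a).map f3) ((KQ Z a).map f4) = 0 :=
  hc.zero _ _ _ _ ((sur_KQ Z a f1).comp ((sur_KQ Z a f2).comp
    ((sur_KQ Z a f3).comp (sur_KQ Z a f4))))

theorem eval_KI (hc : CocSpec π D Z c) {x0 x1 x2 x3 x4 : Fin 2 × BZ (Fin 3)} (f1 : x0 ⟶ x1)
    (f2 : x1 ⟶ x2) (f3 : x2 ⟶ x3) (f4 : x3 ⟶ x4) :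
    c ((KI Z a).map f1) ((KI Z a).map f2) ((KI Z a).map f3) ((KI Z a).map f4) =
      (((x1.1 : ℕ) : B) - ((x0.1 : ℕ) : B)) * dlog π (D 0) (unitsHom a f2.2) *
        dlog π (D 1) (unitsHom a f3.2) * dlog π (D 2) (unitsHom a f4.2) := by
  obtain ⟨b0, x0⟩ := x0
  obtain ⟨b1, x1⟩ := x1
  obtain ⟨b2, x2⟩ := x2
  obtain ⟨b3, x3⟩ := x3
  obtain ⟨b4, x4⟩ := x4
  have h1 : b0 ≤ b1 := leOfHom f1.1
  have h2 : b1 ≤ b2 := leOfHom f2.1
  have h3 : b2 ≤ b3 := leOfHom f3.1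
  have h4 : b3 ≤ b4 := leOfHom f4.1
  rcases fin2_cases b0 with rfl | rfl <;> rcases fin2_cases b1 with rfl | rfl <;>
    rcases fin2_cases b2 with rfl | rfl <;> rcases fin2_cases b3 with rfl | rfl <;>
    rcases fin2_cases b4 with rfl | rfl <;>
    first
    | exact absurd h1 (by decide)
    | exact absurd h2 (by decide)
    | exact absurd h3 (by decide)
    | exact absurd h4 (by decide)
    | skip
  · refine (coc_congr4 c (KI_00 Z a f1) (KI_00 Z a f2) (KI_00 Z a f3) (KI_00 Z a f4)).trans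
      ((hc.zero _ _ _ _ ((sur_id Z).comp ((sur_id Z).comp ((sur_id Z).comp (sur_id Z))))).trans ?_)
    simp
  · refine (coc_congr4 c (KI_00 Z a f1) (KI_00 Z a f2) (KI_00 Z a f3) (KI_01 Z a f4)).trans
      (hc.e4.trans ?_)
    simp
  · refine (coc_congr4 c (KI_00 Z a f1) (KI_00 Z a f2) (KI_01 Z a f3) (KI_11 Z a f4)).trans
      ((hc.e3 _).trans ?_)
    simp
  · refine (coc_congr4 c (KI_00 Z a f1) (KI_01 Z a f2) (KI_11 Z a f3) (KI_11 Z a f4)).trans
      ((hc.e2 _ _).trans ?_)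
    simp
  · refine (coc_congr4 c (KI_01 Z a f1) (KI_11 Z a f2) (KI_11 Z a f3) (KI_11 Z a f4)).trans
      ((hc.e1 _ _ _).trans ?_)
    simp
  · refine (coc_congr4 c (KI_11 Z a f1) (KI_11 Z a f2) (KI_11 Z a f3) (KI_11 Z a f4)).trans
      ((hc.zero _ _ _ _ ((sur_sc _).comp ((sur_sc _).comp
        ((sur_sc _).comp (sur_sc _))))).trans ?_)
    simp

/-- tent map -/
noncomputable def tnt (s : I) : I := cl (min (2 * s) (2 - 2 * s))

theorem continuous_tnt : Continuous tnt := continuous_cl.comp (by fun_prop)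

theorem tnt_lo {s : I} (h : (s : ℝ) ≤ 1 / 2) : tnt s = cl (2 * s) := by
  rw [tnt, min_eq_left (by linarith)]

theorem tnt_hi {s : I} (h : ¬ (s : ℝ) ≤ 1 / 2) : tnt s = cl (2 - 2 * s) := by
  rw [tnt, min_eq_right (by linarith)]

/-- the step functor into the poset -/
noncomputable def GP (x : Fin 4 → I) : J ⥤ Fin 2 × Cb (Fin 3) :=
  (thr (tnt (x 0))).prod' (cube (Fin.tail x))

/-- from the poset to the torus category -/
def KT : Fin 2 × Cb (Fin 3) ⥤ Fin 2 × BZ (Fin 3) := (𝟭 _).prod (cb _)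

theorem fam_GP : Fam GP :=
  (fam_thr.comp (continuous_tnt.comp (continuous_apply 0))).prod'
    ((fam_cube _).comp (continuous_pi fun i => continuous_apply i.succ))

theorem KT_refl (x y : Fin 2 × Cb (Fin 3)) (f : x ⟶ y)
    (h : Arrow.mk (KT.map f) = Arrow.mk (𝟙 (KT.obj x))) : x = y := by
  obtain ⟨b, p⟩ := x
  obtain ⟨b', p'⟩ := y
  obtain rfl : b' = b := congrArg (fun t : Arrow _ => t.right.1) h
  have h2 : cbv p' * (cbv p)⁻¹ = 1 :=
    congrArg (fun t : Arrow (Fin 2 × BZ (Fin 3)) => (t.hom.2 : Multiplicative (Fin 3 → ℤ))) h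
  rw [mul_inv_eq_one] at h2
  refine Prod.ext rfl (funext fun i => Fin.ext ?_)
  have := congrFun (Multiplicative.ofAdd.injective h2) i
  exact (Int.ofNat_inj.1 this).symm

open Classical in
/-- the relevant cone -/
noncomputable def KX (Z : QP A) [Subsingleton Z.M] (x : Fin 4 → I) : Fin 2 × BZ (Fin 3) ⥤ QP A :=
  if (x 0 : ℝ) ≤ 1 / 2 then KI Z a else KQ Z a

theorem lp4_lam (x : Fin 4 → I) :
    lp4 (lam Z (rk1 A) (scal _ a)) x = toSF ((GP x ⋙ KT) ⋙ KX a Z x) := by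
  have hs : ∀ K : Fin 2 × BZ (Fin 3) ⥤ QP A, IsStep ((GP x ⋙ KT) ⋙ K) := fun K =>
    ((fam_GP.isStep x).whisker _).whisker _
  rw [lp4, lam_apply, Lam, KX]
  split_ifs with h
  · rw [← tnt_lo h]
    exact congrArg toSF (rep_pt (hs (KI Z a)))
  · rw [← tnt_hi h]
    exact congrArg toSF (rep_pt (hs (KQ Z a)))

theorem GT_per (x : Fin 4 → I) (i : Fin 3) :
    GP (update x i.succ 0) ⋙ KT = GP (update x i.succ 1) ⋙ KT := by
  change (thr (tnt (update x i.succ 0 0))).prod' (wz (Fin.tail (update x i.succ 0))) =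
    (thr (tnt (update x i.succ 1 0))).prod' (wz (Fin.tail (update x i.succ 1)))
  rw [Fin.tail_update_succ, Fin.tail_update_succ, wz_per, update_of_ne (Fin.succ_ne_zero i).symm,
    update_of_ne (Fin.succ_ne_zero i).symm]

/-- the winning vertex -/
noncomputable def zz (k : ℕ) (x : Fin 4 → I) : Fin 2 × Cb (Fin 3) :=
  (GP x).obj (maj (GP x ⋙ KT) k)

theorem zz_eq {N : ℕ} {L : (Fin 4 → ℕ) → ℕ} (h : Valid (fun x => toSF (GP x ⋙ KT)) N L)
    {q : Fin 4 → ℕ} (hq : ∀ d, q d < 2 * N) {v w : Fin 4 → ℕ} (hv : InCube q v)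
    (hw : InCube q w) : zz (L v) (pos N w) = zz (L v) (pos N v) :=
  eq_of_inBox (zz (L v)) (fun x hx => (fam_GP.continuous_SF.tendsto x).eventually
    (maj_eventually KT KT_refl (G0 := toSF (GP x)) (h.mem q hq v hv x hx)))
    (inBox_pos hq hw) (inBox_pos hq hv)

theorem pos_val {n N : ℕ} (hN : 0 < N) {v : Fin n → ℕ} {d : Fin n} (h : v d ≤ 2 * N) :
    (pos N v d : ℝ) = v d / (2 * N) := by
  have h1 : (0 : ℝ) < 2 * N := by positivity
  have h2 : (v d : ℝ) ≤ 2 * N := by exact_mod_cast h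
  rw [pos, cl, Set.projIcc_of_mem _ ⟨by positivity, (div_le_one h1).2 h2⟩]

theorem pos_half {n N : ℕ} (hN : 0 < N) {v : Fin n → ℕ} {d : Fin n} (h : v d ≤ 2 * N) :
    (pos N v d : ℝ) ≤ 1 / 2 ↔ v d ≤ N := by
  have h1 : (0 : ℝ) < 2 * N := by positivity
  rw [pos_val hN h, div_le_iff₀ h1, show (1 : ℝ) / 2 * (2 * N) = N by ring, Nat.cast_le]

theorem zz_mid {N : ℕ} (hN : 0 < N) {v : Fin 4 → ℕ} (h : v 0 = N) (k : ℕ) :
    (zz k (pos N v)).1 = 1 := by
  have h1 : (pos N v 0 : ℝ) = 1 / 2 := by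
    rw [pos_val hN (by omega), h]
    have : (N : ℝ) ≠ 0 := by positivity
    field_simp
  have h2 : tnt (pos N v 0) = 1 := by
    rw [tnt_lo h1.le, h1, cl]
    norm_num
  change thrFun (tnt (pos N v 0)) _ = 1
  rw [h2, thrFun_one]

theorem pos_update {n N : ℕ} (v : Fin n → ℕ) (d : Fin n) (m : ℕ) :
    pos N (update v d m) = update (pos N v) d (cl ((m : ℝ) / (2 * N))) := by
  funext e
  by_cases h : e = d
  · subst h; simp [pos]
  · simp [pos, update_of_ne h]

/-- the potentials -/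
noncomputable def pot (ℓ : Fin 3 → B) (N : ℕ) (L : (Fin 4 → ℕ) → ℕ) (k : Fin 4) (v : Fin 4 → ℕ) :
    B :=
  Fin.cases (if v 0 ≤ N then (((zz (L v) (pos N v)).1 : ℕ) : B) else 1)
    (fun j => (((zz (L v) (pos N v)).2 j : ℕ) : B) * ℓ j) k

theorem hG_lam {π : A →+* B} {D : Fin 3 → A →+ B}
    (hD : ∀ k x y, D k (x * y) = π x * D k y + π y * D k x) (Z : QP A) [Subsingleton Z.M]
    {c : Coc (QP A) B} (hc : CocSpec π D Z c) (a : Fin 3 → Aˣ)
    (ha : ∀ k d, k ≠ d → D k (a d) = 0) :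
    ∀ᶠ N in atTop, ∃ L, Valid (lp4 (lam Z (rk1 A) (scal _ a))) N L ∧ PerL torusDirs N L ∧
      hG c (lp4 (lam Z (rk1 A) (scal _ a))) N L =
        dlog π (D 0) (a 0) * dlog π (D 1) (a 1) * dlog π (D 2) (a 2) := by
  have hsucc : ∀ d ∈ torusDirs, ∃ i : Fin 3, d = i.succ := by decide
  have hmem : ∀ i : Fin 3, i.succ ∈ torusDirs := by decide
  filter_upwards [exists_valid (fun x => toSF (GP x ⋙ KT)) (fam_GP.whisker KT).continuous_SF
    (fun x => (fam_GP.isStep x).whisker _) torusDirs (fun d hd x => by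
      obtain ⟨i, rfl⟩ := hsucc d hd
      exact congrArg toSF (GT_per x i)), eventually_gt_atTop 0] with N ⟨L, hL, hP⟩ hN
  refine ⟨L, ⟨fun q hq v hv x hx => ?_, hL.mono⟩, hP, ?_⟩
  · obtain ⟨b, hb⟩ := hL.mem q hq v hv x hx
    rw [lp4_lam]
    exact ⟨b, hb.whisker _⟩
  set ℓ : Fin 3 → B := fun j => dlog π (D j) (a j) with hℓ
  have c0 : cl (((0 : ℕ) : ℝ) / (2 * N)) = 0 := by simp [cl]
  have c1 : cl (((2 * N : ℕ) : ℝ) / (2 * N)) = 1 := by
    have : (N : ℝ) ≠ 0 := by positivity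
    rw [show ((2 * N : ℕ) : ℝ) / (2 * N) = 1 by push_cast; field_simp, cl]
    simp
  refine (GS_congr (a' := cup4 (pot ℓ N L)) fun q hq l hl => ?_).trans
    ((GS_cup4 (2 * N) (pot ℓ N L) (Fin.cases (motive := fun _ => B) 0 ℓ) (fun v hv => ?_)
      (fun v hv => ?_) fun k d hd v hv => ?_).trans rfl)
  · have hch := hL.chain hq hl
    obtain ⟨h5, hin, -⟩ := hl
    match l, h5 with
    | [v0, v1, v2, v3, v4], _ =>
      simp only [List.mem_cons, List.not_mem_nil, or_false, forall_eq_or_imp, forall_eq] at hin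
      obtain ⟨i0, i1, i2, i3, i4⟩ := hin
      simp only [List.isChain_cons_cons, List.isChain_singleton, and_true] at hch
      have u := fun v hv => hL.mem q hq v hv _ (inBox_pos hq i0)
      have hm := And.intro (maj_le (u _ i0) (u _ i1) hch.1) (And.intro
        (maj_le (u _ i1) (u _ i2) hch.2.1) (And.intro (maj_le (u _ i2) (u _ i3) hch.2.2.1)
          (maj_le (u _ i3) (u _ i4) hch.2.2.2)))
      simp only [coch, cup4]
      rw [lp4_lam, cech_eq c hch hm ((good_maj (u _ i0)).whisker _) ((good_maj (u _ i1)).whisker _)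
        ((good_maj (u _ i2)).whisker _) ((good_maj (u _ i3)).whisker _)
        ((good_maj (u _ i4)).whisker _), cvl, dif_pos hm]
      have e : ∀ (j : Fin 3) {v w : Fin 4 → ℕ}, InCube q v → InCube q w →
          ∀ f : maj (GP (pos N v0) ⋙ KT) (L v) ⟶ maj (GP (pos N v0) ⋙ KT) (L w),
          dlog π (D j) (unitsHom a ((GP (pos N v0) ⋙ KT).map f).2) =
            pot ℓ N L j.succ w - pot ℓ N L j.succ v := by
        intro j v w hv hw f
        rw [dlog_unitsHom (hD j) a j (ha j)]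
        simp only [pot, Fin.cases_succ]
        rw [← zz_eq hL hq hv i0, ← zz_eq hL hq hw i0, ← sub_mul]
        congr 1
        change (((((zz (L w) (pos N v0)).2 j : ℕ) : ℤ) + -(((zz (L v) (pos N v0)).2 j : ℕ) : ℤ) :
          ℤ) : B) = _
        push_cast
        ring
      have b0 := i0 0
      have b1 := i1 0
      have hq0 := hq 0
      by_cases h : v0 0 ≤ N
      · have hK : KX a Z (pos N v0) = KI Z a := if_pos ((pos_half hN (by omega)).2 h)
        rw [hK]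
        refine (eval_KI a hc _ _ _ _).trans ?_
        rw [e 0 i1 i2, e 1 i2 i3, e 2 i3 i4]
        congr 3
        change (((zz (L v1) (pos N v0)).1 : ℕ) : B) - (((zz (L v0) (pos N v0)).1 : ℕ) : B) = _
        simp only [pot, Fin.cases_zero, if_pos h]
        congr 1
        split_ifs with h'
        · rw [zz_eq hL hq i1 i0]
        · rw [zz_mid hN (by omega)]
          simp
      · have hK : KX a Z (pos N v0) = KQ Z a := if_neg (mt (pos_half hN (by omega)).1 h)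
        rw [hK]
        refine (eval_KQ a hc _ _ _ _).trans ?_
        have : pot ℓ N L 0 v1 - pot ℓ N L 0 v0 = 0 := by
          simp only [pot, Fin.cases_zero, if_neg h]
          split_ifs with h'
          · rw [zz_mid hN (by omega)]
            simp
          · simp
        rw [this]
        ring
  · simp only [pot, Fin.cases_zero, update_self, Nat.zero_le, if_true]
    change (((thrFun (tnt (pos N (update v 0 0) 0)) _ : Fin 2) : ℕ) : B) = 0
    rw [pos_update, update_self, c0, tnt_lo (by norm_num), show cl (2 * ((0 : I) : ℝ)) = 0 by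
      simp [cl], thrFun_zero]
    simp
  · simp only [pot, Fin.cases_zero, update_self]
    rw [if_neg (by omega)]
  · obtain ⟨i, rfl⟩ := Fin.exists_succ_eq.2 hd
    have e1 := hP _ (hmem i) v hv
    have e2 := GT_per (pos N v) i
    simp only [pot, zz, pos_update, c0, c1, e1, e2, update_of_ne (Fin.succ_ne_zero i).symm]
    refine Fin.cases ?_ (fun j => ?_) k
    · simp only [Fin.cases_zero, if_neg (Fin.succ_ne_zero i).symm, add_zero]
      rfl
    · simp only [Fin.cases_succ, Fin.succ_inj]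
      change ((thrFun (update (pos N v) i.succ 1 j.succ) _ : ℕ) : B) * _ =
        ((thrFun (update (pos N v) i.succ 0 j.succ) _ : ℕ) : B) * _ + _
      split_ifs with h
      · subst h
        simp [thrFun_zero, thrFun_one]
      · rw [update_of_ne (by simpa using h), update_of_ne (by simpa using h), add_zero]

end Vale.Agent.P178
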