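import Mathlib

/-! P178: the central extension attached to an invariant map out of a contractible space. -/

namespace Vale.Agent.P178

open unitInterval

universe u v w

section
variable {M : Type v} [TopologicalSpace M] {x y z x' y' z' : M}

/-- Homotopy of paths whose end points are only propositionally equal. -/
def ExtR (p : Path x y) (q : Path x' y') : Prop :=
  p.toContinuousMap.HomotopicRel q.toContinuousMap {0, 1}

theorem ExtR.of_eq {p : Path x y} {q : Path x' y'} (h : ∀ t, p t = q t) : ExtR p q := by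
  rw [ExtR, show p.toContinuousMap = q.toContinuousMap from ContinuousMap.ext h]
  exact .refl _

theorem ExtR.symm {p : Path x y} {q : Path x' y'} (h : ExtR p q) : ExtR q p :=
  ContinuousMap.HomotopicRel.symm h

theorem ExtR.trans {p : Path x y} {q : Path x' y'} {r : Path z z'} (h : ExtR p q) (h' : ExtR q r) :
    ExtR p r := ContinuousMap.HomotopicRel.trans h h'

theorem ExtR.hcomp {p : Path x y} {q : Path y z} {p' : Path x' y'} {q' : Path y' z'}
    (h : ExtR p p') (h' : ExtR q q') : ExtR (p.trans q) (p'.trans q') := by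
  obtain rfl : x = x' := by simpa using h.fst_eq_snd (x := 0) (by simp)
  obtain rfl : y = y' := by simpa using h.fst_eq_snd (x := 1) (by simp)
  obtain rfl : z = z' := by simpa using h'.fst_eq_snd (x := 1) (by simp)
  exact Path.Homotopic.hcomp h h'

theorem ExtR.map {p : Path x y} {q : Path x' y'} (h : ExtR p q) (f : C(M, M)) :
    ExtR (p.map f.continuous) (q.map f.continuous) := Nonempty.map (fun H => H.compContinuousMap f) h

theorem ExtR.mk {p : Path x y} {q : Path x' y'} (H : C(I × I, M)) (h0 : ∀ t, H (0, t) = p t)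
    (h1 : ∀ t, H (1, t) = q t) (h2 : ∀ r, H (r, 0) = x) (h3 : ∀ r, H (r, 1) = y) : ExtR p q :=
  ⟨⟨⟨H, h0, h1⟩, by
    rintro r _ (rfl | rfl)
    exacts [(h2 r).trans p.source.symm, (h3 r).trans p.target.symm]⟩⟩

theorem ExtR.square {a : Path x y} {b : Path y z} {a' : Path x y'} {b' : Path y' z}
    (S : C(I × I, M)) (h1 : ∀ s, S (0, s) = a s) (h2 : ∀ t, S (t, 1) = b t)
    (h3 : ∀ t, S (t, 0) = a' t) (h4 : ∀ s, S (1, s) = b' s) :
    ExtR (a.trans b) (a'.trans b') :=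
  have H : ExtR _ _ := Path.Homotopic.map_trans_evalAt (f := a.toContinuousMap)
    (g := b'.toContinuousMap) ⟨S, h1, h4⟩ Path.id
  (H.symm.trans (.hcomp (p' := a) (q' := b) (.of_eq fun _ => rfl) (.of_eq h2))).symm.trans
    (.hcomp (.of_eq h3) (.of_eq fun _ => rfl))

/-- Clamping to the unit interval. -/
noncomputable def ExtCl : C(ℝ, I) := ⟨Set.projIcc 0 1 zero_le_one, continuous_projIcc⟩

theorem ExtCl_le {t : ℝ} (h : t ≤ 0) : ExtCl t = 0 := Set.projIcc_of_le_left zero_le_one h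

theorem ExtCl_ge {t : ℝ} (h : 1 ≤ t) : ExtCl t = 1 := Set.projIcc_of_right_le zero_le_one h

theorem ExtCl_coe (t : I) : ExtCl t = t := Set.projIcc_val zero_le_one t

theorem ExtR.fill {a : Path x y} {b : Path y z} {a' : Path x' y'} {b' : Path y' z'}
    (h : ExtR (a.trans b) (a'.trans b')) : ∃ (S : C(I × I, M)) (c : I → I),
      (∀ s, S (s, 0) = a (c s)) ∧ (∀ t, S (1, t) = b (c t)) ∧ (∀ t, S (0, t) = a' (c t)) ∧
        ∀ s, S (s, 1) = b' (c s) := by
  obtain ⟨H⟩ := h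
  have e : ∀ w : ℝ, w ≤ 0 ∨ 1 ≤ w → ExtCl w ∈ ({0, 1} : Set I) := fun w hw =>
    hw.imp ExtCl_le ExtCl_ge
  have k0 : ∀ v w : ℝ, v ≤ 0 ∨ w ≤ 0 ∨ 1 ≤ w → H (ExtCl v, ExtCl w) = (a.trans b).extend w := by
    rintro v w (hv | hw)
    exacts [by rw [ExtCl_le hv]; exact H.apply_zero _, H.eq_fst _ (e w hw)]
  have k1 : ∀ v w : ℝ, 1 ≤ v ∨ w ≤ 0 ∨ 1 ≤ w → H (ExtCl v, ExtCl w) = (a'.trans b').extend w := by
    rintro v w (hv | hw)
    exacts [by rw [ExtCl_ge hv]; exact H.apply_one _, H.eq_snd _ (e w hw)]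
  obtain ⟨c, hc, c0, c1⟩ : ∃ c : I → I, Continuous c ∧ (∀ s : I, (s : ℝ) ≤ 1 / 3 → (c s : ℝ) = 0) ∧
      ∀ s : I, 2 / 3 ≤ (s : ℝ) → (c s : ℝ) = 1 :=
    ⟨fun s => ExtCl (3 * s - 1), by fun_prop, fun s hs => congrArg _ (ExtCl_le (by linarith)),
      fun s hs => congrArg _ (ExtCl_ge (by linarith))⟩
  have d0 := c0 0 (by norm_num)
  have d1 := c1 1 (by norm_num)
  have i0 : ((0 : I) : ℝ) = 0 := rfl
  have i1 : ((1 : I) : ℝ) = 1 := rfl
  refine ⟨⟨fun p => H (ExtCl (3 * (p.2 - p.1) / 2 + 1 / 2), ExtCl ((c p.1 + c p.2) / 2)),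
    by fun_prop⟩, c, fun s => (k0 _ _ ?_).trans ?_, fun s => (k0 _ _ ?_).trans ?_,
    fun s => (k1 _ _ ?_).trans ?_, fun s => (k1 _ _ ?_).trans ?_⟩ <;> dsimp only <;>
    have := (c s).2.1 <;> have := (c s).2.2
  · rcases le_total (s : ℝ) (1 / 3) with hs | hs
    exacts [.inr (.inl (by linarith [c0 s hs])), .inl (by linarith)]
  · rw [Path.extend_trans_of_le_half _ _ (by linarith), ← Path.extend_extends', d0]
    ring_nf
  · rcases le_total (s : ℝ) (2 / 3) with hs | hs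
    exacts [.inl (by linarith), .inr (.inr (by linarith [c1 s hs]))]
  · rw [Path.extend_trans_of_half_le _ _ (by linarith), ← Path.extend_extends', d1]
    ring_nf
  · rcases le_total (s : ℝ) (1 / 3) with hs | hs
    exacts [.inr (.inl (by linarith [c0 s hs])), .inl (by linarith)]
  · rw [Path.extend_trans_of_le_half _ _ (by linarith), ← Path.extend_extends', d0]
    ring_nf
  · rcases le_total (s : ℝ) (2 / 3) with hs | hs
    exacts [.inl (by linarith), .inr (.inr (by linarith [c1 s hs]))]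
  · rw [Path.extend_trans_of_half_le _ _ (by linarith), ← Path.extend_extends', d1]
    ring_nf

theorem Ext_central (a : C(M, M)) (F : C(M × M, M)) (A B : C(I × M, M))
    (hF : ∀ m m', F (a m, m') = a (F (m, m'))) (A0 : ∀ m, A (0, m) = F (m, x))
    (A1 : ∀ m, A (1, m) = m) (Aa : ∀ r m, A (r, a m) = a (A (r, m))) (Ax : ∀ r, A (r, x) = x)
    (B0 : ∀ m, B (0, m) = F (x, m)) (B1 : ∀ m, B (1, m) = m) (Bx : ∀ r, B (r, x) = x)
    (ζ : Path x x) (α : Path x (a x)) : ExtR (ζ.trans α) (α.trans (ζ.map a.continuous)) := by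
  have e : F (x, x) = x := (A0 x).symm.trans (Ax 0)
  let ζ' : Path x x := ⟨⟨fun t => F (x, ζ t), by fun_prop⟩, by simpa, by simpa⟩
  let α' : Path x (a x) := ⟨⟨fun t => F (α t, x), by fun_prop⟩, by simpa, by simp [hF, e]⟩
  have h1 : ExtR ζ' ζ := .mk ⟨fun p => B (p.1, ζ p.2), by fun_prop⟩ (fun _ => B0 _) (fun _ => B1 _)
    (by simp [Bx]) (by simp [Bx])
  have h2 : ExtR α' α := .mk ⟨fun p => A (p.1, α p.2), by fun_prop⟩ (fun _ => A0 _) (fun _ => A1 _)
    (by simp [Ax]) (by simp [Aa, Ax])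
  exact ((h1.hcomp h2).symm.trans (ExtR.square ⟨fun p => F (α p.1, ζ p.2), by fun_prop⟩
    (by simp [ζ']) (by simp [α']) (by simp [α']) (by simp [ζ', hF]))).trans (h2.hcomp (h1.map a))

theorem Ext_group {G : Type u} [Group G] (act : G → C(M, M)) (h1 : ∀ e, act 1 e = e)
    (hm : ∀ g g' e, act (g * g') e = act g (act g' e)) (x : M) :
    ∃ (H : Type (max u v)) (_ : Group H) (p : H →* G) (q : ∀ g, Path x (act g x) → H),
      (∀ g α, p (q g α) = g) ∧ (∀ z, ∃ g α, z = q g α) ∧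
      ∀ g α g' α', Commute (q g α) (q g' α') ↔ g * g' = g' * g ∧
        ExtR (α.trans (α'.map (act g).continuous)) (α'.trans (α.map (act g').continuous)) := by
  let P := Σ g, Path x (act g x)
  let : Mul P := ⟨fun a b => ⟨a.1 * b.1, (a.2.trans (b.2.map (act a.1).continuous)).cast rfl
    (hm _ _ _)⟩⟩
  let c : Con P := ⟨⟨fun a b => a.1 = b.1 ∧ ExtR a.2 b.2, fun _ => ⟨rfl, .refl _⟩,
    fun h => ⟨h.1.symm, h.2.symm⟩, fun h h' => ⟨h.1.trans h'.1, h.2.trans h'.2⟩⟩, by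
      rintro ⟨g, α⟩ ⟨_, α'⟩ ⟨g', β⟩ ⟨_, β'⟩ ⟨rfl, h⟩ ⟨rfl, h'⟩
      exact ⟨rfl, ExtR.hcomp h (h'.map (act g))⟩⟩
  let : One c.Quotient := ⟨(⟨1, (Path.refl x).cast rfl (h1 x)⟩ : P)⟩
  have hi : ∀ a : c.Quotient, ∃ b, b * a = 1 := by
    rintro ⟨g, α⟩
    refine ⟨(⟨g⁻¹, (α.map (act g⁻¹).continuous).symm.cast
      (by rw [← hm, inv_mul_cancel, h1]) rfl⟩ : P), c.eq.2 ⟨inv_mul_cancel g, ?_⟩⟩
    exact ExtR.trans
      (Path.Homotopic.symm_trans (α.map (act g⁻¹).continuous))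
      (ExtR.of_eq fun _ => by simp [← hm, h1])
  choose inv hinv using hi
  let : Inv c.Quotient := ⟨inv⟩
  let : Group c.Quotient := Group.ofLeftAxioms (by
    rintro ⟨g, α⟩ ⟨g', β⟩ ⟨g'', γ⟩
    refine c.eq.2 ⟨mul_assoc _ _ _, ?_⟩
    refine ExtR.trans (ExtR.hcomp (p' := α.trans (β.map (act g).continuous))
      (q' := (γ.map (act g').continuous).map (act g).continuous)
      (.of_eq fun _ => rfl) (.of_eq fun _ => hm _ _ _)) ?_
    refine ExtR.trans (Path.Homotopic.trans_assoc _ _ _) ?_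
    rw [← Path.map_trans]
    exact ExtR.hcomp (.of_eq fun _ => rfl) (.of_eq fun _ => rfl)) (by
    rintro ⟨g, α⟩
    refine c.eq.2 ⟨one_mul _, ?_⟩
    exact ExtR.trans (ExtR.hcomp (p' := .refl x) (q' := α)
      (.of_eq fun _ => rfl) (.of_eq fun _ => h1 _)) (Path.Homotopic.refl_trans α)) hinv
  refine ⟨c.Quotient, inferInstance, MonoidHom.mk' (Quotient.lift (fun a : P => a.1) fun _ _ h => h.1)
    (by rintro ⟨a⟩ ⟨b⟩; rfl), fun g α => (⟨g, α⟩ : P), fun _ _ => rfl, ?_, fun _ _ _ _ => c.eq⟩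
  rintro ⟨g, α⟩
  exact ⟨g, α, rfl⟩

end

section
variable {E : Type v} {Y : Type w} [TopologicalSpace E] [TopologicalSpace Y]

/-- The homotopy fibre. -/
abbrev ExtM (Φ : C(E, Y)) (y : Y) := {m : E × C(I, Y) // m.2 0 = Φ m.1 ∧ m.2 1 = y}

variable {Φ : C(E, Y)} {y : Y}

/-- Maps into the homotopy fibre. -/
def ExtMk {Z : Type*} [TopologicalSpace Z] (f : Z → E) (hf : Continuous f) (P : Z × I → Y)
    (hP : Continuous P) (h0 : ∀ z, P (z, 0) = Φ (f z)) (h1 : ∀ z, P (z, 1) = y) :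
    C(Z, ExtM Φ y) :=
  ⟨fun z => ⟨(f z, (⟨P, hP⟩ : C(Z × I, Y)).curry z), h0 z, h1 z⟩, by fun_prop⟩

theorem ExtM.ext {m m' : ExtM Φ y} (h : m.1.1 = m'.1.1) (h' : ∀ t, m.1.2 t = m'.1.2 t) : m = m' :=
  Subtype.ext (Prod.ext h (ContinuousMap.ext h'))

end

theorem exists_central_ext {G : Type u} [Group G] {E : Type v} {Y : Type w} [TopologicalSpace E]
    [TopologicalSpace Y] (act : G → C(E, E)) (act_one : ∀ e, act 1 e = e)
    (act_mul : ∀ g g' e, act (g * g') e = act g (act g' e))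
    (Φ : C(E, Y)) (hΦ : ∀ g e, Φ (act g e) = Φ e)
    (e0 : E) (k : C(E × I, E)) (k0 : ∀ e, k (e, 0) = e0) (k1 : ∀ e, k (e, 1) = e)
    (kf : ∀ t, k (e0, t) = e0) :
    ∃ (H : Type (max u v w)) (_ : Group H) (p : H →* G),
      (∀ z, p z = 1 → ∀ g, Commute z g) ∧
      (∀ (g : G) (e : C(I, E)) (K : C(I × I, Y)), e 0 = e0 → e 1 = act g e0 →
        (∀ t, K (0, t) = Φ (e t)) → (∀ t, K (1, t) = Φ e0) → (∀ r, K (r, 0) = K (r, 1)) →
        ∃ z, p z = g) ∧
      (∀ z z' : H, Commute z z' → ∃ (τ : C(I × I, E)) (K : C(I × I × I, Y)),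
        (∀ t, τ (1, t) = act (p z) (τ (0, t))) ∧ (∀ s, τ (s, 1) = act (p z') (τ (s, 0))) ∧
        (∀ s t, K (0, s, t) = Φ (τ (s, t))) ∧ (∀ s t, K (1, s, t) = Φ e0) ∧
        (∀ r t, K (r, 0, t) = K (r, 1, t)) ∧ (∀ r s, K (r, s, 0) = K (r, s, 1))) := by
  let a : G → C(ExtM Φ (Φ e0), ExtM Φ (Φ e0)) := fun g =>
    ⟨fun m => ⟨(act g m.1.1, m.1.2), m.2.1.trans (hΦ _ _).symm, m.2.2⟩, by fun_prop⟩
  let x : ExtM Φ (Φ e0) := ⟨(e0, .const _ (Φ e0)), rfl, rfl⟩
  have a1 : ∀ m, a 1 m = m := fun m => ExtM.ext (act_one _) fun _ => rfl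
  obtain ⟨H, _, p, q, hp, hq, hc⟩ := Ext_group a a1
    (fun _ _ _ => ExtM.ext (act_mul _ _ _) fun _ => rfl) x
  have key : ∀ g (ζ : Path x x) (α : Path x (a g x)),
      ExtR (ζ.trans α) (α.trans (ζ.map (a g).continuous)) := fun g => by
    obtain ⟨L, Lc, L0, L1⟩ : ∃ L : ExtM Φ (Φ e0) × ℝ → Y, Continuous L ∧
        (∀ m t, t ≤ 2 → L (m, t) = Φ (k (m.1.1, ExtCl (t - 1)))) ∧
        ∀ m t, 2 ≤ t → L (m, t) = m.1.2 (ExtCl (t - 2)) := by
      have e : ∀ m : ExtM Φ (Φ e0), Φ (k (m.1.1, ExtCl (2 - 1))) = m.1.2 (ExtCl (2 - 2)) :=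
        fun m => by rw [ExtCl_ge (by norm_num), ExtCl_le (by norm_num), k1, m.2.1]
      refine ⟨fun s => if s.2 ≤ 2 then Φ (k (s.1.1.1, ExtCl (s.2 - 1))) else
        s.1.1.2 (ExtCl (s.2 - 2)), Continuous.if_le (by fun_prop) (by fun_prop) continuous_snd
          continuous_const fun s hs => by rw [hs, e], fun m t ht => if_pos ht, fun m t ht => ?_⟩
      rcases ht.eq_or_lt with rfl | ht
      exacts [(if_pos le_rfl).trans (e m), if_neg ht.not_ge]
    have Lx : ∀ t, L (x, t) = Φ e0 := fun t => by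
      rcases le_total t 2 with h | h
      exacts [by rw [L0 _ _ h, kf], L1 _ _ h]
    have Ll : ∀ m t, t ≤ 1 → L (m, t) = Φ e0 := fun m t h => by
      rw [L0 _ _ (by linarith), ExtCl_le (by linarith), k0]
    refine Ext_central (x := x) (a g)
      (ExtMk (fun s => s.1.1.1) (by fun_prop) (fun s => if 3 * (s.2 : ℝ) ≤ 1 then
        s.1.1.1.2 (ExtCl (3 * s.2)) else L (s.1.2, 3 * s.2))
        (Continuous.if_le (by fun_prop) (by fun_prop) (by fun_prop) continuous_const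
          fun s hs => by rw [hs, Ll _ _ le_rfl, ExtCl_ge le_rfl, s.1.1.2.2])
        (fun s => by simp [ExtCl_le, s.1.2.1])
        fun s => by norm_num [L1, ExtCl_ge, s.2.2.2])
      (ExtMk (fun s => s.2.1.1) (by fun_prop) (fun s => s.1.2.1.2 (ExtCl ((3 - 2 * s.1.1) * s.2)))
        (by fun_prop) (fun s => by simp [ExtCl_le, s.2.2.1])
        fun s => by rw [ExtCl_ge (by simp; linarith [s.1.2.2]), s.2.2.2])
      (ExtMk (fun s => k (s.2.1.1, ExtCl (2 * s.1 - 1))) (by fun_prop)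
        (fun s => L (s.1.2, 2 * s.1.1 + (3 - 2 * s.1.1) * s.2)) (by fun_prop)
        (fun s => by simp [L0 _ _ (show 2 * (s.1 : ℝ) ≤ 2 by linarith [s.1.2.2])])
        fun s => by norm_num [L1, ExtCl_ge, s.2.2.2])
      (fun _ _ => rfl) (fun m => ExtM.ext rfl fun t => ?_) (fun m => ExtM.ext rfl fun t => ?_)
      (fun _ _ => rfl) (fun _ => rfl) (fun m => ExtM.ext ?_ fun t => ?_)
      (fun m => ExtM.ext ?_ fun t => ?_) (fun r => ExtM.ext (kf _) fun t => Lx _)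
    all_goals simp only [ExtMk, ContinuousMap.coe_mk, ContinuousMap.curry_apply, Set.Icc.coe_zero,
      Set.Icc.coe_one, mul_zero, sub_zero, zero_add, mul_one]
    · split_ifs with h
      exacts [rfl, by rw [Lx, ExtCl_ge (by linarith), m.2.2]]
    · rw [show (3 - 2 : ℝ) * t = t by ring, ExtCl_coe]
    · rw [ExtCl_le (by norm_num), k0]
    · split_ifs with h
      exacts [Ll _ _ h, rfl]
    · rw [ExtCl_ge (by norm_num), k1]
    · rw [L1 _ _ (by linarith [t.2.1]), show 2 + (3 - 2 : ℝ) * t - 2 = t by ring, ExtCl_coe]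
  refine ⟨H, _, p, fun z hz z' => ?_, fun g e K he0 he1 hK0 hK1 hK => ?_, fun z z' h => ?_⟩
  · obtain ⟨g, ζ, rfl⟩ := hq z
    obtain ⟨g', α, rfl⟩ := hq z'
    obtain rfl : g = 1 := (hp _ _).symm.trans hz
    exact (hc _ _ _ _).2 ⟨by simp, .trans (.symm (.trans (.symm (key g' (ζ.cast rfl (a1 x).symm) α))
      (.hcomp (.of_eq fun _ => rfl) (.of_eq fun _ => (a1 _).symm))))
      (.hcomp (.of_eq fun _ => rfl) (.of_eq fun _ => rfl))⟩
  · have b0 : K (0, 0) = Φ e0 := by rw [hK0, he0]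
    refine ⟨q g ⟨ExtMk (fun u => e (ExtCl (3 * u - 1))) (by fun_prop) (fun s =>
      if 2 * (s.2 : ℝ) ≤ 1 then K (ExtCl (min (min (3 * s.1) (3 - 3 * s.1)) (2 * s.2)),
        ExtCl (3 * s.1 - 1))
      else K (ExtCl (min (min (3 * s.1) (3 - 3 * s.1)) (2 - 2 * s.2)), 0))
      (Continuous.if_le (by fun_prop) (by fun_prop) (by fun_prop) continuous_const fun s hs => ?_)
      (fun u => by simp [ExtCl_le, hK0]) (fun u => by simp [ExtCl_le, b0]),
      ExtM.ext ?_ fun t => ?_, ExtM.ext ?_ fun t => ?_⟩, hp _ _⟩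
    · rw [hs, show 2 - (1 : ℝ) = 1 by norm_num]
      rcases le_total (s.1 : ℝ) (1 / 3) with h | h
      · rw [ExtCl_le (t := _ - _) (by linarith)]
      rcases le_total (s.1 : ℝ) (2 / 3) with h' | h'
      · rw [ExtCl_ge (le_min (le_min (by linarith) (by linarith)) le_rfl), hK1, hK1]
      · rw [ExtCl_ge (t := _ - _) (by linarith), hK]
    all_goals norm_num [ExtMk, ExtCl_le, ExtCl_ge, he0, he1, b0, ← hK, a, x]
  · obtain ⟨g, α, rfl⟩ := hq z
    obtain ⟨g', α', rfl⟩ := hq z'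
    obtain ⟨S, c, h1, h2, h3, h4⟩ := ((hc _ _ _ _).1 h).2.fill
    refine ⟨⟨fun s => (S s).1.1, by fun_prop⟩, ⟨fun s => (S s.2).1.2 s.1, by fun_prop⟩, ?_, ?_,
      fun _ _ => (S _).2.1, fun _ _ => (S _).2.2, ?_, ?_⟩ <;> simp [hp, h1, h2, h3, h4, a]

end Vale.Agent.P178
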