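import Vale.Agent.P178.Real

/-! P178: continuous families of step functors. -/

namespace Vale.Agent.P178

open CategoryTheory unitInterval

universe v u v' u' v'' u'' w w'

/-- a family of monotone step functions into a poset with continuous thresholds -/
def IsFam {W : Type w} [TopologicalSpace W] {P : Type} [Preorder P] (z : W → J ⥤ P) : Prop :=
  ∀ p, ∃ T : W → ℝ, Continuous T ∧ ∀ x a, (z x).obj a ≤ p ↔ a.1 ≤ T x

/-- a continuous family of step functors -/
def Fam {W : Type w} [TopologicalSpace W] {C : Type u} [Category.{v} C] (G : W → J ⥤ C) : Prop :=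
  ∃ (P : Type) (_ : PartialOrder P) (_ : Finite P) (z : W → J ⥤ P) (K : P ⥤ C),
    IsFam z ∧ ∀ x, G x = z x ⋙ K

/-- clamp to the unit interval -/
noncomputable def cl (x : ℝ) : I := Set.projIcc 0 1 zero_le_one x

theorem continuous_cl : Continuous cl := continuous_projIcc (h := zero_le_one)

/-- one-step function jumping at height `1 - s` -/
noncomputable def thrFun (s : I) (a : J) : Fin 2 := if a.1 ≤ 1 - s.1 then 0 else 1

theorem thrFun_mono (s : I) : Monotone (thrFun s) := by
  intro a b h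
  unfold thrFun
  split_ifs with h1 h2 h2
  · exact le_rfl
  · exact Fin.zero_le _
  · exact absurd (le_trans (show a.1 ≤ b.1 from h) h2) h1
  · exact le_rfl

theorem thrFun_zero (a : J) : thrFun 0 a = 0 := if_pos (by simpa using a.2.2.le)

theorem thrFun_one (a : J) : thrFun 1 a = 1 := if_neg (by simpa using a.2.1)

/-- the one-step functor -/
noncomputable def thr (s : I) : J ⥤ Fin 2 := (thrFun_mono s).functor

theorem thr_zero : thr 0 = (Functor.const J).obj 0 :=
  CategoryTheory.Functor.ext thrFun_zero fun _ _ _ => Subsingleton.elim _ _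

theorem thr_one : thr 1 = (Functor.const J).obj 1 :=
  CategoryTheory.Functor.ext thrFun_one fun _ _ _ => Subsingleton.elim _ _

/-- the poset of vertices of a cube -/
def Cb (ι : Type) : Type := ι → Fin 2

instance (ι : Type) : PartialOrder (Cb ι) := inferInstanceAs (PartialOrder (ι → Fin 2))

instance (ι : Type) [Finite ι] : Finite (Cb ι) := inferInstanceAs (Finite (ι → Fin 2))

/-- the step functor of a point of the cube -/
noncomputable def cube {ι : Type} (y : ι → I) : J ⥤ Cb ι :=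
  Monotone.functor (f := fun a i => thrFun (y i) a) fun _ _ h i => thrFun_mono (y i) h

theorem cube_obj {ι : Type} (y : ι → I) (a : J) (i : ι) : (cube y).obj a i = thrFun (y i) a := rfl

variable {W : Type w} [TopologicalSpace W] {C : Type u} [Category.{v} C]
  {D : Type u'} [Category.{v'} D]

theorem IsFam.fam {P : Type} [PartialOrder P] [Finite P] {z : W → J ⥤ P} (h : IsFam z) : Fam z :=
  ⟨P, inferInstance, inferInstance, z, 𝟭 _, h, fun _ => rfl⟩

theorem Fam.comp {G : W → J ⥤ C} (h : Fam G) {W' : Type w'} [TopologicalSpace W'] {f : W' → W}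
    (hf : Continuous f) : Fam fun x => G (f x) := by
  obtain ⟨P, _, _, z, K, hz, hG⟩ := h
  refine ⟨P, inferInstance, inferInstance, fun x => z (f x), K, fun p => ?_, fun x => hG _⟩
  obtain ⟨T, hT, h⟩ := hz p
  exact ⟨fun x => T (f x), hT.comp hf, fun x a => h _ a⟩

theorem Fam.whisker {G : W → J ⥤ C} (h : Fam G) (K : C ⥤ D) : Fam fun x => G x ⋙ K := by
  obtain ⟨P, _, _, z, K', hz, hG⟩ := h
  exact ⟨P, inferInstance, inferInstance, z, K' ⋙ K, hz, fun x => by beta_reduce; rw [hG]; rfl⟩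

/-- the product of two posets, as a type synonym -/
def FamPr (P Q : Type) : Type := P × Q

instance (P Q : Type) [PartialOrder P] [PartialOrder Q] : PartialOrder (FamPr P Q) :=
  inferInstanceAs (PartialOrder (P × Q))

instance (P Q : Type) [Finite P] [Finite Q] : Finite (FamPr P Q) :=
  inferInstanceAs (Finite (P × Q))

theorem Fam.prod' {G : W → J ⥤ C} {G' : W → J ⥤ D} (h : Fam G) (h' : Fam G') :
    Fam fun x => (G x).prod' (G' x) := by
  obtain ⟨P, _, _, z, K, hz, hG⟩ := h
  obtain ⟨Q, _, _, z', K', hz', hG'⟩ := h'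
  have m1 : Monotone (fun p : FamPr P Q => (p.1 : P)) := fun _ _ h => h.1
  have m2 : Monotone (fun p : FamPr P Q => (p.2 : Q)) := fun _ _ h => h.2
  have m3 : ∀ x, Monotone (fun a : J => (((z x).obj a, (z' x).obj a) : FamPr P Q)) :=
    fun x _ _ h => ⟨(z x).monotone h, (z' x).monotone h⟩
  refine ⟨FamPr P Q, inferInstance, inferInstance, fun x => (m3 x).functor,
    (m1.functor ⋙ K).prod' (m2.functor ⋙ K'), fun p => ?_, fun x => ?_⟩
  · obtain ⟨T, hT, h⟩ := hz p.1
    obtain ⟨T', hT', h'⟩ := hz' p.2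
    refine ⟨fun x => min (T x) (T' x), hT.min hT', fun x a => ?_⟩
    rw [le_min_iff, ← h, ← h']
    exact Iff.rfl
  · beta_reduce
    rw [hG, hG']
    rfl

theorem fam_vtx (n : ℕ) : Fam (vtx : stdSimplex ℝ (Fin (n + 1)) → J ⥤ Fin (n + 1)) := by
  refine IsFam.fam fun j => ⟨fun t => ∑ i ∈ Finset.Iic j, t i, ?_, fun t a => vtxFun_le_iff t a j⟩
  exact continuous_finsetSum _ fun i _ => (continuous_apply i).comp continuous_subtype_val

theorem fam_thrFun_le (s : I) (a : J) (p : Fin 2) :
    thrFun s a ≤ p ↔ (if p = 0 then (s : ℝ) else 0) ≤ 1 - a.1 := by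
  have ha := a.2.2
  unfold thrFun
  fin_cases p
  · simp only [Fin.zero_eta, if_true]
    split_ifs with h
    · exact iff_of_true le_rfl (by linarith)
    · exact iff_of_false (by decide) fun h' => h (by linarith)
  · refine iff_of_true (Fin.le_last _) ?_
    rw [if_neg (by decide)]
    linarith

theorem fam_thr : Fam thr := by
  refine IsFam.fam fun p => ⟨fun s => 1 - (if p = 0 then (s : ℝ) else 0), ?_, fun s a => ?_⟩
  · split_ifs
    · exact continuous_const.sub continuous_subtype_val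
    · exact continuous_const
  · refine (fam_thrFun_le s a p).trans ⟨fun h => ?_, fun h => ?_⟩ <;> linarith

theorem fam_cube (ι : Type) [Fintype ι] : Fam (cube : (ι → I) → J ⥤ Cb ι) := by
  refine IsFam.fam fun p => ⟨fun y => 1 - ‖fun i => if p i = 0 then (y i : ℝ) else 0‖, ?_,
    fun y a => ?_⟩
  · refine continuous_const.sub (continuous_norm.comp (continuous_pi fun i => ?_))
    split_ifs
    · exact continuous_subtype_val.comp (continuous_apply i)
    · exact continuous_const
  · have ha := a.2.2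
    have h1 : (cube y).obj a ≤ p ↔ ∀ i, thrFun (y i) a ≤ p i := Iff.rfl
    rw [h1, le_sub_comm, pi_norm_le_iff_of_nonneg (by linarith)]
    refine forall_congr' fun i => ?_
    rw [fam_thrFun_le, Real.norm_eq_abs, abs_of_nonneg]
    split_ifs
    · exact (y i).2.1
    · exact le_rfl

theorem fam_sum_Iic {m : ℕ} (g : ℕ → ℝ) (j : Fin (m + 1)) :
    ∑ i ∈ Finset.Iic j, (g (i.1 + 1) - g i.1) = g (j.1 + 1) - g 0 := by
  rw [← Finset.sum_range_sub, Nat.range_succ_eq_Iic, ← Fin.map_valEmbedding_Iic, Finset.sum_map]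
  rfl

theorem fam_le_cl_iff (a : J) (x : ℝ) : a.1 ≤ (cl x : ℝ) ↔ a.1 ≤ x := by
  have h0 := a.2.1
  have h1 := a.2.2
  show a.1 ≤ max 0 (min 1 x) ↔ _
  rw [le_max_iff, le_min_iff]
  constructor
  · rintro (h | h)
    · linarith
    · exact h.2
  · exact fun h => Or.inr ⟨h1.le, h⟩

theorem fam_le_of_forall {s t : I} (h : ∀ a : J, a.1 ≤ s → a.1 ≤ t) : (s : ℝ) ≤ t := by
  by_contra hlt
  have hlt := not_le.1 hlt
  have h0 := t.2.1
  have h1 := s.2.2
  have := h ⟨(s + t) / 2, by linarith, by linarith⟩ (by show ((s : ℝ) + t) / 2 ≤ s; linarith)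
  have h2 : ((s : ℝ) + t) / 2 ≤ t := this
  linarith

/-- on the locus where the values lie in a chain, the family comes from a map to a simplex -/
theorem fam_chain {P : Type} [PartialOrder P] {z : W → J ⥤ P} (hz : IsFam z) {m : ℕ}
    (c : Fin (m + 1) ↪o P) : ∃ t : W → stdSimplex ℝ (Fin (m + 1)), Continuous t ∧
      ∀ x, (∀ a, (z x).obj a ∈ Set.range c) → z x = vtx (t x) ⋙ c.monotone.functor := by
  choose T hT hzT using hz
  have hS : ∀ x (a : J) p, (z x).obj a ≤ p ↔ a.1 ≤ (cl (T p x) : ℝ) := fun x a p => by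
    rw [fam_le_cl_iff, hzT]
  let U : W → ℕ → ℝ := fun x k =>
    Nat.casesOn k 0 fun k => if h : k < m then cl (T (c ⟨k, by omega⟩) x) else 1
  have hU0 : ∀ x, U x 0 = 0 := fun _ => rfl
  have hU1 : ∀ x k (h : k < m), U x (k + 1) = cl (T (c ⟨k, by omega⟩) x) := fun x k h => dif_pos h
  have hU2 : ∀ x k, ¬ k < m → U x (k + 1) = 1 := fun x k h => dif_neg h
  have hUc : ∀ k, Continuous fun x => U x k := by
    intro k
    rcases k with _ | k
    · exact continuous_const
    · by_cases h : k < m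
      · simp only [hU1 _ k h]
        exact continuous_subtype_val.comp (continuous_cl.comp (hT _))
      · simp only [hU2 _ k h]
        exact continuous_const
  have hUm : ∀ x k, U x k ≤ U x (k + 1) := by
    intro x k
    rcases k with _ | k
    · rw [hU0]
      by_cases h : 0 < m
      · rw [hU1 _ _ h]; exact (cl _).2.1
      · rw [hU2 _ _ h]; exact zero_le_one
    · by_cases h : k + 1 < m
      · rw [hU1 _ _ h, hU1 _ _ (by omega : k < m)]
        refine fam_le_of_forall fun a ha => ?_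
        rw [← hS] at ha ⊢
        exact ha.trans (c.monotone (by rw [Fin.mk_le_mk]; omega))
      · rw [hU2 _ _ h]
        by_cases h' : k < m
        · rw [hU1 _ _ h']; exact (cl _).2.2
        · rw [hU2 _ _ h']
  have hmem : ∀ x, (fun j : Fin (m + 1) => U x (j.1 + 1) - U x j.1) ∈
      stdSimplex ℝ (Fin (m + 1)) := by
    intro x
    refine ⟨fun j => sub_nonneg.2 (hUm x _), ?_⟩
    rw [Fin.sum_univ_eq_sum_range (fun j => U x (j + 1) - U x j), Finset.sum_range_sub,
      hU2 _ _ (lt_irrefl m), hU0, sub_zero]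
  refine ⟨fun x => ⟨_, hmem x⟩,
    Continuous.subtype_mk (continuous_pi fun j : Fin (m + 1) => (hUc (j.1 + 1)).sub (hUc j.1)) _,
    fun x hx => ?_⟩
  refine CategoryTheory.Functor.ext (fun a => ?_) fun _ _ _ => Subsingleton.elim _ _
  obtain ⟨i, hi⟩ := hx a
  show (z x).obj a = c (vtxFun ⟨_, hmem x⟩ a)
  rw [← hi]
  refine congrArg c (eq_of_forall_ge_iff fun j => ?_)
  rw [vtxFun_le_iff]
  have e : ∑ i ∈ Finset.Iic j, (⟨_, hmem x⟩ : stdSimplex ℝ (Fin (m + 1))) i =
      U x (j.1 + 1) - U x 0 := fam_sum_Iic (U x) j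
  rw [e, hU0, sub_zero]
  by_cases h : j.1 < m
  · rw [hU1 _ _ h, ← hS, ← hi, c.le_iff_le]
  · rw [hU2 _ _ h]
    refine iff_of_true ?_ a.2.2.le
    have := i.2
    rw [Fin.le_def]
    omega

theorem fam_exists_chain {P : Type} [PartialOrder P] [Finite P] (g : J ⥤ P) :
    ∃ (m : ℕ) (c : Fin (m + 1) ↪o P), Set.range c = Set.range g.obj := by
  classical
  have hc : IsChain (· ≤ ·) (Set.range g.obj) := by
    rintro _ ⟨a, rfl⟩ _ ⟨b, rfl⟩ _
    exact (le_total a b).imp (fun h => g.monotone h) fun h => g.monotone h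
  let := hc.linearOrder
  let := Fintype.ofFinite (Set.range g.obj)
  have hne : Nonempty (Set.range g.obj) :=
    ⟨⟨g.obj ⟨1 / 2, by norm_num, by norm_num⟩, _, rfl⟩⟩
  obtain ⟨m, hm⟩ : ∃ m, Fintype.card (Set.range g.obj) = m + 1 :=
    Nat.exists_eq_succ_of_ne_zero Fintype.card_ne_zero
  let e := monoEquivOfFin _ hm
  refine ⟨m, OrderEmbedding.ofMapLEIff (fun i => (e i).1) fun i j => e.le_iff_le, ?_⟩
  ext p
  constructor
  · rintro ⟨i, rfl⟩
    exact (e i).2
  · intro hp
    exact ⟨e.symm ⟨p, hp⟩, congrArg Subtype.val (e.apply_symm_apply _)⟩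

theorem fam_isOpen_value {P : Type} [PartialOrder P] [Finite P] {z : W → J ⥤ P} (hz : IsFam z)
    (p : P) : IsOpen {x | ∃ a, (z x).obj a = p} := by
  choose T hT hzT using hz
  refine isOpen_iff_mem_nhds.2 ?_
  rintro x ⟨a, ha⟩
  have h1 : a.1 ≤ T p x := (hzT _ _ _).1 ha.le
  have h2 : ∀ q, q < p → T q x < a.1 := fun q hq => by
    rw [← not_le, ← hzT, ha]
    exact hq.not_ge
  have h3 : ∀ᶠ b in nhds a.1, 0 < b ∧ ∀ q, q < p → T q x < b := by
    refine (lt_mem_nhds a.2.1).and (Filter.eventually_all.2 fun q => ?_)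
    by_cases hq : q < p
    · exact (lt_mem_nhds (h2 q hq)).mono fun b hb _ => hb
    · exact Filter.Eventually.of_forall fun b h => absurd h hq
  obtain ⟨b, ⟨hb0, hb⟩, hba⟩ :=
    ((h3.filter_mono (nhdsWithin_le_nhds (s := Set.Iio a.1))).and self_mem_nhdsWithin).exists
  have hba : b < a.1 := hba
  have h4 : ∀ᶠ y in nhds x, b < T p y ∧ ∀ q, q < p → T q y < b := by
    refine ((hT p).continuousAt.eventually (lt_mem_nhds (hba.trans_le h1))).and
      (Filter.eventually_all.2 fun q => ?_)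
    by_cases hq : q < p
    · exact ((hT q).continuousAt.eventually (gt_mem_nhds (hb q hq))).mono fun b hb _ => hb
    · exact Filter.Eventually.of_forall fun b h => absurd h hq
  refine h4.mono fun y hy => ⟨⟨b, hb0, hba.trans a.2.2⟩, ?_⟩
  have h5 : (z y).obj ⟨b, hb0, hba.trans a.2.2⟩ ≤ p := (hzT _ _ _).2 hy.1.le
  by_contra hne
  exact (hy.2 _ (lt_of_le_of_ne h5 hne)).not_ge ((hzT _ y ⟨b, hb0, hba.trans a.2.2⟩).1 le_rfl)

theorem Fam.isStep {G : W → J ⥤ C} (h : Fam G) (x : W) : IsStep (G x) := by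
  obtain ⟨P, _, _, z, K, hz, hG⟩ := h
  obtain ⟨m, c, hc⟩ := fam_exists_chain (z x)
  obtain ⟨t, -, ht⟩ := fam_chain hz c
  refine ⟨m, c.monotone.functor ⋙ K, t x, ?_⟩
  rw [hG, ht x fun a => hc ▸ ⟨a, rfl⟩]
  rfl

theorem IsStep.fam {G : J ⥤ C} (h : IsStep G) : Fam fun _ : W => G := by
  obtain ⟨n, τ, t, rfl⟩ := h
  exact ((fam_vtx n).comp continuous_const).whisker τ

theorem IsStep.prod' {G : J ⥤ C} {G' : J ⥤ D} (h : IsStep G) (h' : IsStep G') :
    IsStep (G.prod' G') :=
  ((h.fam (W := Unit)).prod' h'.fam).isStep ()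

theorem Fam.continuous_pt {G : W → J ⥤ C} (h : Fam G) : Continuous fun x => pt (G x) := by
  obtain ⟨P, _, _, z, K, hz, hG⟩ := h
  let A : {S : Set P // ∃ (m : ℕ) (c : Fin (m + 1) ↪o P), Set.range c = S} → Set W :=
    fun S => {x | ∀ a, (z x).obj a ∈ S.1}
  refine (locallyFinite_of_finite A).continuous ?_ (fun S => ?_) fun S => ?_
  · refine Set.eq_univ_of_forall fun x => Set.mem_iUnion.2 ?_
    exact ⟨⟨_, fam_exists_chain (z x)⟩, fun a => ⟨a, rfl⟩⟩
  · have e : (A S)ᶜ = ⋃ p ∈ S.1ᶜ, {x | ∃ a, (z x).obj a = p} := by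
      ext x
      simp only [A, Set.mem_compl_iff, Set.mem_ofPred_eq, not_forall, Set.mem_iUnion, exists_prop]
      constructor
      · rintro ⟨a, ha⟩
        exact ⟨_, ha, a, rfl⟩
      · rintro ⟨p, hp, a, rfl⟩
        exact ⟨a, hp⟩
    rw [← isOpen_compl_iff, e]
    exact isOpen_biUnion fun p _ => fam_isOpen_value hz p
  · obtain ⟨S, m, c, rfl⟩ := S
    obtain ⟨t, htc, ht⟩ := fam_chain hz c
    refine (((simplexMap (c.monotone.functor ⋙ K)).continuous.comp htc).continuousOn).congr
      fun x hx => ?_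
    show pt (G x) = simplexMap (c.monotone.functor ⋙ K) (t x)
    rw [← pt_vtx, hG, ht x hx]
    rfl

/-- joint continuity on `|N D| × W` -/
theorem Fam.continuous_prod [LocallyCompactSpace W] {D' : Type u''} [Category.{v''} D']
    {G : W → J ⥤ D'} (h : Fam G) (K : D × D' ⥤ C) :
    Continuous fun p : BC D × W => pt ((rep p.1).prod' (G p.2) ⋙ K) := by
  let f : BC D → C(W, BC C) := fun x => ⟨fun w => pt ((rep x).prod' (G w) ⋙ K),
    (((isStep_rep x).fam.prod' h).whisker K).continuous_pt⟩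
  have hf : Continuous f := by
    refine continuous_of_simplex f fun n τ => ?_
    refine ContinuousMap.continuous_of_continuous_uncurry _ ?_
    have h1 := (((((fam_vtx n).comp (continuous_fst (Y := W))).whisker τ).prod'
      (h.comp continuous_snd)).whisker K).continuous_pt
    refine h1.congr fun p => ?_
    show _ = pt ((rep (simplexMap τ p.1)).prod' (G p.2) ⋙ K)
    rw [rep_simplexMap]
  exact (hf.comp continuous_fst).eval continuous_snd

end Vale.Agent.P178
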