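import Vale.Agent.P178.QMor

/-! P178: frames of cokernels and the trace cocycle. -/

namespace Vale.Agent.P178

open CategoryTheory

variable {A B : Type} [CommRing A] [CommRing B]

/-- sum over a list -/
def sm {α : Type} (l : List α) (f : α → B) : B := (l.map f).sum

theorem sm_append {α : Type} (l l' : List α) (f : α → B) : sm (l ++ l') f = sm l f + sm l' f := by
  simp [sm]

theorem sm_map {α β : Type} (l : List α) (g : α → β) (f : β → B) :
    sm (l.map g) f = sm l fun x => f (g x) := by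
  simp [sm, Function.comp_def]

theorem sm_congr {α : Type} {l : List α} {f g : α → B} (h : ∀ x ∈ l, f x = g x) :
    sm l f = sm l g := congrArg List.sum (List.map_congr_left h)

theorem sm_zero {α : Type} {l : List α} {f : α → B} (h : ∀ x ∈ l, f x = 0) : sm l f = 0 := by
  rw [sm_congr h]; simp [sm]

theorem sm_add {α : Type} (l : List α) (f g : α → B) :
    sm l (fun x => f x + g x) = sm l f + sm l g := by
  simp [sm]

theorem sm_eq {α : Type} (l : List α) (f : α → B) : sm l f = ∑ i : Fin l.length, f l[i] := by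
  simp [sm, Fin.sum_univ_fun_getElem]

/-- a list of covectors and vectors -/
abbrev Fr (X : QP A) : Type := List ((X.M →ₗ[A] A) × X.M)

/-- frame of a cokernel together with a retraction and a section -/
structure Tri (X Y : QP A) where
  U : Fr Y
  a : Y.M →ₗ[A] X.M
  s : X.M →ₗ[A] Y.M

variable {X Y Z W : QP A}

/-- concatenation -/
def Tri.cat (t : Tri X Y) (t' : Tri Y Z) : Tri X Z :=
  ⟨t'.U ++ t.U.map fun q => (q.1 ∘ₗ t'.a, t'.s q.2), t.a ∘ₗ t'.a, t'.s ∘ₗ t.s⟩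

theorem Tri.cat_assoc (t : Tri X Y) (t' : Tri Y Z) (t'' : Tri Z W) :
    (t.cat t').cat t'' = t.cat (t'.cat t'') := by
  simp [Tri.cat, LinearMap.comp_assoc, Function.comp_def]

/-- the data are adapted to the morphism `f` -/
structure OK (f : X ⟶ Y) (t : Tri X Y) : Prop where
  van : ∀ p ∈ t.U, ∀ x y, (x, y) ∈ f.1 → p.1 y = 0
  cpl : ∀ y, ∃ x, (x, y - (t.U.map fun p => p.1 y • p.2).sum) ∈ f.1
  flat : ∀ p ∈ t.U, ∀ q ∈ t.U, p.1 q.2 = 0 ∨ p.1 q.2 = 1
  ha : ∀ x y, (x, y) ∈ f.1 → t.a y = x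
  hs : ∀ x, (x, t.s x) ∈ f.1
  aU : ∀ p ∈ t.U, t.a p.2 = 0

theorem OK.cat {f : X ⟶ Y} {g : Y ⟶ Z} {t : Tri X Y} {t' : Tri Y Z} (h : OK f t) (h' : OK g t') :
    OK (f ≫ g) (t.cat t') := by
  have as : ∀ y, t'.a (t'.s y) = y := fun y => h'.ha _ _ (h'.hs y)
  refine ⟨?_, fun z => ?_, ?_, ?_, fun x => ⟨_, h.hs x, h'.hs _⟩, ?_⟩
  · rintro p hp x z ⟨y, h1, h2⟩
    rcases List.mem_append.1 hp with hp | hp
    · exact h'.van p hp y z h2
    · obtain ⟨q, hq, rfl⟩ := List.mem_map.1 hp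
      change q.1 (t'.a z) = 0
      rw [h'.ha y z h2]
      exact h.van q hq x y h1
  · obtain ⟨y, hy⟩ := h'.cpl z
    have e : y = t'.a z := by
      rw [← h'.ha _ _ hy, map_sub, map_list_sum, List.map_map, List.sum_eq_zero, sub_zero]
      intro w hw
      obtain ⟨p, hp, rfl⟩ := List.mem_map.1 hw
      simp [h'.aU p hp]
    obtain ⟨x, hx⟩ := h.cpl y
    refine ⟨x, _, hx, ?_⟩
    have := g.1.sub_mem hy (h'.hs (t.U.map fun p => p.1 y • p.2).sum)
    rw [Prod.mk_sub_mk, map_list_sum, List.map_map] at this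
    simpa [Tri.cat, sub_sub, e, Function.comp_def] using this
  · intro p hp q hq
    rcases List.mem_append.1 hp with hp | hp <;> rcases List.mem_append.1 hq with hq | hq
    · exact h'.flat p hp q hq
    · obtain ⟨q, hq, rfl⟩ := List.mem_map.1 hq
      exact Or.inl (h'.van p hp _ _ (h'.hs _))
    · obtain ⟨p, hp, rfl⟩ := List.mem_map.1 hp
      exact Or.inl (by simp [h'.aU q hq])
    · obtain ⟨p, hp', rfl⟩ := List.mem_map.1 hp
      obtain ⟨q, hq', rfl⟩ := List.mem_map.1 hq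
      simpa [as] using h.flat p hp' q hq'
  · rintro x z ⟨y, h1, h2⟩
    change t.a (t'.a z) = x
    rw [h'.ha y z h2, h.ha x y h1]
  · intro p hp
    rcases List.mem_append.1 hp with hp | hp
    · change t.a (t'.a p.2) = 0
      rw [h'.aU p hp, map_zero]
    · obtain ⟨q, hq, rfl⟩ := List.mem_map.1 hp
      change t.a (t'.a (t'.s q.2)) = 0
      rw [as, h.aU q hq]

theorem exists_tri [IsLocalRing A] (f : X ⟶ Y) : ∃ t : Tri X Y, OK f t ∧
    (∀ p ∈ t.U, p.1 p.2 = 1) ∧ t.U.Pairwise fun p q => p.1 q.2 = 0 := by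
  obtain ⟨r, a, s, h⟩ := f.2.exists_pres
  set E := f.1.map (LinearMap.snd A X.M Y.M) with hE
  have := f.2.2.2
  have : Module.Free A (Y.M ⧸ E) := Module.free_of_flat_of_isLocalRing
  have hk : E ≤ LinearMap.ker (LinearMap.id - r) := by
    rintro _ ⟨⟨x, y⟩, hp, rfl⟩
    simp [((h.mem _ _).1 hp).1]
  set τ := E.liftQ _ hk with hτ
  have h1 : ∀ y, τ (E.mkQ y) = y - r y := fun y => rfl
  have h2 : ∀ y, E.mkQ (r y) = 0 := fun y => by
    rw [Submodule.mkQ_apply, Submodule.Quotient.mk_eq_zero]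
    exact ⟨(a y, r y), (h.mem _ _).2 ⟨h.rr y, h.ar y⟩, rfl⟩
  have h3 : ∀ c, E.mkQ (τ c) = c := fun c => by
    obtain ⟨y, rfl⟩ := E.mkQ_surjective c
    rw [h1, map_sub, h2, sub_zero]
  let e := Module.finBasis A (Y.M ⧸ E)
  have h4 : ∀ i j, (e.coord i ∘ₗ E.mkQ) (τ (e j)) = if j = i then 1 else 0 := fun i j => by
    rw [LinearMap.comp_apply, h3, Module.Basis.coord_apply, Module.Basis.repr_self,
      Finsupp.single_apply]
  refine ⟨⟨List.ofFn fun i => (e.coord i ∘ₗ E.mkQ, τ (e i)), a, s⟩, ⟨?_, fun y => ?_, ?_,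
    fun x y hp => ((h.mem _ _).1 hp).2, fun x => (h.mem _ _).2 ⟨h.rs x, h.as x⟩, ?_⟩, ?_, ?_⟩
  · intro p hp x y hxy
    obtain ⟨i, rfl⟩ := List.mem_ofFn.1 hp
    have : E.mkQ y = 0 := by
      rw [Submodule.mkQ_apply, Submodule.Quotient.mk_eq_zero]
      exact ⟨(x, y), hxy, rfl⟩
    simp only [LinearMap.comp_apply, this, map_zero]
  · refine ⟨a y, ?_⟩
    have : (List.map (fun p : (Y.M →ₗ[A] A) × Y.M => p.1 y • p.2)
        (List.ofFn fun i => (e.coord i ∘ₗ E.mkQ, τ (e i)))).sum = y - r y := by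
      rw [List.map_ofFn, List.sum_ofFn, ← h1]
      conv_rhs => rw [← e.sum_repr (E.mkQ y), map_sum]
      simp
    rw [this, sub_sub_cancel]
    exact (h.mem _ _).2 ⟨h.rr y, h.ar y⟩
  · intro p hp q hq
    obtain ⟨i, rfl⟩ := List.mem_ofFn.1 hp
    obtain ⟨j, rfl⟩ := List.mem_ofFn.1 hq
    rw [h4]
    split_ifs <;> simp
  · intro p hp
    obtain ⟨i, rfl⟩ := List.mem_ofFn.1 hp
    obtain ⟨y, hy⟩ := E.mkQ_surjective (e i)
    change a (τ (e i)) = 0
    rw [← hy, h1, map_sub, h.ar, sub_self]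
  · intro p hp
    obtain ⟨i, rfl⟩ := List.mem_ofFn.1 hp
    rw [h4, if_pos rfl]
  · rw [List.pairwise_ofFn]
    intro i j hij
    rw [h4, if_neg hij.ne']

section Omega

variable (π : A →+* B) (Da Db Dc : A →+ B)

/-- the trace cochain on four frames -/
def om (t0 t1 t2 t3 : Tri X Y) : B :=
  sm t0.U fun p0 => sm t3.U fun p3 => sm t2.U fun p2 => sm t1.U fun p1 =>
    Da (p0.1 p1.2) * Db (p1.1 p2.2) * Dc (p2.1 p3.2) * π (p3.1 p0.2)

/-- transition matrix -/
def gm (t t' : Tri X Y) : Matrix (Fin t.U.length) (Fin t'.U.length) A :=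
  fun i j => t.U[i].1 t'.U[j].2

theorem om_eq (t0 t1 t2 t3 : Tri X Y) : om π Da Db Dc t0 t1 t2 t3 =
    ((gm t0 t1).map Da * (gm t1 t2).map Db * (gm t2 t3).map Dc * (gm t3 t0).map π).trace := by
  simp only [om, sm_eq, Matrix.trace, Matrix.diag, Matrix.mul_apply, Matrix.map_apply, gm,
    Finset.sum_mul]

theorem gm_mul {f : X ⟶ Y} {t t' : Tri X Y} (h : OK f t) (h' : OK f t') (t'' : Tri X Y) :
    gm t t'' = gm t t' * gm t' t'' := by
  ext i j
  obtain ⟨x, hx⟩ := h'.cpl t''.U[j].2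
  have := h.van _ (List.getElem_mem i.2) _ _ hx
  rw [map_sub, sub_eq_zero, map_list_sum, List.map_map] at this
  rw [Matrix.mul_apply]
  refine this.trans ((sm_eq _ _).trans (Finset.sum_congr rfl fun k _ => ?_))
  simp [gm, mul_comm]

theorem map_D_mul {D : A →+ B} (hD : ∀ x y, D (x * y) = π x * D y + π y * D x)
    {l m n : Type} [Fintype m] (P : Matrix l m A) (Q : Matrix m n A) :
    (P * Q).map D = P.map π * Q.map D + P.map D * Q.map π := by
  ext i j
  simp [Matrix.mul_apply, hD, Finset.sum_add_distrib, mul_comm]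

variable {π Da Db Dc}

theorem om_coc (ha : ∀ x y, Da (x * y) = π x * Da y + π y * Da x)
    (hb : ∀ x y, Db (x * y) = π x * Db y + π y * Db x)
    (hc : ∀ x y, Dc (x * y) = π x * Dc y + π y * Dc x) {f : X ⟶ Y} {t0 t1 t2 t3 t4 : Tri X Y}
    (h0 : OK f t0) (h1 : OK f t1) (h2 : OK f t2) (h3 : OK f t3) (h4 : OK f t4) :
    om π Da Db Dc t1 t2 t3 t4 - om π Da Db Dc t0 t2 t3 t4 + om π Da Db Dc t0 t1 t3 t4 -
      om π Da Db Dc t0 t1 t2 t4 + om π Da Db Dc t0 t1 t2 t3 = 0 := by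
  simp only [om_eq]
  rw [gm_mul h0 h1 t2, gm_mul h1 h2 t3, gm_mul h2 h3 t4, gm_mul h3 h4 t0, gm_mul h4 h0 t1,
    map_D_mul π ha, map_D_mul π hb, map_D_mul π hc, Matrix.map_mul, Matrix.map_mul]
  have e := Matrix.trace_mul_comm ((gm t0 t1).map π) ((gm t1 t2).map Da * (gm t2 t3).map Db *
    (gm t3 t4).map Dc * (gm t4 t0).map π)
  simp only [Matrix.mul_add, Matrix.add_mul, Matrix.trace_add, Matrix.mul_assoc] at e ⊢
  rw [e]
  ring

theorem om_blk {g : Y ⟶ Z} (l0 l1 l2 l3 : Tri X Y) {u0 u1 u2 u3 : Tri Y Z} (h0 : OK g u0)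
    (h1 : OK g u1) (h2 : OK g u2) (h3 : OK g u3) :
    om π Da Db Dc (l0.cat u0) (l1.cat u1) (l2.cat u2) (l3.cat u3) =
      om π Da Db Dc u0 u1 u2 u3 + om π Da Db Dc l0 l1 l2 l3 := by
  have v : ∀ {u u' : Tri Y Z}, OK g u → OK g u' → ∀ p ∈ u.U, ∀ y, p.1 (u'.s y) = 0 :=
    fun h h' p hp y => h.van p hp _ _ (h'.hs y)
  have w : ∀ {u u' : Tri Y Z}, OK g u → OK g u' → ∀ y, u.a (u'.s y) = y :=
    fun h h' y => h.ha _ _ (h'.hs y)
  simp only [om, Tri.cat, sm_append, sm_map, LinearMap.comp_apply, w h0 h1, w h1 h2, w h2 h3,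
    w h3 h0]
  congr 1
  · refine sm_congr fun p0 q0 => ?_
    rw [sm_zero (l := l3.U), add_zero]
    · refine sm_congr fun p3 q3 => ?_
      rw [sm_zero (l := l2.U), add_zero]
      · refine sm_congr fun p2 q2 => ?_
        rw [sm_zero (l := l1.U), add_zero]
        intro p1 _
        simp [v h0 h1 p0 q0]
      · intro p2 _
        rw [sm_zero (l := l1.U), sm_zero, add_zero]
        · intro p1 q1
          simp [v h1 h2 p1 q1]
        · intro p1 _
          simp [v h0 h1 p0 q0]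
    · intro p3 _
      rw [sm_zero (l := l2.U), sm_zero, add_zero]
      · intro p2 q2
        simp [v h2 h3 p2 q2, sm]
      · intro p2 _
        rw [sm_zero (l := l1.U), sm_zero, add_zero]
        · intro p1 q1
          simp [v h1 h2 p1 q1]
        · intro p1 _
          simp [v h0 h1 p0 q0]
  · refine sm_congr fun p0 _ => ?_
    rw [sm_zero (l := u3.U), zero_add]
    · refine sm_congr fun p3 _ => ?_
      rw [sm_zero (l := u2.U), zero_add]
      · refine sm_congr fun p2 _ => ?_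
        rw [sm_zero (l := u1.U), zero_add]
        intro p1 q1
        simp [v h1 h2 p1 q1]
      · intro p2 q2
        simp [v h2 h3 p2 q2, sm]
    · intro p3 q3
      simp [v h3 h0 p3 q3, sm]

theorem D_flat {D : A →+ B} (hD : ∀ x y, D (x * y) = π x * D y + π y * D x) {f : X ⟶ Y}
    {t : Tri X Y} (h : OK f t) : ∀ p ∈ t.U, ∀ q ∈ t.U, D (p.1 q.2) = 0 := by
  intro p hp q hq
  rcases h.flat p hp q hq with e | e <;> rw [e]
  · exact map_zero D
  · simpa using hD 1 1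

theorem om_deg1 (ha : ∀ x y, Da (x * y) = π x * Da y + π y * Da x) {f : X ⟶ Y} {t : Tri X Y}
    (h : OK f t) (t2 t3 : Tri X Y) : om π Da Db Dc t t t2 t3 = 0 :=
  sm_zero fun p0 q0 => sm_zero fun _ _ => sm_zero fun _ _ => sm_zero fun p1 q1 => by
    simp [D_flat ha h p0 q0 p1 q1]

theorem om_deg2 (hb : ∀ x y, Db (x * y) = π x * Db y + π y * Db x) {f : X ⟶ Y} {t : Tri X Y}
    (h : OK f t) (t0 t3 : Tri X Y) : om π Da Db Dc t0 t t t3 = 0 :=
  sm_zero fun _ _ => sm_zero fun _ _ => sm_zero fun p2 q2 => sm_zero fun p1 q1 => by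
    simp [D_flat hb h p1 q1 p2 q2]

theorem om_deg3 (hc : ∀ x y, Dc (x * y) = π x * Dc y + π y * Dc x) {f : X ⟶ Y} {t : Tri X Y}
    (h : OK f t) (t0 t1 : Tri X Y) : om π Da Db Dc t0 t1 t t = 0 :=
  sm_zero fun _ _ => sm_zero fun p3 q3 => sm_zero fun p2 q2 => sm_zero fun _ _ => by
    simp [D_flat hc h p2 q2 p3 q3]

theorem om_zero {f : X ⟶ Y} (hf : ∀ y, ∃ x, (x, y) ∈ f.1) {t : Tri X Y} (h : OK f t)
    (t1 t2 t3 : Tri X Y) : om π Da Db Dc t t1 t2 t3 = 0 :=
  sm_zero fun p0 q0 => sm_zero fun _ _ => sm_zero fun _ _ => sm_zero fun p1 _ => by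
    obtain ⟨x, hx⟩ := hf p1.2
    simp [h.van p0 q0 _ _ hx]

end Omega

end Vale.Agent.P178
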