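import Mathlib

/-! P178: cochains on lists of vertices, cube sums, grid sums and Stokes' formula. -/

namespace Vale.Agent.P178

open Function

universe u v w

variable {V : Type u} {D : Type v} {M : Type w} [AddCommGroup M]

/-- simplicial coboundary -/
def dl : (List V → M) → List V → M
  | _, [] => 0
  | c, v :: l => c l - dl (fun m => c (v :: m)) l

/-- alternating sum over the removal of one entry -/
def alt : (D → List D → M) → List D → M
  | _, [] => 0
  | f, d :: ds => f d ds - alt (fun d' l => f d' (d :: l)) ds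

/-- value of a cochain on the fundamental chain of a cube -/
def cs (e : D → V → V) : ℕ → (List V → M) → V → List D → M
  | 0, a, v, _ => a [v]
  | n + 1, a, v, ds => alt (fun d l => cs e n (fun m => a (v :: m)) (e d v) l) ds

/-- the even one among `m`, `m + 1` -/
def ev (m : ℕ) : ℕ := if Even m then m else m + 1

/-- the odd one among `m`, `m + 1` -/
def od (m : ℕ) : ℕ := if Even m then m + 1 else m

/-- grid sum over `[0,K]ⁿ` -/
def GS (n K : ℕ) (a : List (Fin n → ℕ) → M) : M :=
  ∑ q : Fin n → Fin K, (∏ d, (-1 : ℤ) ^ (q d : ℕ)) •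
    cs (fun d v => update v d (od (q d))) n a (fun d => ev (q d)) (List.finRange n)

/-- `v` is a objPt of the unit cube at `q` -/
def InCube {n : ℕ} (q v : Fin n → ℕ) : Prop := ∀ d, v d = q d ∨ v d = q d + 1

/-- `l` is a maximal chain in the unit cube at `q` -/
def CubeChain {n : ℕ} (q : Fin n → ℕ) (l : List (Fin n → ℕ)) : Prop :=
  l.length = n + 1 ∧ (∀ v ∈ l, InCube q v) ∧
    l.IsChain fun v w => ∃ d, w = update v d (od (q d))

theorem Grid_alt_map {M' : Type*} [AddCommGroup M'] (φ : M →+ M') (f : D → List D → M)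
    (ds : List D) : alt (fun d l => φ (f d l)) ds = φ (alt f ds) := by
  induction ds generalizing f with
  | nil => simp [alt]
  | cons x xs ih => rw [alt, alt, ih fun d l => f d (x :: l), map_sub]

theorem Grid_alt_sub (f g : D → List D → M) (ds : List D) :
    alt (fun d l => f d l - g d l) ds = alt f ds - alt g ds := by
  induction ds generalizing f g with
  | nil => simp [alt]
  | cons x xs ih =>
    rw [alt, alt, alt, ih (fun d l => f d (x :: l)) fun d l => g d (x :: l)]
    abel

theorem Grid_alt_zero (ds : List D) : alt (fun _ _ => (0 : M)) ds = 0 := by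
  induction ds with
  | nil => rfl
  | cons x xs ih => rw [alt, ih, sub_zero]

theorem Grid_alt_alt (G G' : D → D → List D → M) (h : ∀ d d' l, G' d d' l = G d' d l)
    (ds : List D) :
    alt (fun d l => alt (G d) l) ds + alt (fun d l => alt (G' d) l) ds = 0 := by
  induction ds generalizing G G' with
  | nil => simp [alt]
  | cons x xs ih =>
    have e := ih (fun d d' l => G d d' (x :: l)) (fun d d' l => G' d d' (x :: l))
      fun d d' l => h d d' _
    have e1 : G' x = fun d l => G d x l := funext fun d => funext fun l => h x d l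
    have e2 : (fun d l => G' d x l) = G x := funext fun d => funext fun l => h d x l
    simp only [alt, Grid_alt_sub, e1, e2]
    rw [← e]
    abel

theorem Grid_alt_symm (G : D → D → List D → M) (h : ∀ d d' l, G d d' l = G d' d l)
    (ds : List D) : alt (fun d l => alt (G d) l) ds = 0 := by
  induction ds generalizing G with
  | nil => simp [alt]
  | cons x xs ih =>
    have e := ih (fun d d' l => G d d' (x :: l)) fun d d' l => h d d' _
    have e1 : (fun d l => G d x l) = G x := funext fun d => funext fun l => h d x l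
    simp only [alt, Grid_alt_sub, e1, e]
    abel

theorem Grid_alt_list_map {D' : Type*} (ps : D' → D) (f : D → List D → M) (ds : List D') :
    alt f (ds.map ps) = alt (fun d l => f (ps d) (l.map ps)) ds := by
  induction ds generalizing f with
  | nil => rfl
  | cons x xs ih => rw [List.map_cons, alt, alt, ih]; rfl

theorem Grid_alt_finRange (n : ℕ) (f : Fin (n + 1) → List (Fin (n + 1)) → M) :
    alt f (List.finRange (n + 1)) =
      ∑ i : Fin (n + 1), (-1 : ℤ) ^ (i : ℕ) • f i ((List.finRange n).map i.succAbove) := by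
  induction n with
  | zero => simp [List.finRange_succ, alt]
  | succ n ih =>
    rw [List.finRange_succ, alt, Grid_alt_list_map, ih, Fin.sum_univ_succ (n := n + 1),
      sub_eq_add_neg, ← Finset.sum_neg_distrib]
    congr 1
    · simp
    · refine Finset.sum_congr rfl fun i _ => ?_
      rw [Fin.val_succ, pow_succ, mul_neg_one, neg_smul, List.finRange_succ (n := n),
        List.map_cons, Fin.succ_succAbove_zero, List.map_map, List.map_map]
      congr 4
      exact congrArg (List.map · _) (funext fun j => (Fin.succ_succAbove_succ i j).symm)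

theorem Grid_cs_map {M' : Type*} [AddCommGroup M'] (φ : M →+ M') (e : D → V → V) (n : ℕ)
    (a : List V → M) (v : V) (ds : List D) :
    cs e n (fun l => φ (a l)) v ds = φ (cs e n a v ds) := by
  induction n generalizing a v ds with
  | zero => rfl
  | succ n ih =>
    rw [cs, cs, ← Grid_alt_map]
    exact congrArg (alt · ds) (funext fun d => funext fun l => ih (fun m => a (v :: m)) _ l)

theorem Grid_cs_sub (e : D → V → V) (n : ℕ) (a b : List V → M) (v : V) (ds : List D) :
    cs e n (fun l => a l - b l) v ds = cs e n a v ds - cs e n b v ds := by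
  induction n generalizing a b v ds with
  | zero => rfl
  | succ n ih =>
    rw [cs, cs, cs, ← Grid_alt_sub]
    exact congrArg (alt · ds)
      (funext fun d => funext fun l => ih (fun m => a (v :: m)) (fun m => b (v :: m)) _ l)

theorem Grid_cs_aux (e : D → V → V) (he : ∀ d d' v, e d (e d' v) = e d' (e d v)) (n : ℕ)
    (a : List V → M) (v : V) (ds : List D) :
    alt (fun d l => cs e n (dl fun m => a (v :: m)) (e d v) l) ds =
      alt (fun _ l => cs e n a v l) ds := by
  induction n generalizing a v ds with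
  | zero => simp [cs, dl]
  | succ n ih =>
    have h1 : ∀ (b : List V → M) w l, cs e (n + 1) (dl b) w l =
        alt (fun d m => cs e n b (e d w) m) l - alt (fun _ m => cs e n b w m) l := by
      intro b w l
      rw [← ih, ← Grid_alt_sub, cs]
      exact congrArg (alt · l) (funext fun d => funext fun m =>
        Grid_cs_sub e n b (dl fun m => b (w :: m)) _ m)
    simp only [h1, Grid_alt_sub]
    rw [Grid_alt_symm (fun d d' m => cs e n (fun m => a (v :: m)) (e d' (e d v)) m)
      (fun d d' m => by rw [he]), zero_sub, neg_eq_iff_add_eq_zero]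
    exact Grid_alt_alt (fun d _ m => cs e n (fun m => a (v :: m)) (e d v) m)
      (fun _ d m => cs e n (fun m => a (v :: m)) (e d v) m) (fun _ _ _ => rfl) ds

theorem Grid_cs_stokes (e : D → V → V) (he : ∀ d d' v, e d (e d' v) = e d' (e d v)) (n : ℕ)
    (a : List V → M) (v : V) (ds : List D) : cs e (n + 1) (dl a) v ds =
      alt (fun d l => cs e n a (e d v) l - cs e n a v l) ds := by
  rw [Grid_alt_sub, ← Grid_cs_aux e he, ← Grid_alt_sub, cs]
  exact congrArg (alt · ds) (funext fun d => funext fun m =>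
    Grid_cs_sub e n a (dl fun m => a (v :: m)) _ m)

theorem Grid_cs_nat {V' D' : Type*} (e : D' → V' → V') (e' : D → V → V) (ph : V' → V)
    (ps : D' → D) (h : ∀ d v, ph (e d v) = e' (ps d) (ph v)) (n : ℕ) (a : List V → M) (v : V')
    (ds : List D') :
    cs e' n a (ph v) (ds.map ps) = cs e n (fun l => a (l.map ph)) v ds := by
  induction n generalizing a v ds with
  | zero => rfl
  | succ n ih =>
    rw [cs, cs, Grid_alt_list_map]
    refine congrArg (alt · ds) (funext fun d => funext fun l => ?_)
    rw [← h, ih]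
    rfl

theorem Grid_cs_congr (e : D → V → V) (P : V → Prop) (hP : ∀ d v, P v → P (e d v)) (n : ℕ)
    (a a' : List V → M) (v : V) (hv : P v) (ds : List D)
    (h : ∀ l : List V, l.length = n → (∀ w ∈ l, P w) →
      (v :: l).IsChain (fun v w => ∃ d, w = e d v) → a (v :: l) = a' (v :: l)) :
    cs e n a v ds = cs e n a' v ds := by
  induction n generalizing a a' v ds with
  | zero => exact h [] rfl (by simp) (by simp)
  | succ n ih =>
    rw [cs, cs]
    refine congrArg (alt · ds) (funext fun d => funext fun l =>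
      ih _ _ _ (hP d v hv) l fun m h1 h2 h3 => h (e d v :: m) (by simp [h1]) ?_ ?_)
    · intro w hw
      rcases List.mem_cons.1 hw with rfl | hw
      exacts [hP d v hv, h2 w hw]
    · exact List.isChain_cons_cons.2 ⟨⟨d, rfl⟩, h3⟩

theorem Grid_ev (m : ℕ) : ev m = m ∨ ev m = m + 1 := by
  unfold ev; split_ifs <;> simp

theorem Grid_od (m : ℕ) : od m = m ∨ od m = m + 1 := by
  unfold od; split_ifs <;> simp

theorem GS_congr {n K : ℕ} {a a' : List (Fin n → ℕ) → M}
    (h : ∀ q : Fin n → ℕ, (∀ d, q d < K) → ∀ l, CubeChain q l → a l = a' l) :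
    GS n K a = GS n K a' := by
  refine Finset.sum_congr rfl fun q _ => congrArg _ ?_
  have hv : InCube (fun d => (q d : ℕ)) fun d => ev (q d) := fun d => Grid_ev _
  refine Grid_cs_congr _ (InCube fun d => (q d : ℕ)) (fun d v hv k => ?_) n a a' _ hv _
    fun l h1 h2 h3 => h _ (fun d => (q d).2) _ ⟨by simp [h1], fun w hw => ?_, h3⟩
  · by_cases hk : k = d
    · subst hk
      rw [update_self]
      exact Grid_od _
    · rw [update_of_ne hk]
      exact hv k
  · rcases List.mem_cons.1 hw with rfl | hw
    exacts [hv, h2 w hw]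

theorem Grid_GS_map {M' : Type*} [AddCommGroup M'] (φ : M →+ M') (n K : ℕ)
    (a : List (Fin n → ℕ) → M) : GS n K (fun l => φ (a l)) = φ (GS n K a) := by
  simp only [GS, map_sum, map_zsmul, Grid_cs_map]

theorem Grid_GS_sub (n K : ℕ) (a b : List (Fin n → ℕ) → M) :
    GS n K (fun l => a l - b l) = GS n K a - GS n K b := by
  simp only [GS, Grid_cs_sub, smul_sub, Finset.sum_sub_distrib]

theorem GS_zero (n K : ℕ) : GS n K (fun _ => (0 : M)) = 0 :=
  Grid_GS_map (0 : M →+ M) n K fun _ => 0

theorem Grid_tele (T : ℕ → M) (K : ℕ) :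
    ∑ m : Fin K, (-1 : ℤ) ^ (m : ℕ) • (T (od m) - T (ev m)) = T K - T 0 := by
  rw [Fin.sum_univ_eq_sum_range (fun m => (-1 : ℤ) ^ m • (T (od m) - T (ev m))) K,
    ← Finset.sum_range_sub]
  refine Finset.sum_congr rfl fun m _ => ?_
  unfold od ev
  by_cases h : Even m
  · simp [h]
  · simp [h, (Nat.not_even_iff_odd.1 h).neg_one_pow]

theorem GS_stokes (n K : ℕ) (a : List (Fin (n + 1) → ℕ) → M) :
    GS (n + 1) K (dl a) = ∑ i : Fin (n + 1), (-1 : ℤ) ^ (i : ℕ) •
      (GS n K (fun l => a (l.map (Fin.insertNth (α := fun _ => ℕ) i K))) -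
        GS n K (fun l => a (l.map (Fin.insertNth (α := fun _ => ℕ) i 0)))) := by
  have he : ∀ (q : Fin (n + 1) → Fin K) d d' (v : Fin (n + 1) → ℕ),
      update (update v d' (od (q d'))) d (od (q d)) =
        update (update v d (od (q d))) d' (od (q d')) := fun q d d' v => by
    by_cases h : d = d'
    · rw [h]
    · exact update_comm (Ne.symm h) _ _ _
  have hs := fun q : Fin (n + 1) → Fin K =>
    Grid_cs_stokes (fun d v => update v d (od (q d))) (he q) n a
  rw [GS]
  simp only [hs, Grid_alt_finRange, Finset.smul_sum]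
  rw [Finset.sum_comm]
  refine Finset.sum_congr rfl fun i _ => ?_
  simp only [smul_comm _ ((-1 : ℤ) ^ (i : ℕ))]
  rw [← Finset.smul_sum]
  refine congrArg _ ?_
  rw [← (Fin.insertNthEquiv (fun _ => Fin K) i).sum_comp, Fintype.sum_prod_type_right, GS, GS,
    ← Finset.sum_sub_distrib]
  refine Finset.sum_congr rfl fun q _ => ?_
  rw [← smul_sub, ← Grid_tele (fun c => cs (fun d v => update v d (od (q d))) n
    (fun l => a (l.map (Fin.insertNth (α := fun _ => ℕ) i c))) (fun d => ev (q d))
    (List.finRange n)) K, Finset.smul_sum]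
  refine Finset.sum_congr rfl fun m _ => ?_
  have e1 : (fun d => ev ((Fin.insertNthEquiv (fun _ => Fin K) i) (m, q) d)) =
      Fin.insertNth (α := fun _ => ℕ) i (ev m) fun d => ev (q d) := by
    refine (Fin.insertNth_eq_iff.2 ⟨?_, funext fun d => ?_⟩).symm
    · simp
    · simp [Fin.removeNth]
  have e2 : ∀ c, cs (fun d v => update v d (od ((Fin.insertNthEquiv (fun _ => Fin K) i) (m, q) d)))
      n a (Fin.insertNth (α := fun _ => ℕ) i c fun d => ev (q d))
      ((List.finRange n).map i.succAbove) = cs (fun d v => update v d (od (q d))) n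
        (fun l => a (l.map (Fin.insertNth (α := fun _ => ℕ) i c))) (fun d => ev (q d))
        (List.finRange n) := fun c =>
    Grid_cs_nat _ _ _ _ (fun d v => by simp) n a _ _
  rw [e1, Fin.update_insertNth, e2, e2, Fin.prod_univ_succAbove _ i, smul_smul, mul_comm]
  simp

/-- cup product of four coboundaries -/
def cup4 {B : Type w} [CommRing B] (f : Fin 4 → V → B) : List V → B
  | [v0, v1, v2, v3, v4] =>
    (f 0 v1 - f 0 v0) * (f 1 v2 - f 1 v1) * (f 2 v3 - f 2 v2) * (f 3 v4 - f 3 v3)
  | _ => 0

/-- cup product of coboundaries -/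
def Grid_cup {B : Type w} [CommRing B] : (m : ℕ) → (Fin m → V → B) → List V → B
  | 0, _, _ => 1
  | m + 1, f, v :: w :: l => (f 0 w - f 0 v) * Grid_cup m (fun k => f k.succ) (w :: l)
  | _ + 1, _, [] => 0
  | _ + 1, _, [_] => 0

/-- value at the first vertex -/
def Grid_hd {B : Type w} [CommRing B] (g : V → B) : List V → B
  | [] => 0
  | v :: _ => g v

theorem Grid_dl_cup {B : Type w} [CommRing B] (m : ℕ) (f : Fin (m + 1) → V → B) (l : List V)
    (hl : l.length = m + 2) :
    dl (fun l => Grid_hd (f 0) l * Grid_cup m (fun k => f k.succ) l) l = Grid_cup (m + 1) f l := by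
  have key : ∀ (m : ℕ) (c : B) (v w : V) (g : Fin m → V → B) (l : List V), l.length = m →
      dl (fun l => c * Grid_cup m g (v :: l)) (w :: l) = c * Grid_cup m g (w :: l) := by
    intro m
    induction m with
    | zero =>
      intro c v w g l hl
      rw [List.length_eq_zero_iff.1 hl]
      simp [dl, Grid_cup]
    | succ m ih =>
      intro c v w g l hl
      obtain ⟨x, l, rfl⟩ := List.exists_cons_of_length_eq_add_one hl
      have e := ih (c * (g 0 w - g 0 v)) w x (fun k => g k.succ) l (by simpa using hl)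
      rw [dl]
      simp only [Grid_cup, ← mul_assoc]
      rw [e]
      ring
  match l, hl with
  | v :: w :: l, hl =>
    rw [dl]
    simp only [Grid_hd, Grid_cup]
    rw [key m _ v w _ l (by simpa using hl)]
    ring

theorem Grid_cup_map {B : Type w} [CommRing B] {V' : Type*} (ph ph' : V' → V) (P : V' → Prop)
    (m : ℕ) (f : Fin m → V → B) (c : Fin m → B) (h : ∀ k v, P v → f k (ph v) = f k (ph' v) + c k)
    (l : List V') (hl : ∀ v ∈ l, P v) :
    Grid_cup m f (l.map ph) = Grid_cup m (fun k v => f k (ph' v)) l := by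
  induction m generalizing l with
  | zero => rfl
  | succ m ih =>
    match l, hl with
    | [], _ => rfl
    | [_], _ => rfl
    | v :: w :: l, hl =>
      have e := ih (fun k => f k.succ) (fun k => c k.succ) (fun k => h k.succ) (w :: l)
        fun x hx => hl x (List.mem_cons_of_mem _ hx)
      simp only [List.map_cons] at e ⊢
      simp only [Grid_cup]
      rw [e, h 0 v (hl v (by simp)), h 0 w (hl w (by simp))]
      ring

theorem Grid_le {n K : ℕ} {q v : Fin n → ℕ} (hq : ∀ d, q d < K) (hv : InCube q v) (e : Fin n) :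
    v e ≤ K := by
  have := hq e
  rcases hv e with h | h <;> omega

theorem Grid_ins_le {n K : ℕ} (i : Fin (n + 1)) {v : Fin n → ℕ} (hv : ∀ e, v e ≤ K) (e) :
    Fin.insertNth (α := fun _ => ℕ) i 0 v e ≤ K := by
  refine Fin.succAboveCases i ?_ (fun j => ?_) e
  · simp
  · simpa using hv j

theorem Grid_step {B : Type w} [CommRing B] (n K : ℕ) (f : Fin (n + 1) → (Fin (n + 1) → ℕ) → B)
    (ℓ : Fin (n + 1) → B) (hp : ∀ k d, d ≠ 0 → ∀ v, (∀ e, v e ≤ K) →
      f k (update v d K) = f k (update v d 0) + if k = d then ℓ k else 0) :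
    GS (n + 1) K (Grid_cup (n + 1) f) =
      GS n K (fun l => Grid_hd (f 0) (l.map (Fin.insertNth (α := fun _ => ℕ) 0 K)) *
        Grid_cup n (fun k => f k.succ) (l.map (Fin.insertNth (α := fun _ => ℕ) 0 K))) -
      GS n K (fun l => Grid_hd (f 0) (l.map (Fin.insertNth (α := fun _ => ℕ) 0 0)) *
        Grid_cup n (fun k => f k.succ) (l.map (Fin.insertNth (α := fun _ => ℕ) 0 0))) := by
  rw [← GS_congr fun q _ l hl => Grid_dl_cup n f l hl.1, GS_stokes, Fin.sum_univ_succ,
    Finset.sum_eq_zero fun i _ => ?_]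
  · simp
  have hp' : ∀ k v, (∀ e, v e ≤ K) → f k (Fin.insertNth (α := fun _ => ℕ) i.succ K v) =
      f k (Fin.insertNth (α := fun _ => ℕ) i.succ 0 v) + if k = i.succ then ℓ k else 0 :=
    fun k v hv => by
      have := hp k i.succ i.succ_ne_zero _ (Grid_ins_le i.succ hv)
      rwa [Fin.update_insertNth, Fin.update_insertNth] at this
  rw [GS_congr (a' := fun l => Grid_hd (f 0) (l.map (Fin.insertNth (α := fun _ => ℕ) i.succ 0)) *
    Grid_cup n (fun k => f k.succ) (l.map (Fin.insertNth (α := fun _ => ℕ) i.succ 0)))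
    fun q hq l hl => ?_, sub_self, smul_zero]
  have hl' : ∀ v ∈ l, ∀ e, v e ≤ K := fun v hv => Grid_le hq (hl.2.1 v hv)
  rw [Grid_cup_map _ _ (fun v => ∀ e, v e ≤ K) n (fun k => f k.succ) _ (fun k => hp' k.succ) l hl',
    Grid_cup_map _ _ (fun v => ∀ e, v e ≤ K) n (fun k => f k.succ) 0
      (fun k v _ => (add_zero _).symm) l hl']
  congr 1
  match l, hl' with
  | [], _ => rfl
  | v :: l, hl' =>
    have := hp' 0 v (hl' v (by simp))
    rw [if_neg (Fin.succ_ne_zero i).symm, add_zero] at this
    exact this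

theorem Grid_face {B : Type w} [CommRing B] {n K : ℕ} (f : Fin (n + 1) → (Fin (n + 1) → ℕ) → B)
    (ℓ : Fin (n + 1) → B) (hp : ∀ k d, d ≠ 0 → ∀ v, (∀ e, v e ≤ K) →
      f k (update v d K) = f k (update v d 0) + if k = d then ℓ k else 0) {c : ℕ} (hc : c ≤ K)
    (k d : Fin n) (v : Fin n → ℕ) (hv : ∀ e, v e ≤ K) :
    f k.succ (Fin.insertNth (α := fun _ => ℕ) 0 c (update v d K)) =
      f k.succ (Fin.insertNth (α := fun _ => ℕ) 0 c (update v d 0)) +
        if k = d then ℓ k.succ else 0 := by
  rw [Fin.insertNth_update, Fin.insertNth_update, hp _ _ (by simp) _ fun e => ?_]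
  · simp
  · refine Fin.succAboveCases 0 ?_ (fun j => ?_) e
    · simpa using hc
    · simpa using hv j

theorem Grid_torus {B : Type w} [CommRing B] (n K : ℕ) (f : Fin n → (Fin n → ℕ) → B)
    (ℓ : Fin n → B) (hp : ∀ k d v, (∀ e, v e ≤ K) →
      f k (update v d K) = f k (update v d 0) + if k = d then ℓ k else 0) :
    GS n K (Grid_cup n f) = ∏ k, ℓ k := by
  induction n with
  | zero => simp [GS, cs, Grid_cup]
  | succ n ih =>
    have hp' : ∀ k v, (∀ e, v e ≤ K) → f k (Fin.insertNth (α := fun _ => ℕ) 0 K v) =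
        f k (Fin.insertNth (α := fun _ => ℕ) 0 0 v) + if k = 0 then ℓ k else 0 :=
      fun k v hv => by
        have := hp k 0 _ (Grid_ins_le 0 hv)
        rwa [Fin.update_insertNth, Fin.update_insertNth] at this
    rw [Grid_step n K f ℓ fun k d _ => hp k d, ← Grid_GS_sub, Fin.prod_univ_succ,
      ← ih (fun k v => f k.succ (Fin.insertNth (α := fun _ => ℕ) 0 0 v)) (fun k => ℓ k.succ)
        (Grid_face f ℓ (fun k d _ => hp k d) K.zero_le)]
    refine Eq.trans (GS_congr fun q hq l hl => ?_) (Grid_GS_map (AddMonoidHom.mulLeft (ℓ 0)) n K _)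
    have hl' : ∀ v ∈ l, ∀ e, v e ≤ K := fun v hv => Grid_le hq (hl.2.1 v hv)
    rw [Grid_cup_map _ _ (fun v => ∀ e, v e ≤ K) n (fun k => f k.succ) _
      (fun k => hp' k.succ) l hl', Grid_cup_map _ _ (fun v => ∀ e, v e ≤ K) n (fun k => f k.succ) 0
        (fun k v _ => (add_zero _).symm) l hl', ← sub_mul, AddMonoidHom.coe_mulLeft]
    congr 1
    match l, hl', hl.1 with
    | v :: l, hl', _ =>
      have := hp' 0 v (hl' v (by simp))
      rw [if_pos rfl] at this
      exact sub_eq_of_eq_add' this

theorem GS_cup4 {B : Type w} [CommRing B] (K : ℕ) (f : Fin 4 → (Fin 4 → ℕ) → B) (ℓ : Fin 4 → B)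
    (h0 : ∀ v, (∀ e, v e ≤ K) → f 0 (update v 0 0) = 0)
    (h1 : ∀ v, (∀ e, v e ≤ K) → f 0 (update v 0 K) = 1)
    (hp : ∀ k d, d ≠ 0 → ∀ v, (∀ e, v e ≤ K) →
      f k (update v d K) = f k (update v d 0) + if k = d then ℓ k else 0) :
    GS 4 K (cup4 f) = ℓ 1 * ℓ 2 * ℓ 3 := by
  have e : GS 4 K (cup4 f) = GS 4 K (Grid_cup 4 f) := GS_congr fun q _ l hl => by
    match l, hl.1 with
    | [v0, v1, v2, v3, v4], _ =>
      simp only [cup4, Grid_cup]
      rw [mul_one, ← mul_assoc, ← mul_assoc]
      rfl
  have t := Grid_torus 3 K (fun k v => f k.succ (Fin.insertNth (α := fun _ => ℕ) 0 K v))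
    (fun k => ℓ k.succ) (Grid_face f ℓ hp le_rfl)
  rw [Fin.prod_univ_three] at t
  rw [e, Grid_step 3 K f ℓ hp, ← Grid_GS_sub]
  refine Eq.trans (GS_congr fun q hq l hl => ?_) t
  have hl' : ∀ v ∈ l, ∀ e, v e ≤ K := fun v hv => Grid_le hq (hl.2.1 v hv)
  rw [Grid_cup_map _ _ (fun v => ∀ e, v e ≤ K) 3 (fun k => f k.succ) 0
    (fun k v _ => (add_zero _).symm) l hl']
  match l, hl', hl.1 with
  | v :: l, hl', _ =>
    have a0 := h0 _ (Grid_ins_le 0 (hl' v (by simp)))
    have a1 := h1 _ (Grid_ins_le 0 (hl' v (by simp)))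
    rw [Fin.update_insertNth] at a0 a1
    simp only [List.map_cons, Grid_hd]
    rw [a0, a1, one_mul, zero_mul, sub_zero]

end Vale.Agent.P178
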