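import Vale.Agent.P178.Maj
import Vale.Agent.P178.Grid

/-! P178: labelings of a fine grid subordinate to the voting cover. -/

namespace Vale.Agent.P178

open CategoryTheory Filter Topology unitInterval Function

universe v u

variable {C : Type u} [Category.{v} C] {n : ℕ}

/-- position of a grid vertex -/
noncomputable def pos (N : ℕ) (v : Fin n → ℕ) : Fin n → I := fun d => cl ((v d : ℝ) / (2 * N))

/-- the small cube at `q` -/
def InBox (N : ℕ) (q : Fin n → ℕ) (x : Fin n → I) : Prop :=
  ∀ d, (q d : ℝ) / (2 * N) ≤ x d ∧ (x d : ℝ) ≤ ((q d : ℝ) + 1) / (2 * N)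

/-- valid labelings -/
structure Valid (F : (Fin n → I) → SF C) (N : ℕ) (L : (Fin n → ℕ) → ℕ) : Prop where
  mem : ∀ q : Fin n → ℕ, (∀ d, q d < 2 * N) → ∀ v, InCube q v → ∀ x, InBox N q x →
    F x ∈ UU C (L v)
  mono : ∀ q : Fin n → ℕ, (∀ d, q d < 2 * N) → ∀ v, InCube q v → ∀ d,
    L v ≤ L (update v d (od (q d)))

/-- labelings periodic in the directions of `S` -/
def PerL (S : Finset (Fin n)) (N : ℕ) (L : (Fin n → ℕ) → ℕ) : Prop :=
  ∀ d ∈ S, ∀ v : Fin n → ℕ, (∀ e, v e ≤ 2 * N) → L (update v d 0) = L (update v d (2 * N))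

theorem Lab_cl_coe (t : I) : cl (t : ℝ) = t := Set.projIcc_val _ t

theorem Lab_ext {Y : Type*} [TopologicalSpace Y] (F : (Fin n → I) → Y) (hF : Continuous F)
    (S : Finset (Fin n)) (hp : ∀ d ∈ S, ∀ x, F (update x d 0) = F (update x d 1))
    (T : Finset (Fin n)) (hT : T ⊆ S) : ∃ G : (Fin n → ℝ) → Y, Continuous G ∧
      (∀ x : Fin n → I, G (fun d => x d) = F x) ∧ (∀ x, ∃ y, G x = F y) ∧
      (∀ d ∈ S, ∀ x, G (update x d 0) = G (update x d 1)) ∧
      ∀ d ∈ T, ∀ x, G (update x d (x d + 1)) = G x := by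
  induction T using Finset.induction_on with
  | empty =>
    refine ⟨fun x => F fun d => cl (x d),
      hF.comp (continuous_pi fun d => continuous_cl.comp (continuous_apply d)),
      fun x => by simp only [Lab_cl_coe], fun x => ⟨_, rfl⟩, fun d hd x => ?_, by simp⟩
    have e : ∀ t : I, (fun k => cl (update x d (t : ℝ) k)) = update (fun k => cl (x k)) d t :=
      fun t => funext fun k => by rw [apply_update (fun _ => cl), Lab_cl_coe]
    exact (congrArg F (e 0)).trans ((hp d hd _).trans (congrArg F (e 1)).symm)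
  | insert d T hd ih =>
    obtain ⟨G, h1, h2, h3, h4, h5⟩ := ih ((Finset.subset_insert _ _).trans hT)
    have hdS := hT (Finset.mem_insert_self d T)
    refine ⟨fun x => G (update x d (Int.fract (x d))), ?_, fun x => ?_, fun x => h3 _,
      fun k hk x => ?_, fun k hk x => ?_⟩
    · exact (ContinuousOn.comp_fract' (f := fun (x : Fin n → ℝ) (t : ℝ) => G (update x d t))
        (h1.comp (continuous_fst.update d continuous_snd)).continuousOn (h4 d hdS)).comp
        (continuous_id.prodMk (continuous_apply d))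
    · rw [← h2]
      rcases (x d).2.2.eq_or_lt with e | e
      · simp only [e, Int.fract_one]
        rw [h4 d hdS, ← e, update_eq_self]
      · simp only [Int.fract_eq_self.2 ⟨(x d).2.1, e⟩]
        rw [update_eq_self]
    · by_cases e : k = d
      · subst e
        simp
      · simp only [update_of_ne (Ne.symm e), update_comm e]
        exact h4 k hk _
    · by_cases e : k = d
      · subst e
        simp
      · have := h5 k ((Finset.mem_insert.1 hk).resolve_left e) (update x d (Int.fract (x d)))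
        rw [update_of_ne e] at this
        simp only [update_of_ne (Ne.symm e), update_comm e]
        exact this

theorem Lab_odd_od (m : ℕ) : Odd (od m) := by
  unfold od
  split_ifs with h
  · exact h.add_one
  · exact Nat.not_even_iff_odd.1 h

theorem exists_valid (F : (Fin n → I) → SF C) (hF : Continuous F) (hs : ∀ x, IsStep (F x).fn)
    (S : Finset (Fin n)) (hp : ∀ d ∈ S, ∀ x, F (update x d 0) = F (update x d 1)) :
    ∀ᶠ N in atTop, ∃ L, Valid F N L ∧ PerL S N L := by
  classical
  obtain ⟨G, h1, h2, h3, -, h5⟩ := Lab_ext F hF S hp S subset_rfl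
  obtain ⟨δ, hδ, hl⟩ := lebesgue_number_lemma_of_metric (s := Set.Icc (0 : Fin n → ℝ) 1)
    (c := fun k => G ⁻¹' UU C k) isCompact_Icc (fun k => (isOpen_UU k).preimage h1) fun x _ => by
      obtain ⟨y, hy⟩ := h3 x
      obtain ⟨k, hk⟩ := (hs y).exists_UU
      exact Set.mem_iUnion.2 ⟨k, by rw [Set.mem_preimage, hy]; exact hk⟩
  obtain ⟨N0, hN0⟩ := exists_nat_gt (((n : ℝ) + 1) / (2 * δ))
  filter_upwards [eventually_ge_atTop N0, eventually_gt_atTop 0] with N hN hN'
  have hpos : (0 : ℝ) < 2 * N := by positivity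
  have hlt : ((n : ℝ) + 1) / (2 * N) < δ := by
    have : (N0 : ℝ) ≤ N := by exact_mod_cast hN
    rw [div_lt_iff₀ (by positivity)] at hN0
    rw [div_lt_iff₀ hpos]
    nlinarith
  let c : (Fin n → ℕ) → Fin n → ℝ := fun v d => (v d : ℝ) / (2 * N)
  let o : (Fin n → ℕ) → ℕ := fun v => (Finset.univ.filter fun d => Odd (v d)).card
  let A : (Fin n → ℕ) → Set ℕ := fun v =>
    {k | Metric.closedBall (c v) (((o v : ℝ) + 1) / (2 * N)) ⊆ G ⁻¹' UU C k}
  have hA : ∀ v, (∀ d, v d ≤ 2 * N) → sInf (A v) ∈ A v := fun v hv => by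
    refine Nat.sInf_mem ?_
    obtain ⟨k, hk⟩ := hl (c v) ⟨fun d => by simp only [c, Pi.zero_apply]; positivity, fun d => by
      simp only [c, Pi.one_apply]
      rw [div_le_one hpos]
      exact_mod_cast hv d⟩
    refine ⟨k, (Metric.closedBall_subset_ball (lt_of_le_of_lt ?_ hlt)).trans hk⟩
    have : (o v : ℝ) ≤ n := by
      exact_mod_cast (Finset.card_filter_le _ _).trans_eq (Finset.card_fin n)
    gcongr
  have hle : ∀ {q v : Fin n → ℕ}, (∀ d, q d < 2 * N) → InCube q v → ∀ d, v d ≤ 2 * N :=
    fun hq hv d => by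
      have := hq d
      rcases hv d with h | h <;> omega
  refine ⟨fun v => sInf (A v), ⟨fun q hq v hv x hx => ?_, fun q hq v hv d => ?_⟩,
    fun d hd v hv => congrArg sInf ?_⟩
  · rw [← h2]
    have h0 : (1 : ℝ) / (2 * N) ≤ ((o v : ℝ) + 1) / (2 * N) := by
      gcongr
      linarith [Nat.cast_nonneg (α := ℝ) (o v)]
    refine hA v (hle hq hv) (Metric.mem_closedBall.2 ((dist_pi_le_iff (by positivity)).2
      fun d => le_trans ?_ h0))
    have := hx d
    rw [add_div] at this
    rw [Real.dist_eq, abs_le]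
    rcases hv d with h | h
    · simp only [c, h]
      constructor <;> linarith [this.1, this.2, one_div_pos.2 hpos]
    · simp only [c, h, Nat.cast_succ, add_div]
      constructor <;> linarith [this.1, this.2, one_div_pos.2 hpos]
  · by_cases e : v d = od (q d)
    · rw [← e, update_eq_self]
    have hw : InCube q (update v d (od (q d))) := fun k => by
      by_cases hk : k = d
      · subst hk
        rw [update_self]
        exact Grid_od _
      · rw [update_of_ne hk]
        exact hv k
    have hne : ¬ Odd (v d) := fun h => by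
      have h' := Lab_odd_od (q d)
      rw [Nat.odd_iff] at h h'
      rcases hv d with h1 | h1 <;> rcases Grid_od (q d) with h2 | h2 <;> omega
    have ho : o v + 1 ≤ o (update v d (od (q d))) := by
      refine Finset.card_lt_card ⟨fun k hk => ?_, fun h => hne ?_⟩
      · rw [Finset.mem_filter] at hk ⊢
        refine ⟨hk.1, ?_⟩
        rw [update_of_ne fun h : k = d => hne (h ▸ hk.2)]
        exact hk.2
      · refine (Finset.mem_filter.1 (h (Finset.mem_filter.2 ⟨Finset.mem_univ d, ?_⟩))).2
        rw [update_self]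
        exact Lab_odd_od _
    refine Nat.sInf_le ((Metric.closedBall_subset_closedBall' ?_).trans (hA _ (hle hq hw)))
    have hd : dist (c v) (c (update v d (od (q d)))) ≤ 1 / (2 * N) := by
      refine (dist_pi_le_iff (by positivity)).2 fun k => ?_
      rw [Real.dist_eq]
      simp only [c]
      rw [← sub_div, abs_div, abs_of_pos hpos]
      gcongr
      rw [abs_le]
      rcases hv k with h1 | h1 <;> rcases hw k with h2 | h2 <;> rw [h1, h2] <;> push_cast <;>
        constructor <;> linarith
    have ho' : (o v : ℝ) + 1 ≤ o (update v d (od (q d))) := by exact_mod_cast ho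
    refine (add_le_add_right hd _).trans ?_
    rw [← add_div]
    gcongr
  · have e1 : o (update v d (2 * N)) = o (update v d 0) := by
      refine congrArg Finset.card (Finset.filter_congr fun k _ => ?_)
      by_cases hk : k = d
      · subst hk
        simp
      · rw [update_of_ne hk, update_of_ne hk]
    have e2 : c (update v d (2 * N)) = c (update v d 0) + Pi.single d 1 := funext fun k => by
      by_cases hk : k = d
      · subst hk
        simp only [c, update_self, Pi.add_apply, Pi.single_eq_same]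
        push_cast
        rw [div_self hpos.ne', zero_div, zero_add]
      · simp only [c, update_of_ne hk, Pi.add_apply, Pi.single_eq_of_ne hk, add_zero]
    have e3 : ∀ x, G (x + Pi.single d 1) = G x := fun x => by
      rw [← h5 d hd x]
      refine congrArg G (funext fun k => ?_)
      by_cases hk : k = d
      · subst hk
        simp
      · simp [hk]
    refine Set.ext fun k => ?_
    simp only [A, Set.mem_ofPred_eq, e1, e2]
    constructor
    · intro h x hx
      have := h (a := x - Pi.single d 1) (by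
        rw [Metric.mem_closedBall] at hx ⊢
        rwa [← dist_add_right _ _ (Pi.single d 1), sub_add_cancel])
      rwa [Set.mem_preimage, ← e3, sub_add_cancel] at this
    · intro h x hx
      have := h (a := x + Pi.single d 1) (by
        rw [Metric.mem_closedBall] at hx ⊢
        rwa [dist_add_right])
      rwa [Set.mem_preimage, e3] at this

theorem inBox_pos {N : ℕ} {q v : Fin n → ℕ} (hq : ∀ d, q d < 2 * N) (hv : InCube q v) :
    InBox N q (pos N v) := by
  intro d
  have h1 := hq d
  have hpos : (0 : ℝ) < 2 * N := by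
    have : 0 < N := by omega
    positivity
  have h2 : v d ≤ 2 * N := by rcases hv d with h | h <;> omega
  have h3 : (v d : ℝ) / (2 * N) ∈ I :=
    ⟨by positivity, (div_le_one hpos).2 (by exact_mod_cast h2)⟩
  have h4 : (pos N v d : ℝ) = (v d : ℝ) / (2 * N) := congrArg Subtype.val (Lab_cl_coe ⟨_, h3⟩)
  rw [h4]
  rcases hv d with h | h <;> rw [h] <;> push_cast <;> constructor <;> gcongr <;> linarith

/-- a locally constant function is constant on a small cube -/
theorem eq_of_inBox {α : Type*} {N : ℕ} {q : Fin n → ℕ} (f : (Fin n → I) → α)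
    (hf : ∀ x, InBox N q x → ∀ᶠ y in 𝓝 x, f y = f x) {x y : Fin n → I} (hx : InBox N q x)
    (hy : InBox N q y) : f x = f y := by
  have hc : _root_.IsPreconnected (Set.univ.pi fun d =>
      {t : I | (q d : ℝ) / (2 * N) ≤ t ∧ (t : ℝ) ≤ ((q d : ℝ) + 1) / (2 * N)}) :=
    isPreconnected_univ_pi fun d => Set.OrdConnected.isPreconnected
      ⟨fun _ ha _ hb _ hc => ⟨ha.1.trans hc.1, le_trans hc.2 hb.2⟩⟩
  refine hc.induction₂' (fun x y => f x = f y) (fun z hz => ?_)
    (fun _ _ _ _ _ _ h h' => h.trans h') (fun d _ => hx d) fun d _ => hy d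
  exact ((hf z fun d => hz d (Set.mem_univ d)).filter_mono nhdsWithin_le_nhds).mono
    fun w hw => ⟨hw.symm, hw⟩

theorem inCube_le {K : ℕ} {q v : Fin n → ℕ} (hq : ∀ d, q d < K) (hv : InCube q v) (e : Fin n) :
    v e ≤ K := by
  have := hq e
  rcases hv e with h | h <;> omega

/-- labels increase along a chain -/
theorem Valid.chain {F : (Fin n → I) → SF C} {N : ℕ} {L : (Fin n → ℕ) → ℕ} (h : Valid F N L)
    {q : Fin n → ℕ} (hq : ∀ d, q d < 2 * N) {l : List (Fin n → ℕ)} (hl : CubeChain q l) :
    l.IsChain fun v w => L v ≤ L w := by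
  obtain ⟨-, h1, h2⟩ := hl
  induction h2 with
  | nil => exact List.IsChain.nil
  | singleton a => exact List.IsChain.singleton a
  | cons_cons hr _ ih =>
    obtain ⟨d, rfl⟩ := hr
    exact List.IsChain.cons_cons (h.mono q hq _ (h1 _ (by simp)) d)
      (ih fun v hv => h1 v (List.mem_cons_of_mem _ hv))

theorem pos_insertNth_zero (N : ℕ) (i : Fin (n + 1)) (v : Fin n → ℕ) :
    pos N (Fin.insertNth (α := fun _ => ℕ) i 0 v) =
      Fin.insertNth (α := fun _ => I) i 0 (pos N v) := by
  refine (Fin.insertNth_eq_iff.2 ⟨?_, funext fun d => ?_⟩).symm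
  · simp only [pos, Fin.insertNth_apply_same, Nat.cast_zero, zero_div]
    exact (Lab_cl_coe 0).symm
  · simp [Fin.removeNth, pos]

theorem pos_insertNth_top {N : ℕ} (hN : 0 < N) (i : Fin (n + 1)) (v : Fin n → ℕ) :
    pos N (Fin.insertNth (α := fun _ => ℕ) i (2 * N) v) =
      Fin.insertNth (α := fun _ => I) i 1 (pos N v) := by
  refine (Fin.insertNth_eq_iff.2 ⟨?_, funext fun d => ?_⟩).symm
  · simp only [pos, Fin.insertNth_apply_same]
    push_cast
    rw [div_self (by positivity)]
    exact (Lab_cl_coe 1).symm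
  · simp [Fin.removeNth, pos]

theorem Lab_face {F : (Fin (n + 1) → I) → SF C} {N : ℕ} {L : (Fin (n + 1) → ℕ) → ℕ}
    (h : Valid F N L) (i : Fin (n + 1)) (a b : ℕ) (t : I) (ha : a < 2 * N) (hb : b = a ∨ b = a + 1)
    (ht : (a : ℝ) / (2 * N) ≤ t ∧ (t : ℝ) ≤ ((a : ℝ) + 1) / (2 * N)) :
    Valid (fun x => F (Fin.insertNth (α := fun _ => I) i t x)) N
      (fun v => L (Fin.insertNth (α := fun _ => ℕ) i b v)) := by
  have h1 : ∀ q : Fin n → ℕ, (∀ d, q d < 2 * N) →
      ∀ d, Fin.insertNth (α := fun _ => ℕ) i a q d < 2 * N := fun q hq d => by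
    refine Fin.succAboveCases i ?_ (fun j => ?_) d
    · simpa using ha
    · simpa using hq j
  have h2 : ∀ q v : Fin n → ℕ, InCube q v → InCube (Fin.insertNth (α := fun _ => ℕ) i a q)
      (Fin.insertNth (α := fun _ => ℕ) i b v) := fun q v hv d => by
    refine Fin.succAboveCases i ?_ (fun j => ?_) d
    · simpa using hb
    · simpa using hv j
  refine ⟨fun q hq v hv x hx => h.mem _ (h1 q hq) _ (h2 q v hv) _ fun d => ?_,
    fun q hq v hv d => ?_⟩
  · refine Fin.succAboveCases i ?_ (fun j => ?_) d
    · simpa using ht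
    · simpa using hx j
  · have := h.mono _ (h1 q hq) _ (h2 q v hv) (i.succAbove d)
    rw [Fin.insertNth_apply_succAbove] at this
    rwa [Fin.insertNth_update]

theorem Valid.face_zero {F : (Fin (n + 1) → I) → SF C} {N : ℕ} (hN : 0 < N)
    {L : (Fin (n + 1) → ℕ) → ℕ} (h : Valid F N L) (i : Fin (n + 1)) :
    Valid (fun x => F (Fin.insertNth (α := fun _ => I) i 0 x)) N
      (fun v => L (Fin.insertNth (α := fun _ => ℕ) i 0 v)) :=
  Lab_face h i 0 0 0 (by omega) (Or.inl rfl) ⟨by simp, by simp⟩

theorem Valid.face_top {F : (Fin (n + 1) → I) → SF C} {N : ℕ} (hN : 0 < N)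
    {L : (Fin (n + 1) → ℕ) → ℕ} (h : Valid F N L) (i : Fin (n + 1)) :
    Valid (fun x => F (Fin.insertNth (α := fun _ => I) i 1 x)) N
      (fun v => L (Fin.insertNth (α := fun _ => ℕ) i (2 * N) v)) := by
  have hpos : (0 : ℝ) < 2 * N := by positivity
  have e : ((2 * N - 1 : ℕ) : ℝ) = 2 * N - 1 := by
    rw [Nat.cast_sub (by omega)]
    simp
  refine Lab_face h i (2 * N - 1) (2 * N) 1 (by omega) (Or.inr (by omega)) ⟨?_, ?_⟩
  · rw [e, Set.Icc.coe_one, div_le_one hpos]
    linarith
  · rw [e, Set.Icc.coe_one, sub_add_cancel, div_self hpos.ne']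

end Vale.Agent.P178
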