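import Mathlib

/-! P178: the symbol calculus. -/

namespace Vale.Agent.P178

open Function

universe u v

/-- difference operator -/
def Dl {G : Type u} [Group G] {U : Type} [One U] (i : Fin 3) (f : (Fin 3 → U) → G)
    (a : Fin 3 → U) : G := f a * (f (update a i 1))⁻¹

/-- the reduced trilinear symbol -/
def Tr {G : Type u} [Group G] {U : Type} [One U] (f : (Fin 3 → U) → G) : (Fin 3 → U) → G :=
  Dl 0 (Dl 1 (Dl 2 f))

variable {G : Type u} [Group G] {H : Type v} [Group H]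

theorem map_Tr {U : Type} [One U] (φ : G →* H) (f : (Fin 3 → U) → G) (a : Fin 3 → U) :
    φ (Tr f a) = Tr (fun b => φ (f b)) a := by
  simp [Tr, Dl]

theorem Milnor_Dl_comp {U U' : Type} [One U] [One U'] (g : U → U') (hg : g 1 = 1) (i : Fin 3)
    (f : (Fin 3 → U') → G) :
    Dl i (fun b => f (fun j => g (b j))) = fun a => Dl i f (fun j => g (a j)) := by
  funext a
  have e : (fun j => g (update a i 1 j)) = update (fun j => g (a j)) i 1 := by
    funext j
    by_cases h : j = i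
    · subst h
      rw [update_self, update_self, hg]
    · rw [update_of_ne h, update_of_ne h]
  rw [Dl, Dl, e]

theorem Tr_comp {U U' : Type} [One U] [One U'] (g : U → U') (hg : g 1 = 1)
    (f : (Fin 3 → U') → G) (a : Fin 3 → U) :
    Tr (fun b => f (fun i => g (b i))) a = Tr f (fun i => g (a i)) := by
  rw [Tr, Tr, Milnor_Dl_comp g hg, Milnor_Dl_comp g hg, Milnor_Dl_comp g hg]

theorem Milnor_Dl_upd {U : Type} [One U] (i j : Fin 3) (f : (Fin 3 → U) → G) :
    Dl j (fun b => f (update b i 1)) = fun a => Dl j f (update a i 1) := by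
  funext a
  have e : update (update a j 1) i 1 = update (update a i 1) j 1 := by
    by_cases h : j = i
    · rw [h]
    · exact update_comm h _ _ _
  rw [Dl, Dl, e]

theorem Milnor_Dl_self {U : Type} [One U] (i : Fin 3) (f : (Fin 3 → U) → G) (a : Fin 3 → U)
    (h : a i = 1) : Dl i f a = 1 := by
  rw [Dl, ← h, update_eq_self, mul_inv_cancel]

theorem Milnor_Dl_keep {U : Type} [One U] (i j : Fin 3) (f : (Fin 3 → U) → G)
    (hf : ∀ a, a i = 1 → f a = 1) (a : Fin 3 → U) (h : a i = 1) : Dl j f a = 1 := by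
  have e : update a j 1 i = 1 := by
    by_cases hj : i = j
    · rw [hj, update_self]
    · rw [update_of_ne hj, h]
  rw [Dl, hf a h, hf _ e, mul_inv_cancel]

theorem Milnor_Tr_one {U : Type} [One U] (f : (Fin 3 → U) → G) (i : Fin 3) (a : Fin 3 → U)
    (h : a i = 1) : Tr f a = 1 := by
  fin_cases i
  · exact Milnor_Dl_self 0 _ a h
  · exact Milnor_Dl_keep 1 0 _ (Milnor_Dl_self 1 _) a h
  · exact Milnor_Dl_keep 2 0 _ (Milnor_Dl_keep 2 1 _ (Milnor_Dl_self 2 _)) a h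

theorem Tr_kill {U : Type} [One U] (f : (Fin 3 → U) → G) (i : Fin 3) (a : Fin 3 → U) :
    Tr (fun b => f (update b i 1)) a = 1 := by
  rw [Tr, Milnor_Dl_upd, Milnor_Dl_upd, Milnor_Dl_upd]
  exact Milnor_Tr_one f i _ (update_self _ _ _)

theorem Tr_eval {U : Type} [One U] (f : (Fin 3 → U) → G) (v : Fin 3 → U)
    (h : ∀ a : Fin 3 → U, (∀ d, a d = v d ∨ a d = 1) → (∃ d, a d = 1) → f a = 1) :
    Tr f v = f v := by
  have k : ∀ (a : Fin 3 → U) (i : Fin 3), (∀ d, a d = v d ∨ a d = 1) →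
      ∀ d, update a i 1 d = v d ∨ update a i 1 d = 1 := fun a i ha d => by
    by_cases hd : d = i
    · rw [hd, update_self]
      exact Or.inr rfl
    · rw [update_of_ne hd]
      exact ha d
  have k1 : ∀ (i : Fin 3) (g : (Fin 3 → U) → G),
      (∀ a : Fin 3 → U, (∀ d, a d = v d ∨ a d = 1) → (∃ d, a d = 1) → g a = 1) →
      ∀ a : Fin 3 → U, (∀ d, a d = v d ∨ a d = 1) → Dl i g a = g a := fun i g hg a ha => by
    rw [Dl, hg _ (k a i ha) ⟨i, update_self _ _ _⟩, inv_one, mul_one]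
  have h2 : ∀ a : Fin 3 → U, (∀ d, a d = v d ∨ a d = 1) → (∃ d, a d = 1) → Dl 2 f a = 1 :=
    fun a ha hb => (k1 2 f h a ha).trans (h a ha hb)
  have h1 : ∀ a : Fin 3 → U, (∀ d, a d = v d ∨ a d = 1) → (∃ d, a d = 1) →
      Dl 1 (Dl 2 f) a = 1 := fun a ha hb => (k1 1 _ h2 a ha).trans (h2 a ha hb)
  have hv : ∀ d, v d = v d ∨ v d = 1 := fun d => Or.inl rfl
  rw [Tr, k1 0 _ h1 v hv, k1 1 _ h2 v hv, k1 2 _ h v hv]

/-- the set of admissible shifts -/
def MilnorAdm (F : Type) [Field F] : Set (Fin 3 → Fˣ) :=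
  {c | (∃ p u, c = Pi.mulSingle p u) ∨
    ∃ (p q : Fin 3) (u v : Fˣ), (u : F) + v = 1 ∧ c = Pi.mulSingle p u * Pi.mulSingle q v}

theorem Milnor_upd_single {U : Type} [One U] (p i : Fin 3) (u : U) :
    update (Pi.mulSingle p u : Fin 3 → U) i 1 = Pi.mulSingle p (if p = i then 1 else u) := by
  funext j
  by_cases h : j = i
  · subst h
    rw [update_self]
    by_cases hp : p = j
    · rw [if_pos hp, Pi.mulSingle_one]
      rfl
    · rw [Pi.mulSingle_eq_of_ne (Ne.symm hp)]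
  · rw [update_of_ne h]
    by_cases hp : p = i
    · rw [if_pos hp, Pi.mulSingle_one, Pi.mulSingle_eq_of_ne (hp ▸ h)]
      rfl
    · rw [if_neg hp]

theorem Milnor_upd_mul {U : Type} [Monoid U] (a c : Fin 3 → U) (i : Fin 3) :
    update (a * c) i 1 = update a i 1 * update c i 1 := by
  rw [← Function.update_mul, mul_one]

theorem Milnor_upd_inv {U : Type} [Group U] (c : Fin 3 → U) (i : Fin 3) :
    update c⁻¹ i 1 = (update c i 1)⁻¹ := by
  rw [← Function.update_inv, inv_one]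

theorem Milnor_adm_upd {F : Type} [Field F] {c : Fin 3 → Fˣ} (hc : c ∈ MilnorAdm F) (i : Fin 3) :
    update c i 1 ∈ MilnorAdm F := by
  rcases hc with ⟨p, u, rfl⟩ | ⟨p, q, u, v, h, rfl⟩
  · exact Or.inl ⟨p, _, Milnor_upd_single p i u⟩
  · rw [Milnor_upd_mul, Milnor_upd_single, Milnor_upd_single]
    by_cases hp : p = i
    · rw [if_pos hp, Pi.mulSingle_one, one_mul]
      exact Or.inl ⟨q, _, rfl⟩
    · by_cases hq : q = i
      · rw [if_pos hq, Pi.mulSingle_one, mul_one]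
        exact Or.inl ⟨p, _, rfl⟩
      · rw [if_neg hp, if_neg hq]
        exact Or.inr ⟨p, q, u, v, h, rfl⟩

theorem Milnor_Dl_adm {F : Type} [Field F] {A : Type u} [CommGroup A] (f : (Fin 3 → Fˣ) → A)
    (hf : ∀ c ∈ MilnorAdm F, ∀ a, f (a * c) * f (a * c⁻¹) = f a ^ 2) (i : Fin 3) :
    ∀ c ∈ MilnorAdm F, ∀ a, Dl i f (a * c) * Dl i f (a * c⁻¹) = Dl i f a ^ 2 := by
  intro c hc a
  rw [Dl, Dl, Dl, Milnor_upd_mul, Milnor_upd_mul, Milnor_upd_inv, mul_mul_mul_comm, ← mul_inv,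
    hf c hc, hf _ (Milnor_adm_upd hc i), mul_pow, inv_pow]

theorem Milnor_sq_mul {U : Type} [CommGroup U] {A : Type u} [CommGroup A] (g : U → A)
    (h0 : g 1 = 1) (h : ∀ x u, g (x * u) * g (x * u⁻¹) = g x ^ 2) (x y : U) :
    g (x * y) ^ 2 = g x ^ 2 * g y ^ 2 := by
  have h2 : ∀ u, g (u * u) = g u ^ 2 := fun u => by
    rw [← h u u, mul_inv_cancel, h0, mul_one]
  have e1 : x * y * (x * y⁻¹) = x * x := by
    rw [mul_mul_mul_comm, mul_inv_cancel, mul_one]
  have e2 : x * y * (x * y⁻¹)⁻¹ = y * y := by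
    rw [mul_inv, inv_inv, mul_mul_mul_comm, mul_inv_cancel, one_mul]
  rw [← h (x * y) (x * y⁻¹), e1, e2, h2, h2]

theorem Milnor_diag {F : Type} [Field F] {A : Type u} [CommGroup A] (f : Fˣ → Fˣ → A)
    (h1 : ∀ x x' y, f (x * x') y = f x y * f x' y) (h2 : ∀ x y y', f x (y * y') = f x y * f x y')
    (hs : ∀ u v : Fˣ, (u : F) + v = 1 → f u v = 1) (w : Fˣ) : f w w ^ 2 = 1 := by
  have o1 : ∀ y, f 1 y = 1 := fun y => by
    have := h1 1 1 y
    rw [mul_one] at this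
    exact left_eq_mul.1 this
  have o2 : ∀ x, f x 1 = 1 := fun x => by
    have := h2 x 1 1
    rw [mul_one] at this
    exact left_eq_mul.1 this
  by_cases hw : w = 1
  · rw [hw, o1, one_pow]
  have hw0 : (w : F) ≠ 0 := w.ne_zero
  have n1 : (1 : F) - w ≠ 0 := fun h => hw (Units.ext (sub_eq_zero.1 h).symm)
  have n2 : (1 : F) - (w⁻¹ : Fˣ) ≠ 0 := fun h =>
    hw (inv_eq_one.1 (Units.ext (sub_eq_zero.1 h).symm))
  have a1 := hs w (Units.mk0 _ n1) (by simp)
  have a2 := hs w⁻¹ (Units.mk0 _ n2) (by simp)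
  have a3 : f w (Units.mk0 _ n2) = 1 := by
    have := h1 w w⁻¹ (Units.mk0 _ n2)
    rw [mul_inv_cancel, o1, a2, mul_one] at this
    exact this.symm
  have e : Units.mk0 _ n1 = -w * Units.mk0 _ n2 := Units.ext (by
    simp only [Units.val_mk0, Units.val_mul, Units.val_neg, Units.val_inv_eq_inv_val]
    field_simp
    ring)
  rw [e, h2, a3, mul_one] at a1
  have a4 : f w w = f w (-1) := by
    have := h2 w (-w) (-1)
    rw [a1, one_mul, neg_mul_neg, mul_one] at this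
    exact this
  rw [a4, pow_two, ← h2, neg_mul_neg, mul_one, o2]

theorem Milnor_comm {F : Type} [Field F] {A : Type u} [CommGroup A] (S : (Fin 3 → Fˣ) → A)
    (hS : ∀ c ∈ MilnorAdm F, ∀ a, S (a * c) * S (a * c⁻¹) = S a ^ 2)
    (a b : F) (v : Fin 3 → Fˣ) (e0 : (v 0 : F) ^ 5 = 1 - a * b) (e1 : (v 1 : F) = b - 1)
    (e2 : (v 2 : F) = 1 - a) : Tr S v ^ 4 = 1 := by
  have hT : ∀ c ∈ MilnorAdm F, ∀ a, Tr S (a * c) * Tr S (a * c⁻¹) = Tr S a ^ 2 :=
    Milnor_Dl_adm _ (Milnor_Dl_adm _ (Milnor_Dl_adm S hS 2) 1) 0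
  have up : ∀ (c : Fin 3 → Fˣ) (p : Fin 3) (x u : Fˣ),
      update c p x * Pi.mulSingle p u = update c p (x * u) := fun c p x u => by
    funext j
    by_cases h : j = p
    · subst h
      simp
    · simp [h]
  have sl : ∀ (c : Fin 3 → Fˣ) (p : Fin 3) (x u : Fˣ),
      Tr S (update c p (x * u)) * Tr S (update c p (x * u⁻¹)) = Tr S (update c p x) ^ 2 :=
    fun c p x u => by
      rw [← up, ← up, Pi.mulSingle_inv]
      exact hT _ (Or.inl ⟨p, u, rfl⟩) _
  have s0 : ∀ (c : Fin 3 → Fˣ) (p : Fin 3), Tr S (update c p 1) = 1 := fun c p =>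
    Milnor_Tr_one S p _ (update_self _ _ _)
  have ml : ∀ (c : Fin 3 → Fˣ) (p : Fin 3) (x y : Fˣ), Tr S (update c p (x * y)) ^ 2 =
      Tr S (update c p x) ^ 2 * Tr S (update c p y) ^ 2 := fun c p =>
    Milnor_sq_mul (fun x => Tr S (update c p x)) (s0 c p) (sl c p)
  have iv : ∀ (c : Fin 3 → Fˣ) (p : Fin 3) (x : Fˣ),
      Tr S (update c p x⁻¹) = (Tr S (update c p x))⁻¹ := fun c p x => by
    have := sl c p 1 x
    rw [one_mul, one_mul, s0, one_pow] at this
    exact eq_inv_of_mul_eq_one_right this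
  have st : ∀ (c : Fin 3 → Fˣ) (p q : Fin 3), p ≠ q → ∀ x y : Fˣ, (x : F) + y = 1 →
      Tr S (update (update c p x) q y) ^ 2 = 1 := fun c p q hpq x y hxy => by
    have h := hT _ (Or.inr ⟨p, q, x, y, hxy, rfl⟩) (update (update c q 1) p 1)
    rw [s0, one_pow, mul_inv, ← Pi.mulSingle_inv, ← Pi.mulSingle_inv, ← mul_assoc, ← mul_assoc,
      up, up, one_mul, one_mul, update_comm hpq.symm, update_comm hpq.symm, up, up, one_mul,
      one_mul, iv, update_comm hpq x⁻¹ y c, iv, inv_inv, update_comm hpq.symm y x c] at h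
    rw [pow_two, h]
  let m : Fˣ → Fˣ → Fˣ → A := fun x y z => Tr S ![x, y, z] ^ 2
  have u0 : ∀ x y z w : Fˣ, update ![x, y, z] 0 w = ![w, y, z] := fun x y z w => by
    funext j
    fin_cases j <;> rfl
  have u1 : ∀ x y z w : Fˣ, update ![x, y, z] 1 w = ![x, w, z] := fun x y z w => by
    funext j
    fin_cases j <;> rfl
  have u2 : ∀ x y z w : Fˣ, update ![x, y, z] 2 w = ![x, y, w] := fun x y z w => by
    funext j
    fin_cases j <;> rfl
  have m0 : ∀ x x' y z, m (x * x') y z = m x y z * m x' y z := fun x x' y z => by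
    have := ml ![x, y, z] 0 x x'
    rwa [u0, u0, u0] at this
  have m1 : ∀ x y y' z, m x (y * y') z = m x y z * m x y' z := fun x y y' z => by
    have := ml ![x, y, z] 1 y y'
    rwa [u1, u1, u1] at this
  have m2 : ∀ x y z z', m x y (z * z') = m x y z * m x y z' := fun x y z z' => by
    have := ml ![x, y, z] 2 z z'
    rwa [u2, u2, u2] at this
  have t02 : ∀ y x z : Fˣ, (x : F) + z = 1 → m x y z = 1 := fun y x z h => by
    have := st ![x, y, z] 0 2 (by decide) x z h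
    rwa [u0, u2] at this
  have t12 : ∀ x y z : Fˣ, (y : F) + z = 1 → m x y z = 1 := fun x y z h => by
    have := st ![x, y, z] 1 2 (by decide) y z h
    rwa [u1, u2] at this
  have d02 : ∀ y w, m w y w ^ 2 = 1 := fun y =>
    Milnor_diag (fun x z => m x y z) (fun x x' z => m0 x x' y z) (fun x z z' => m2 x y z z')
      (t02 y)
  have d12 : ∀ x w, m x w w ^ 2 = 1 := fun x =>
    Milnor_diag (m x) (m1 x) (m2 x) (t12 x)
  have ev : v = ![v 0, v 1, v 2] := by
    funext j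
    fin_cases j <;> rfl
  by_cases ha : a = 0
  · rw [Milnor_Tr_one S 2 v (Units.ext (by rw [e2, ha, sub_zero, Units.val_one])), one_pow]
  have hm : Tr S v ^ 4 = m (v 0) (v 1) (v 2) ^ 2 := by
    change _ = (Tr S ![v 0, v 1, v 2] ^ 2) ^ 2
    rw [← ev, ← pow_mul]
  have k1 : m (v 0) (Units.mk0 a ha) (v 2) = 1 := t12 _ _ _ (by rw [e2, Units.val_mk0]; ring)
  have k2 : m (v 0) (Units.mk0 a ha * (v 1 * (v 2)⁻¹)) (v 0 ^ 5 * (v 2)⁻¹) = 1 := t12 _ _ _ (by
    have h2 : (1 : F) - a ≠ 0 := e2 ▸ (v 2).ne_zero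
    simp only [Units.val_mul, Units.val_mk0, Units.val_pow_eq_pow_val, Units.val_inv_eq_inv_val,
      e0, e1, e2]
    field_simp
    ring)
  have k3 : ∀ x y z, m x y (z ^ 5) = m x y z ^ 5 := fun x y z => by
    rw [show z ^ 5 = z * z * z * z * z by simp only [pow_succ, pow_zero, one_mul], m2, m2, m2, m2]
    simp only [pow_succ, pow_zero, one_mul]
  have k4 : m (v 0) (v 1 * (v 2)⁻¹) (v 2) =
      m (v 0) (Units.mk0 a ha * (v 1 * (v 2)⁻¹)) (v 0) ^ 5 := by
    rw [← k3, ← inv_mul_cancel_right (v 0 ^ 5) (v 2), m2, k2, one_mul, m1 _ (Units.mk0 a ha), k1,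
      one_mul]
  rw [hm, ← inv_mul_cancel_right (v 1) (v 2), m1, k4, mul_pow, d12,
    ← pow_mul, mul_comm 5 2, pow_mul, d02, one_pow, one_mul]

theorem Tr_eq_one {F : Type} [Field F] (S : (Fin 3 → Fˣ) → G) (hc : ∀ a b, Commute (S a) (S b))
    (h1 : ∀ (a : Fin 3 → Fˣ) (p : Fin 3) (u : Fˣ),
      S (a * Pi.mulSingle p u) * S (a * Pi.mulSingle p u⁻¹) = S a ^ 2)
    (h2 : ∀ (a : Fin 3 → Fˣ) (p q : Fin 3) (u v : Fˣ), (u : F) + v = 1 →
      S (a * Pi.mulSingle p u * Pi.mulSingle q v) *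
        S (a * Pi.mulSingle p u⁻¹ * Pi.mulSingle q v⁻¹) = S a ^ 2)
    (a b : F) (v : Fin 3 → Fˣ) (e0 : (v 0 : F) ^ 5 = 1 - a * b) (e1 : (v 1 : F) = b - 1)
    (e2 : (v 2 : F) = 1 - a) : Tr S v ^ 4 = 1 := by
  let A := Subgroup.closure (Set.range S)
  have hA : IsMulCommutative A := Subgroup.isMulCommutative_closure (by
    rintro _ ⟨x, rfl⟩ _ ⟨y, rfl⟩
    exact hc x y)
  let _ : CommGroup A := { (inferInstance : Group A) with mul_comm := hA.is_comm.comm }
  let S' : (Fin 3 → Fˣ) → A := fun x => ⟨S x, Subgroup.subset_closure ⟨x, rfl⟩⟩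
  have h := Milnor_comm S' (fun c hc x => Subtype.ext (by
    rcases hc with ⟨p, u, rfl⟩ | ⟨p, q, u, w, h, rfl⟩
    · rw [← Pi.mulSingle_inv]
      exact h1 x p u
    · rw [mul_inv, ← Pi.mulSingle_inv, ← Pi.mulSingle_inv, ← mul_assoc, ← mul_assoc]
      exact h2 x p q u w h)) a b v e0 e1 e2
  have h' := congrArg A.subtype h
  rw [map_pow, map_one, map_Tr] at h'
  exact h'

end Vale.Agent.P178
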