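import Mathlib

/-! P178: the regular local ring of the counterexample. -/

namespace Vale.Agent.P178

open Polynomial

noncomputable section

/-- the polynomial with `(1 + t) ^ 5 = 1 + t * RingG t` -/
def RingG {S : Type*} [CommRing S] (t : S) : S := t ^ 4 + 5 * t ^ 3 + 10 * t ^ 2 + 10 * t + 5

theorem RingG_map {S S' : Type*} [CommRing S] [CommRing S'] (φ : S →+* S') (t : S) :
    φ (RingG t) = RingG (φ t) := by simp [RingG, map_ofNat]

/-- the defining relation -/
def Ringf : ℤ[X][X][X] := C X * X + C (C (RingG X))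

theorem Ringf_prime : Prime Ringf := by
  refine (irreducible_C_mul_X_add_C X_ne_zero ?_).prime
  rw [prime_X.irreducible.isRelPrime_iff_not_dvd, X_dvd_iff, coeff_C_zero]
  intro h
  have := congrArg (eval 0) h
  simp [RingG] at this

/-- the ring `ℤ[t,x,y]/(G(t)+xy)` -/
abbrev RingR : Type := AdjoinRoot Ringf

/-- first generator -/
def Ringt : RingR := AdjoinRoot.of Ringf (C X)
/-- second generator -/
def Ringx : RingR := AdjoinRoot.of Ringf X
/-- third generator -/
def Ringy : RingR := AdjoinRoot.root Ringf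

theorem Ring_rel : Ringx * Ringy + RingG Ringt = 0 := by
  have := AdjoinRoot.eval₂_root Ringf
  rw [Ringt, ← RingG_map, ← RingG_map]
  conv_lhs at this => enter [3]; rw [Ringf]
  simpa [Ringx, Ringy] using this

/-- evaluation -/
def Ringev {S : Type} [CommRing S] (t x y : S) (h : x * y + RingG t = 0) : RingR →+* S :=
  AdjoinRoot.lift (eval₂RingHom (eval₂RingHom (Int.castRingHom S) t) x) y (by
    rw [Ringf, eval₂_add, eval₂_mul, eval₂_C, eval₂_X, eval₂_C, RingG_map, RingG_map]
    simpa using h)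

theorem Ringev_t {S : Type} [CommRing S] (t x y : S) (h) : Ringev t x y h Ringt = t := by
  simp [Ringev, Ringt]
theorem Ringev_x {S : Type} [CommRing S] (t x y : S) (h) : Ringev t x y h Ringx = x := by
  simp [Ringev, Ringx]
theorem Ringev_y {S : Type} [CommRing S] (t x y : S) (h) : Ringev t x y h Ringy = y := by
  simp [Ringev, Ringy]

theorem Ring_ext {S : Type} [CommRing S] {φ ψ : RingR →+* S} (h1 : φ Ringt = ψ Ringt)
    (h2 : φ Ringx = ψ Ringx) (h3 : φ Ringy = ψ Ringy) : φ = ψ := by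
  refine AdjoinRoot.ringHom_ext ?_ h3
  refine Polynomial.ringHom_ext' (Polynomial.ringHom_ext' (RingHom.ext_int _ _) h1) h2

theorem Ring_five : RingG (0 : ZMod 5) = 0 := by simp only [RingG]; decide

theorem Ring_five0 : (5 : ZMod 5) = 0 := by decide

/-- the residue map -/
def Ringres : RingR →+* ZMod 5 := Ringev 0 0 0 (by rw [Ring_five]; simp)

theorem Ring_ker : RingHom.ker Ringres = Ideal.span {Ringt, Ringx, Ringy} := by
  apply le_antisymm
  · set I : Ideal RingR := Ideal.span {Ringt, Ringx, Ringy} with hI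
    have ht : Ideal.Quotient.mk I Ringt = 0 :=
      Ideal.Quotient.eq_zero_iff_mem.2 (Ideal.subset_span (by simp))
    have hx : Ideal.Quotient.mk I Ringx = 0 :=
      Ideal.Quotient.eq_zero_iff_mem.2 (Ideal.subset_span (by simp))
    have hy : Ideal.Quotient.mk I Ringy = 0 :=
      Ideal.Quotient.eq_zero_iff_mem.2 (Ideal.subset_span (by simp))
    have h5 : ((5 : ℕ) : RingR ⧸ I) = 0 := by
      have := congrArg (Ideal.Quotient.mk I) Ring_rel
      rw [map_add, map_mul, RingG_map, ht, hx] at this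
      simpa [RingG] using this
    have e : Ideal.Quotient.mk I = (ZMod.castHom (ringChar.dvd h5) (RingR ⧸ I)).comp Ringres :=
      Ring_ext (by simp [ht, Ringres, Ringev_t]) (by simp [hx, Ringres, Ringev_x])
        (by simp [hy, Ringres, Ringev_y])
    intro r hr
    rw [← Ideal.Quotient.eq_zero_iff_mem, e, RingHom.comp_apply, RingHom.mem_ker.1 hr, map_zero]
  · rw [Ideal.span_le]
    intro r hr
    simp only [Set.mem_insert_iff, Set.mem_singleton_iff] at hr
    rcases hr with rfl | rfl | rfl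
    exacts [Ringev_t _ _ _ _, Ringev_x _ _ _ _, Ringev_y _ _ _ _]

theorem Ring_dom : IsDomain RingR := AdjoinRoot.isDomain_of_prime Ringf_prime

/-- a map to the integers -/
def RingZ : RingR →+* ℤ := Ringev 0 1 (-5) (by simp [RingG])

theorem Ring_height : 3 ≤ (RingHom.ker Ringres).height := by
  have := Ring_dom
  have : Fact (Nat.Prime 5) := ⟨by norm_num⟩
  have hp : Prime (cyclotomic 5 ℤ) := (cyclotomic.irreducible (by norm_num)).prime
  have := AdjoinRoot.isDomain_of_prime hp
  set z := AdjoinRoot.root (cyclotomic 5 ℤ) with hz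
  have hG : RingG (z - 1) = 0 := by
    have h := AdjoinRoot.eval₂_root (cyclotomic 5 ℤ)
    conv_lhs at h => enter [3]; rw [cyclotomic_prime]
    simp only [Finset.sum_range_succ, Finset.range_zero, Finset.sum_empty, eval₂_add, eval₂_X_pow,
      eval₂_zero] at h
    rw [RingG]
    linear_combination h
  let φ1 : RingR →+* (AdjoinRoot (cyclotomic 5 ℤ))[X] :=
    Ringev (C (z - 1)) 0 X (by rw [← RingG_map, hG]; simp)
  let φ2 : RingR →+* AdjoinRoot (cyclotomic 5 ℤ) := Ringev (z - 1) 0 0 (by rw [hG]; simp)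
  let ρ : AdjoinRoot (cyclotomic 5 ℤ) →+* ZMod 5 :=
    AdjoinRoot.lift (Int.castRingHom _) 1 (by
      rw [cyclotomic_prime]
      simp only [Finset.sum_range_succ, Finset.range_zero, Finset.sum_empty, eval₂_add,
        eval₂_X_pow, eval₂_zero]
      linear_combination Ring_five0)
  have e1 : φ2 = (evalRingHom 0).comp φ1 :=
    Ring_ext (by simp [φ1, φ2, Ringev_t]) (by simp [φ1, φ2, Ringev_x]) (by simp [φ1, φ2, Ringev_y])
  have e2 : Ringres = ρ.comp φ2 :=
    Ring_ext (by simp [Ringres, φ2, Ringev_t, ρ, hz]) (by simp [Ringres, φ2, Ringev_x])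
      (by simp [Ringres, φ2, Ringev_y])
  have := RingHom.ker_isPrime φ1
  have := RingHom.ker_isPrime φ2
  have := RingHom.ker_isPrime Ringres
  have h1 : (⊥ : Ideal RingR) < RingHom.ker φ1 := by
    refine bot_lt_iff_ne_bot.2 fun h => ?_
    have h2 : Ringx ∈ RingHom.ker φ1 := Ringev_x _ _ _ _
    rw [h, Ideal.mem_bot] at h2
    have := congrArg RingZ h2
    simp [RingZ, Ringev_x] at this
  have h2 : RingHom.ker φ1 < RingHom.ker φ2 := by
    refine lt_of_le_of_ne (fun r hr => ?_) fun h => ?_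
    · rw [RingHom.mem_ker, e1, RingHom.comp_apply, RingHom.mem_ker.1 hr, map_zero]
    · have h2 : Ringy ∈ RingHom.ker φ2 := Ringev_y _ _ _ _
      rw [← h, RingHom.mem_ker] at h2
      exact X_ne_zero ((Ringev_y _ _ _ _).symm.trans h2)
  have h3 : RingHom.ker φ2 < RingHom.ker Ringres := by
    refine lt_of_le_of_ne (fun r hr => ?_) fun h => ?_
    · rw [RingHom.mem_ker, e2, RingHom.comp_apply, RingHom.mem_ker.1 hr, map_zero]
    · have h2 : ((5 : ℤ) : RingR) ∈ RingHom.ker Ringres := by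
        rw [RingHom.mem_ker, map_intCast]; exact_mod_cast Ring_five0
      rw [← h, RingHom.mem_ker, map_intCast] at h2
      have h4 := AdjoinRoot.of.injective_of_degree_ne_zero (f := cyclotomic 5 ℤ) (by
        rw [degree_cyclotomic]; decide)
      have h5 : (5 : ℤ) = 0 := h4 (by rw [map_zero, ← h2]; rfl)
      exact absurd h5 (by norm_num)
  have k1 := Ideal.height_add_one_le_of_lt_of_isPrime h1
  have k2 := Ideal.height_add_one_le_of_lt_of_isPrime h2
  have k3 := Ideal.height_add_one_le_of_lt_of_isPrime h3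
  calc (3 : ℕ∞) = 0 + 1 + 1 + 1 := by norm_num
    _ ≤ (⊥ : Ideal RingR).height + 1 + 1 + 1 := by gcongr; exact zero_le
    _ ≤ (RingHom.ker φ1).height + 1 + 1 := by gcongr
    _ ≤ (RingHom.ker φ2).height + 1 := by gcongr
    _ ≤ _ := k3

/-- the target of the derivations -/
abbrev RingT : Type := TrivSqZeroExt (DualNumber (ZMod 5)) (Fin 3 → DualNumber (ZMod 5))

theorem Ring_five' : (5 : RingT) = 0 := by
  have h := map_ofNat ((TrivSqZeroExt.inlHom (DualNumber (ZMod 5))
    (Fin 3 → DualNumber (ZMod 5))).comp (TrivSqZeroExt.inlHom (ZMod 5) (ZMod 5))) 5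
  rw [← h, show (OfNat.ofNat 5 : ZMod 5) = 0 by decide, map_zero]

/-- image of `t` -/
def Ringa : RingT := TrivSqZeroExt.inl DualNumber.eps + TrivSqZeroExt.inr (Pi.single 0 1)
/-- image of `x` -/
def Ringb : RingT := TrivSqZeroExt.inr (Pi.single 2 1)
/-- image of `y` -/
def Ringc : RingT := TrivSqZeroExt.inr (Pi.single 1 1)

theorem Ring_bc : Ringb * Ringc = 0 := TrivSqZeroExt.inr_mul_inr _ _ _

theorem Ring_a4 : Ringa ^ 4 = 0 := by
  have h1 : Ringa * Ringa = TrivSqZeroExt.inr (Ringa * Ringa).snd := by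
    refine TrivSqZeroExt.ext ?_ rfl
    simp [Ringa]
  rw [show Ringa ^ 4 = (Ringa * Ringa) * (Ringa * Ringa) by ring, h1, TrivSqZeroExt.inr_mul_inr]

theorem Ring_abc : Ringb * Ringc + RingG Ringa = 0 := by
  rw [RingG]
  linear_combination (Ringa ^ 3 + 2 * Ringa ^ 2 + 2 * Ringa + 1) * Ring_five' + Ring_bc + Ring_a4

/-- all derivations at once -/
def Ringψ : RingR →+* RingT := Ringev (S := RingT) Ringa Ringb Ringc Ring_abc

theorem Ringψ_t : Ringψ Ringt = Ringa := Ringev_t (S := RingT) _ _ _ Ring_abc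
theorem Ringψ_x : Ringψ Ringx = Ringb := Ringev_x (S := RingT) _ _ _ Ring_abc
theorem Ringψ_y : Ringψ Ringy = Ringc := Ringev_y (S := RingT) _ _ _ Ring_abc

theorem Ring_d0 : (Ringψ (1 + Ringt)).snd = (Pi.single 0 1 : Fin 3 → DualNumber (ZMod 5)) := by
  rw [map_add, map_one, Ringψ_t, Ringa]; simp

theorem Ring_d1 : (Ringψ (Ringt * Ringy - 1)).snd =
    (Pi.single 1 (DualNumber.eps : DualNumber (ZMod 5)) : Fin 3 → DualNumber (ZMod 5)) := by
  rw [map_sub, map_one, map_mul, Ringψ_t, Ringψ_y, Ringa, Ringc]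
  ext1 k
  fin_cases k <;> simp

theorem Ring_d2 : (Ringψ (1 - Ringx)).snd = (Pi.single 2 (-1) : Fin 3 → DualNumber (ZMod 5)) := by
  rw [map_sub, map_one, Ringψ_x, Ringb]
  ext1 k
  fin_cases k <;> simp

theorem Ring_ne : 4 * ((1 : DualNumber (ZMod 5)) * DualNumber.eps * (-1)) ≠ 0 := by
  intro h
  have := congrArg TrivSqZeroExt.snd h
  rw [show (4 : DualNumber (ZMod 5)) = 1 + 1 + 1 + 1 by norm_num] at this
  simp at this
  exact absurd this (by decide)

theorem Ring_unit (r : RingR) (hr : r ∉ RingHom.ker Ringres) : IsUnit (Ringψ r) := by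
  have : Fact (Nat.Prime 5) := ⟨by norm_num⟩
  have e : Ringres = ((TrivSqZeroExt.fstHom (ZMod 5) (ZMod 5) (ZMod 5)).toRingHom.comp
      (TrivSqZeroExt.fstHom ℤ (DualNumber (ZMod 5)) _).toRingHom).comp Ringψ :=
    Ring_ext (by simp [Ringres, Ringψ_t, Ringev_t, Ringa]) (by simp [Ringres, Ringψ_x, Ringev_x, Ringb])
      (by simp [Ringres, Ringψ_y, Ringev_y, Ringc])
  rw [TrivSqZeroExt.isUnit_iff_isUnit_fst, TrivSqZeroExt.isUnit_iff_isUnit_fst, isUnit_iff_ne_zero]
  rw [RingHom.mem_ker, e] at hr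
  exact hr

end

/-- `A` = localization at `(t,x,y)` of `ℤ[t,x,y]/(Φ₅(1+t)+xy)`, `u = 1+t`, `a = x`, `b = t y`,
`B = 𝔽₅[t]/t²`, `D 0 = ∂_t`, `D 1 = ∂_y`, `D 2 = ∂_x`. -/
theorem exists_ring : ∃ (A : Type) (_ : CommRing A) (_ : IsDomain A) (_ : IsRegularLocalRing A)
    (_ : CharZero A) (B : Type) (_ : CommRing B) (π : A →+* B) (D : Fin 3 → A →+ B) (a b : A)
    (v : Fin 3 → Aˣ),
    (∀ k x y, D k (x * y) = π x * D k y + π y * D k x) ∧
    (v 0 : A) ^ 5 = 1 - a * b ∧ (v 1 : A) = b - 1 ∧ (v 2 : A) = 1 - a ∧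
    (∀ k d, k ≠ d → D k (v d) = 0) ∧
    4 * (D 0 (v 0) * D 1 (v 1) * D 2 (v 2)) ≠ 0 := by
  have := Ring_dom
  have : Fact (Nat.Prime 5) := ⟨by norm_num⟩
  have := RingHom.ker_isPrime Ringres
  have : IsNoetherianRing RingR :=
    isNoetherianRing_of_surjective _ _ (AdjoinRoot.mk Ringf) AdjoinRoot.mk_surjective
  let A := Localization.AtPrime (RingHom.ker Ringres)
  have hreg : IsRegularLocalRing A := by
    apply IsRegularLocalRing.of_spanFinrank_maximalIdeal_le
    rw [IsLocalization.AtPrime.ringKrullDim_eq_height (RingHom.ker Ringres) A,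
      ← Localization.AtPrime.map_eq_maximalIdeal]
    have h1 : (Ideal.map (algebraMap RingR A) (RingHom.ker Ringres)).spanFinrank ≤ 3 := by
      rw [congrArg (Ideal.map (algebraMap RingR A)) Ring_ker, Ideal.map_span]
      refine (Submodule.spanFinrank_span_le_ncard_of_finite (Set.toFinite _)).trans
        ((Set.ncard_image_le (Set.toFinite _)).trans ?_)
      refine (Set.ncard_insert_le _ _).trans (Nat.succ_le_succ ?_)
      refine (Set.ncard_insert_le _ _).trans (Nat.succ_le_succ ?_)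
      simp
    refine le_trans (b := ((3 : ℕ∞) : WithBot ℕ∞)) (by exact_mod_cast h1) ?_
    exact_mod_cast Ring_height
  have : CharZero RingR := RingZ.charZero
  have hcz : CharZero A := charZero_of_injective_algebraMap
    (IsLocalization.injective A (RingHom.ker Ringres).primeCompl_le_nonZeroDivisors)
  obtain ⟨ψ, hψ⟩ : ∃ ψ : A →+* RingT, ∀ r, ψ (algebraMap RingR A r) = Ringψ r :=
    ⟨IsLocalization.lift (M := (RingHom.ker Ringres).primeCompl) (S := A) (P := RingT)
      (g := Ringψ) fun y => Ring_unit y y.2, fun r => IsLocalization.lift_eq _ r⟩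
  have hu : ∀ r, Ringres r ≠ 0 → IsUnit (algebraMap RingR A r) := fun r hr =>
    IsLocalization.map_units A (⟨r, hr⟩ : (RingHom.ker Ringres).primeCompl)
  have u0 := hu (1 + Ringt) (by simp [Ringres, Ringev_t])
  have u1 := hu (Ringt * Ringy - 1) (by simp [Ringres, Ringev_t])
  have u2 := hu (1 - Ringx) (by simp [Ringres, Ringev_x])
  refine ⟨A, inferInstance, inferInstance, hreg, hcz, DualNumber (ZMod 5), inferInstance,
    (TrivSqZeroExt.fstHom ℤ (DualNumber (ZMod 5)) _).toRingHom.comp ψ,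
    fun k => ⟨⟨fun a => (ψ a).snd k, by simp⟩, fun a b => by simp⟩,
    algebraMap RingR A Ringx, algebraMap RingR A (Ringt * Ringy), ![u0.unit, u1.unit, u2.unit],
    fun k x y => ?_, ?_, by simp, by simp, fun k d hkd => ?_, ?_⟩
  · simp
  · simp only [Matrix.cons_val_zero, IsUnit.unit_spec]
    rw [← map_pow, ← map_mul, ← map_one (algebraMap RingR A), ← map_sub]
    congr 1
    have := Ring_rel
    rw [RingG] at this
    linear_combination Ringt * this
  · fin_cases d <;>
      simp only [Fin.zero_eta, Fin.mk_one, Fin.reduceFinMk, Matrix.cons_val, IsUnit.unit_spec,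
        AddMonoidHom.coe_mk, ZeroHom.coe_mk, hψ, Ring_d0, Ring_d1, Ring_d2] at hkd ⊢ <;>
      rw [Pi.single_eq_of_ne hkd]
  · simp only [Matrix.cons_val, IsUnit.unit_spec, AddMonoidHom.coe_mk, ZeroHom.coe_mk, hψ,
      Ring_d0, Ring_d1, Ring_d2, Pi.single_eq_same]
    exact Ring_ne

end Vale.Agent.P178
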