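import Mathlib

/-! P178: the Steinberg relation in a central extension of `SL₂(F)`. -/

namespace Vale.Agent.P178

open Matrix

variable {F : Type} [Field F]

/-- upper transvection -/
def xU (t : F) : SpecialLinearGroup (Fin 2) F := ⟨!![1, t; 0, 1], by simp [Matrix.det_fin_two]⟩

/-- lower transvection -/
def xL (t : F) : SpecialLinearGroup (Fin 2) F := ⟨!![1, 0; t, 1], by simp [Matrix.det_fin_two]⟩

/-- diagonal matrix `diag(u, u⁻¹)` -/
def hD (u : Fˣ) : SpecialLinearGroup (Fin 2) F :=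
  ⟨!![(u : F), 0; 0, ((u⁻¹ : Fˣ) : F)], by simp [Matrix.det_fin_two]⟩

/-- Weyl element -/
def SL2w (u : F) : SpecialLinearGroup (Fin 2) F := xU u * xL (-u⁻¹) * xU u

/-- underlying matrix -/
def SL2m (A : SpecialLinearGroup (Fin 2) F) : Matrix (Fin 2) (Fin 2) F := A.1

theorem SL2m_mul (A B : SpecialLinearGroup (Fin 2) F) : SL2m (A * B) = SL2m A * SL2m B := rfl
theorem SL2m_inj {A B : SpecialLinearGroup (Fin 2) F} (h : SL2m A = SL2m B) : A = B :=
  Subtype.ext h
theorem SL2m_one : SL2m (1 : SpecialLinearGroup (Fin 2) F) = 1 := rfl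
theorem SL2m_U (t : F) : SL2m (xU t) = !![1, t; 0, 1] := rfl
theorem SL2m_L (t : F) : SL2m (xL t) = !![1, 0; t, 1] := rfl
theorem SL2m_D (u : Fˣ) : SL2m (hD u) = !![(u : F), 0; 0, (u : F)⁻¹] := by
  rw [← Units.val_inv_eq_inv_val]; rfl

theorem SL2m_w {u : F} (hu : u ≠ 0) : SL2m (SL2w u) = !![0, u; -u⁻¹, 0] := by
  simp [SL2w, SL2m_mul, SL2m_U, SL2m_L, hu]

theorem SL2_UU (s t : F) : xU s * xU t = xU (s + t) :=
  SL2m_inj (by simp [SL2m_mul, SL2m_U, add_comm])

theorem SL2_LL (s t : F) : xL s * xL t = xL (s + t) :=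
  SL2m_inj (by simp [SL2m_mul, SL2m_L])

theorem SL2_hD (u : Fˣ) : SL2w (u : F) * SL2w (-1) = hD u :=
  SL2m_inj (by simp [SL2m_mul, SL2m_w, SL2m_D])

theorem SL2_hU (u : Fˣ) (s : F) : hD u * xU s = xU (u ^ 2 * s) * hD u :=
  SL2m_inj (by simp [SL2m_mul, SL2m_U, SL2m_D]; field_simp)

theorem SL2_hL (u : Fˣ) (s : F) : xL s * hD u = hD u * xL (u ^ 2 * s) :=
  SL2m_inj (by simp [SL2m_mul, SL2m_L, SL2m_D]; field_simp)

theorem SL2_wU {u : F} (hu : u ≠ 0) (s : F) : SL2w u * xU s = xL (-(u⁻¹ ^ 2 * s)) * SL2w u :=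
  SL2m_inj (by simp [SL2m_mul, SL2m_U, SL2m_L, SL2m_w hu]; field_simp)

theorem SL2_wL {u : F} (hu : u ≠ 0) (s : F) : SL2w u * xL s = xU (-(u ^ 2 * s)) * SL2w u :=
  SL2m_inj (by simp [SL2m_mul, SL2m_U, SL2m_L, SL2m_w hu]; field_simp)

theorem SL2_wh {u : F} (hu : u ≠ 0) (a : Fˣ) : hD a * SL2w u * hD a = SL2w u :=
  SL2m_inj (by simp [SL2m_mul, SL2m_D, SL2m_w hu]; constructor <;> field_simp)

theorem SL2_K {H G : Type*} [Group H] [Group G] {p : H →* G} (hc : ∀ z, p z = 1 → ∀ g, Commute z g)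
    {a a' b b' : H} (ha : p a = p a') (hb : p b = p b') :
    a * b * a⁻¹ * b⁻¹ = a' * b' * a'⁻¹ * b'⁻¹ := by
  obtain ⟨z, rfl⟩ : ∃ z, a' = z * a := ⟨a' * a⁻¹, by group⟩
  obtain ⟨z', rfl⟩ : ∃ z', b' = z' * b := ⟨b' * b⁻¹, by group⟩
  have h1 := hc z (by simpa using ha.symm)
  have h2 := hc z' (by simpa using hb.symm)
  calc a * b * a⁻¹ * b⁻¹ = a * (z' * (b * a⁻¹ * b⁻¹) * z'⁻¹) := by
        rw [(h2 _).eq]; group
    _ = z * (a * (z' * b) * a⁻¹) * z⁻¹ * (z' * b)⁻¹ := by rw [(h1 _).eq]; group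
    _ = _ := by group

universe w

theorem sl2_lifts [CharZero F] {H : Type w} [Group H] (p : H →* SpecialLinearGroup (Fin 2) F)
    (hc : ∀ z, p z = 1 → ∀ g, Commute z g)
    (hx : ∀ t, ∃ g, p g = xU t) (hy : ∀ t, ∃ g, p g = xL t) :
    (∀ u : Fˣ, ∃ g, p g = hD u) ∧
    ∀ u v : Fˣ, (u : F) + v = 1 → ∃ g g', p g = hD u ∧ p g' = hD v ∧ Commute g g' := by
  choose x hx using hx
  choose y hy using hy
  have K := @SL2_K _ _ _ _ p hc
  have hD' : ∀ u : Fˣ, ∃ g, p g = hD u := fun u =>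
    ⟨x u * y (-(u : F)⁻¹) * x u * (x (-1) * y (-(-1 : F)⁻¹) * x (-1)), by
      simp only [map_mul, hx, hy]; exact SL2_hD u⟩
  refine ⟨hD', fun u v huv => ?_⟩
  set two : Fˣ := Units.mk0 2 two_ne_zero with htwo
  have h4 : ((two : F)) ^ 2 = 4 := by simp [htwo]; norm_num
  obtain ⟨h, hh⟩ := hD' two
  have hhU : ∀ s, p (h * x s * h⁻¹) = xU (4 * s) := fun s => by
    rw [map_mul, map_mul, map_inv, hh, hx, SL2_hU, h4, mul_inv_cancel_right]
  have hhL : ∀ s, p (h⁻¹ * y s * h) = xL (4 * s) := fun s => by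
    rw [map_mul, map_mul, map_inv, hh, hy, mul_assoc, SL2_hL, h4, inv_mul_cancel_left]
  have hUinv : ∀ s : F, (xU s)⁻¹ = xU (-s) := fun s => by
    rw [inv_eq_iff_mul_eq_one, SL2_UU, add_neg_cancel]
    exact SL2m_inj (by rw [SL2m_U, SL2m_one, Matrix.one_fin_two])
  have hLinv : ∀ s : F, (xL s)⁻¹ = xL (-s) := fun s => by
    rw [inv_eq_iff_mul_eq_one, SL2_LL, add_neg_cancel]
    exact SL2m_inj (by rw [SL2m_L, SL2m_one, Matrix.one_fin_two])
  -- all lifts of upper transvections commute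
  set c : F → F → H := fun s t => x s * x t * (x s)⁻¹ * (x t)⁻¹ with hcd
  have c0 : ∀ s t g, Commute (c s t) g := fun s t => hc _ (by
    simp only [hcd, map_mul, map_inv, hx]
    rw [SL2_UU, add_comm, ← SL2_UU]; group)
  have c1 : ∀ s s' t, c (s + s') t = c s' t * c s t := by
    intro s s' t
    have e := K (a := x (s + s')) (a' := x s * x s') (b := x t) (b' := x t)
      (by rw [map_mul, hx, hx, hx, SL2_UU]) rfl
    calc c (s + s') t = x s * c s' t * (x s)⁻¹ * c s t := by simp only [hcd]; rw [e]; group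
      _ = _ := by rw [← (c0 s' t (x s)).eq]; group
  have c2 : ∀ s t t', c s (t + t') = c s t * c s t' := by
    intro s t t'
    have e := K (a := x s) (a' := x s) (b := x (t + t')) (b' := x t * x t') rfl
      (by rw [map_mul, hx, hx, hx, SL2_UU])
    calc c s (t + t') = c s t * (x t * c s t' * (x t)⁻¹) := by simp only [hcd]; rw [e]; group
      _ = _ := by rw [← (c0 s t' (x t)).eq]; group
  have c3 : ∀ s t, c s (4 * t) = c (4 * s) t := by
    intro s t
    rw [show 4 * t = t + t + (t + t) by ring, show 4 * s = s + s + (s + s) by ring, c1, c1, c2, c2]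
  have c4 : ∀ s t, c (4 * s) (4 * t) = c s t := by
    intro s t
    have e := K (a := x (4 * s)) (a' := h * x s * h⁻¹) (b := x (4 * t)) (b' := h * x t * h⁻¹)
      (by rw [hx, hhU]) (by rw [hx, hhU])
    calc c (4 * s) (4 * t) = h * c s t * h⁻¹ := by simp only [hcd]; rw [e]; group
      _ = _ := by rw [← (c0 s t h).eq]; group
  have c5 : ∀ s t, c s t = 1 := by
    intro s t
    have e := c4 (s / 15) t
    rw [c3, show 4 * (4 * (s / 15)) = s / 15 + s by ring, c1] at e
    simpa using e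
  have cU : ∀ a b s t, p a = xU s → p b = xU t → a * b = b * a := by
    intro a b s t ha hb
    have e := K (a := a) (a' := x s) (b := b) (b' := x t) (by rw [ha, hx]) (by rw [hb, hx])
    have e2 : a * b * a⁻¹ * b⁻¹ = 1 := e.trans (c5 s t)
    rw [mul_inv_eq_one, mul_inv_eq_iff_eq_mul] at e2
    exact e2
  -- canonical lifts
  set X : F → H := fun t => h * x (t / 3) * h⁻¹ * (x (t / 3))⁻¹ with hX
  set Y : F → H := fun t => h⁻¹ * y (t / 3) * h⁻¹⁻¹ * (y (t / 3))⁻¹ with hY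
  have pX : ∀ t, p (X t) = xU t := fun t => by
    simp only [hX]
    rw [map_mul, hhU, map_inv, hx, hUinv, SL2_UU]; congr 1; ring
  have pY : ∀ t, p (Y t) = xL t := fun t => by
    simp only [hY, inv_inv]
    rw [map_mul, hhL, map_inv, hy, hLinv, SL2_LL]; congr 1; ring
  have XX : ∀ s t, X (s + t) = X s * X t := by
    intro s t
    have e := K (a := h) (a' := h) (b := x ((s + t) / 3)) (b' := x (s / 3) * x (t / 3)) rfl
      (by rw [map_mul, hx, hx, hx, SL2_UU, add_div])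
    calc X (s + t) = X s * (x (s / 3) * X t * (x (s / 3))⁻¹) := by simp only [hX]; rw [e]; group
      _ = _ := by rw [cU _ _ _ _ (hx _) (pX t)]; group
  set W : F → H := fun u => X u * Y (-u⁻¹) * X u with hW
  have pW : ∀ u, p (W u) = SL2w u := fun u => by simp only [hW, map_mul, pX, pY, SL2w]
  have WX : ∀ u, u ≠ 0 → ∀ t, W u * X t = Y (-(u⁻¹ ^ 2 * t)) * W u := by
    intro u hu t
    have e := K (a := W u * h * (W u)⁻¹) (a' := h⁻¹) (b := W u * x (t / 3) * (W u)⁻¹)
      (b' := y (-(u⁻¹ ^ 2 * t) / 3))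
      (by
        rw [map_mul, map_mul, map_inv, map_inv, pW, hh, mul_inv_eq_iff_eq_mul,
          eq_inv_mul_iff_mul_eq, ← mul_assoc, SL2_wh hu])
      (by
        rw [map_mul, map_mul, map_inv, pW, hx, hy, SL2_wU hu, mul_inv_cancel_right]
        congr 1; ring)
    simp only [hX, hY]
    rw [← e]; group
  have WY : ∀ u, u ≠ 0 → ∀ t, W u * Y t = X (-(u ^ 2 * t)) * W u := by
    intro u hu t
    have e := K (a := W u * h⁻¹ * (W u)⁻¹) (a' := h) (b := W u * y (t / 3) * (W u)⁻¹)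
      (b' := x (-(u ^ 2 * t) / 3))
      (by
        rw [map_mul, map_mul, map_inv, map_inv, pW, hh, mul_inv_eq_iff_eq_mul,
          mul_inv_eq_iff_eq_mul, SL2_wh hu])
      (by
        rw [map_mul, map_mul, map_inv, pW, hx, hy, SL2_wL hu, mul_inv_cancel_right]
        congr 1; ring)
    simp only [hX, hY]
    rw [← e]; group
  have YY : ∀ s t, Y (s + t) = Y s * Y t := by
    intro s t
    have e : ∀ r, Y r = W 1 * X (-r) * (W 1)⁻¹ := fun r => by
      rw [WX 1 one_ne_zero]; simp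
    rw [e, e s, e t, neg_add, XX]; group
  have X0 : X 0 = 1 := by simpa using XX 0 0
  have Y0 : Y 0 = 1 := by simpa using YY 0 0
  have Xn : ∀ t, X t * X (-t) = 1 := fun t => by rw [← XX, add_neg_cancel, X0]
  have Yn : ∀ t, Y t * Y (-t) = 1 := fun t => by rw [← YY, add_neg_cancel, Y0]
  have Wn : ∀ u, W u * W (-u) = 1 := by
    intro u
    have e : W u * W (-u) = X u * (Y (-u⁻¹) * (X u * X (-u)) * Y (- -u⁻¹)) * X (-u) := by
      simp only [hW, inv_neg]; group
    rw [e, Xn, mul_one, Yn, mul_one, Xn]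
  have W' : ∀ u, u ≠ 0 → W u = Y (-u⁻¹) * X u * Y (-u⁻¹) := by
    intro u hu
    have e1 := WX u hu u
    have e2 := WY u hu (-u⁻¹)
    rw [show -(u⁻¹ ^ 2 * u) = -u⁻¹ by field_simp] at e1
    rw [show -(u ^ 2 * -u⁻¹) = u by field_simp] at e2
    have e : W u * W u = Y (-u⁻¹) * X u * Y (-u⁻¹) * W u := by
      calc W u * W u = W u * X u * Y (-u⁻¹) * X u := by
            conv_lhs => enter [2]; simp only [hW]
            group
        _ = Y (-u⁻¹) * (W u * Y (-u⁻¹)) * X u := by rw [e1]; group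
        _ = Y (-u⁻¹) * X u * (W u * X u) := by rw [e2]; group
        _ = _ := by rw [e1]; group
    exact mul_right_cancel e
  have St : ∀ u v : F, u ≠ 0 → v ≠ 0 → u + v = 1 → W u * W (-1) * W v = W (u * v) := by
    intro u v hu hv huv
    have e0 : W (-1) = Y 1 * (X (-u) * X (-v)) * Y 1 := by
      rw [W' (-1) (by simp), ← XX, show -u + -v = -1 by linear_combination -huv]
      simp
    have e1 := WY u hu 1
    have e2 : Y 1 * W v = W v * X (-v ^ 2) := by
      rw [WX v hv]; congr 2; field_simp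
    have e3 : W u * X (-u) = X u * Y (-u⁻¹) := by
      simp only [hW]; rw [mul_assoc, Xn, mul_one]
    have e4 : X (-v) * W v = Y (-v⁻¹) * X v := by
      have := Xn (-v)
      rw [neg_neg] at this
      simp only [hW]; rw [← mul_assoc (X (-v)), ← mul_assoc (X (-v)), this, one_mul]
    calc W u * W (-1) * W v = (W u * Y 1) * X (-u) * X (-v) * (Y 1 * W v) := by rw [e0]; group
      _ = X (-(u ^ 2 * 1)) * (W u * X (-u)) * (X (-v) * W v) * X (-v ^ 2) := by
          rw [e1, e2]; group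
      _ = (X (-(u ^ 2 * 1)) * X u) * (Y (-u⁻¹) * Y (-v⁻¹)) * (X v * X (-v ^ 2)) := by
          rw [e3, e4]; group
      _ = _ := by
          rw [← XX, ← XX, ← YY, show -(u ^ 2 * 1) + u = u * v by linear_combination (-u) * huv,
            show v + -v ^ 2 = u * v by linear_combination (-v) * huv,
            show -u⁻¹ + -v⁻¹ = -(u * v)⁻¹ by field_simp; linear_combination -huv]
  refine ⟨W u * W (-1), W v * W (-1), by rw [map_mul, pW, pW, SL2_hD],
    by rw [map_mul, pW, pW, SL2_hD], ?_⟩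
  have e1 := St u v u.ne_zero v.ne_zero huv
  have e2 := St v u v.ne_zero u.ne_zero (by rw [add_comm, huv])
  rw [mul_comm (v : F)] at e2
  rw [Commute, SemiconjBy, ← mul_assoc _ (W v), e1, ← mul_assoc _ (W u), e2]

end Vale.Agent.P178
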