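import Vale.Agent.P178.Add
import Vale.Agent.P178.Ext
import Vale.Agent.P178.SL2

/-! P178: multiplicativity and the Steinberg relation over a field. -/

namespace Vale.Agent.P178

open CategoryTheory unitInterval Function

universe u v

theorem stein_glue {W : Type u} {Y : Type v} [TopologicalSpace W] [TopologicalSpace Y]
    (L K : C(I × W, Y)) (h : ∀ w, L (1, w) = K (0, w)) : ∃ M : C(I × W, Y),
      (∀ w, M (0, w) = L (0, w)) ∧ (∀ w, M (1, w) = K (1, w)) ∧ ∀ w w',
        (∀ r, L (r, w) = L (r, w')) → (∀ r, K (r, w) = K (r, w')) → ∀ r, M (r, w) = M (r, w') := by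
  refine ⟨⟨fun q => if (q.1 : ℝ) ≤ 1 / 2 then L (cl (2 * q.1), q.2)
    else K (cl (2 * q.1 - 1), q.2), ?_⟩, fun w => ?_, fun w => ?_, fun w w' h1 h2 r => ?_⟩
  · refine Continuous.if_le
      (L.continuous.comp ((continuous_cl.comp (by fun_prop)).prodMk continuous_snd))
      (K.continuous.comp ((continuous_cl.comp (by fun_prop)).prodMk continuous_snd))
      (by fun_prop) continuous_const fun q hq => ?_
    rw [hq, face_cl1 (by norm_num), face_cl0 (by norm_num), h]
  · rw [ContinuousMap.coe_mk, if_pos (by norm_num), face_cl0 (by norm_num)]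
  · rw [ContinuousMap.coe_mk, if_neg (by norm_num), face_cl1 (by norm_num)]
  · simp only [ContinuousMap.coe_mk, h1, h2]

section Gen

variable {G : Type} [Group G]

theorem stein_ext {A : Type} {K K' : J ⥤ Codiscrete A} (h : ∀ a, (K.obj a).as = (K'.obj a).as) :
    K = K' :=
  CategoryTheory.Functor.ext (fun a => Codiscrete.ext (h a)) fun _ _ _ => rfl

/-- right translation -/
def steinT (g : G) : Codiscrete G ⥤ Codiscrete G := Codiscrete.functor fun x => x.as * g⁻¹

/-- the action on the contractible space -/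
noncomputable def steinAct (g : G) : C(BC (Codiscrete G), BC (Codiscrete G)) := BMap (steinT g)

theorem stein_act_one (e : BC (Codiscrete G)) : steinAct (1 : G) e = e :=
  rep_injective ((rep_BMap _ _).trans (stein_ext fun a => by
    show ((rep e).obj a).as * (1 : G)⁻¹ = _
    rw [inv_one, mul_one]))

theorem stein_act_mul (g g' : G) (e : BC (Codiscrete G)) :
    steinAct (g * g') e = steinAct g (steinAct g' e) :=
  rep_injective (by
    rw [steinAct, steinAct, steinAct, rep_BMap, rep_BMap, rep_BMap]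
    refine stein_ext fun a => ?_
    show ((rep e).obj a).as * (g * g')⁻¹ = ((rep e).obj a).as * g'⁻¹ * g⁻¹
    rw [mul_inv_rev, mul_assoc])

/-- the torus -/
noncomputable def steinTor (χ : Multiplicative (Fin 2 → ℤ) →* G) (w : Fin 2 → I) :
    BC (Codiscrete G) :=
  pt (cube w ⋙ Codiscrete.functor fun p => χ (cbv p))

/-- the joining functor -/
def steinJ (χ : Multiplicative (Fin 2 → ℤ) →* G) :
    Codiscrete G × (Cb (Fin 2) × Fin 2) ⥤ Codiscrete G :=
  Codiscrete.functor fun p => if p.2.2 = 0 then χ (cbv p.2.1) else p.1.as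

/-- the segment from a point of the torus to a point `e` -/
noncomputable def steinLine (χ : Multiplicative (Fin 2 → ℤ) →* G) (e : BC (Codiscrete G))
    (w : Fin 2 → I) (r : I) : BC (Codiscrete G) :=
  pt ((rep e).prod' ((cube w).prod' (thr r)) ⋙ steinJ χ)

theorem stein_line_cont (χ : Multiplicative (Fin 2 → ℤ) →* G) :
    Continuous fun p : BC (Codiscrete G) × ((Fin 2 → I) × I) => steinLine χ p.1 p.2.1 p.2.2 :=
  (((fam_cube (Fin 2)).comp continuous_fst).prod' (fam_thr.comp continuous_snd)).continuous_prod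
    (steinJ χ)

theorem stein_rep_line (χ : Multiplicative (Fin 2 → ℤ) →* G) (e : BC (Codiscrete G))
    (w : Fin 2 → I) (r : I) (a : J) : ((rep (steinLine χ e w r)).obj a).as =
      if thrFun r a = 0 then χ (cbv ((cube w).obj a)) else ((rep e).obj a).as := by
  rw [steinLine, rep_pt (((isStep_rep e).prod' (((fam_cube _).isStep w).prod'
    (fam_thr.isStep r))).whisker _)]
  rfl

theorem stein_rep_tor (χ : Multiplicative (Fin 2 → ℤ) →* G) (w : Fin 2 → I) :
    rep (steinTor χ w) = cube w ⋙ Codiscrete.functor fun p => χ (cbv p) :=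
  rep_pt (((fam_cube _).isStep w).whisker _)

theorem stein_line_zero (χ : Multiplicative (Fin 2 → ℤ) →* G) (e : BC (Codiscrete G))
    (w : Fin 2 → I) : steinLine χ e w 0 = steinTor χ w :=
  rep_injective (stein_ext fun a => by
    rw [stein_rep_line, thrFun_zero, if_pos rfl, stein_rep_tor]
    rfl)

theorem stein_line_one (χ : Multiplicative (Fin 2 → ℤ) →* G) (e : BC (Codiscrete G))
    (w : Fin 2 → I) : steinLine χ e w 1 = e :=
  rep_injective (stein_ext fun a => by
    rw [stein_rep_line, thrFun_one, if_neg (by decide)])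

theorem stein_tor_one (w : Fin 2 → I) :
    steinTor (1 : Multiplicative (Fin 2 → ℤ) →* G) w = objPt ⟨1⟩ :=
  rep_injective (by
    rw [stein_rep_tor, rep_vertex]
    exact stein_ext fun a => rfl)

/-- basis vector -/
def steinB (i : Fin 2) : Multiplicative (Fin 2 → ℤ) := Multiplicative.ofAdd (Pi.single i 1)

theorem stein_cbv (w : Fin 2 → I) (i : Fin 2) (a : J) :
    cbv ((cube (update w i 1)).obj a) = cbv ((cube (update w i 0)).obj a) * steinB i := by
  refine congrArg Multiplicative.ofAdd (funext fun j => ?_)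
  show ((thrFun (update w i 1 j) a : ℕ) : ℤ) =
    ((thrFun (update w i 0 j) a : ℕ) : ℤ) + (Pi.single i 1 : Fin 2 → ℤ) j
  by_cases h : j = i
  · subst h
    rw [update_self, update_self, thrFun_zero, thrFun_one, Pi.single_eq_same]
    rfl
  · rw [update_of_ne h, update_of_ne h, Pi.single_eq_of_ne h, add_zero]

theorem stein_line_act (χ : Multiplicative (Fin 2 → ℤ) →* G) (e : BC (Codiscrete G))
    (w : Fin 2 → I) (i : Fin 2) (r : I) :
    steinLine χ (steinAct (χ (steinB i))⁻¹ e) (update w i 1) r =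
      steinAct (χ (steinB i))⁻¹ (steinLine χ e (update w i 0) r) :=
  rep_injective (stein_ext fun a => by
    rw [stein_rep_line, steinAct, rep_BMap, rep_BMap]
    show _ = ((rep (steinLine χ e (update w i 0) r)).obj a).as * (χ (steinB i))⁻¹⁻¹
    rw [stein_rep_line, stein_cbv, map_mul]
    split_ifs
    · rw [inv_inv]
    · rfl)

theorem stein_tor_zero (χ : Multiplicative (Fin 2 → ℤ) →* G) :
    steinTor χ ![0, 0] = objPt ⟨1⟩ :=
  rep_injective (by
    rw [stein_rep_tor, rep_vertex]
    refine stein_ext fun a => ?_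
    show χ (cbv ((cube ![0, 0]).obj a)) = 1
    rw [← map_one χ]
    refine congrArg (fun n => χ (Multiplicative.ofAdd n)) (funext fun j => ?_)
    show ((thrFun (![0, 0] j) a : ℕ) : ℤ) = 0
    fin_cases j <;> simp [thrFun_zero])

theorem stein_upd0 (s t : I) : update ![s, t] 0 = fun r => ![r, t] := by
  funext r j
  fin_cases j <;> simp

theorem stein_upd1 (s t : I) : update ![s, t] 1 = fun r => ![s, r] := by
  funext r j
  fin_cases j <;> simp

variable {R : Type} [CommRing R] (Z : QP R) [Subsingleton Z.M]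
  {ι : Type} [Fintype ι] [DecidableEq ι] {V : QP R} (lin : G →* Au V) (a : ι → Rˣ)

omit [DecidableEq ι] in
theorem stein_comm (e : Au V) (n : Multiplicative (ι → ℤ)) : scal V a n * e = e * scal V a n :=
  LinearEquiv.ext fun x => (map_smul e (unitsHom a n : R) x).symm

omit [DecidableEq ι] in
theorem stein_mul (g g' : G) (m n : Multiplicative (ι → ℤ)) : lin (g * g') * scal V a (m * n) =
    lin g * scal V a m * (lin g' * scal V a n) := by
  rw [map_mul, map_mul, mul_assoc, mul_assoc, ← mul_assoc (scal V a m), stein_comm a (lin g') m,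
    mul_assoc]

/-- the universal representation -/
def steinK : Codiscrete G × BZ ι ⥤ SingleObj (Au V) where
  obj _ := ()
  map {x y} f := lin (y.1.as * x.1.as⁻¹) * scal V a f.2
  map_id x := by
    show lin (x.1.as * x.1.as⁻¹) * scal V a 1 = 1
    rw [mul_inv_cancel, map_one, map_one, mul_one]
  map_comp {x y z} f g := by
    refine Eq.trans ?_ (stein_mul lin a (z.1.as * y.1.as⁻¹) (y.1.as * x.1.as⁻¹) g.2 f.2)
    rw [mul_assoc z.1.as, inv_mul_cancel_left]
    rfl

omit [DecidableEq ι] in
theorem stein_phi_cont : Continuous fun p : I × (BC (Codiscrete G) × (ι → I)) =>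
    Lam Z V p.1 ((rep p.2.1).prod' (wz p.2.2) ⋙ steinK lin a) := by
  refine continuous_Lam Z V
    (fun w : BC (Codiscrete G) × (ι → I) => (rep w.1).prod' (wz w.2) ⋙ steinK lin a) fun K => ?_
  have h := (((fam_thr.comp (continuous_fst (Y := ι → I))).prod'
    ((fam_wz ι).comp continuous_snd)).continuous_prod (D := Codiscrete G)
      ((CategoryTheory.Prod.snd _ _ ⋙ CategoryTheory.Prod.fst _ _).prod'
        ((CategoryTheory.Prod.fst _ _).prod'
          (CategoryTheory.Prod.snd _ _ ⋙ CategoryTheory.Prod.snd _ _) ⋙ steinK lin a) ⋙ K)).comp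
    (f := fun p : I × (BC (Codiscrete G) × (ι → I)) => (p.2.1, p.1, p.2.2)) (by fun_prop)
  exact h

/-- the family of loops -/
noncomputable def steinPhi : C(BC (Codiscrete G), Lp ι (objPt Z)) where
  toFun e := ⟨⟨fun p => Lam Z V p.1 ((rep e).prod' (wz p.2) ⋙ steinK lin a),
    (stein_phi_cont Z lin a).comp
      (f := fun p : I × (ι → I) => (p.1, e, p.2)) (by fun_prop)⟩,
    fun _ => Lam_zero Z V _, fun _ => Lam_one Z V _,
    fun s y i => congrArg (fun K => Lam Z V s ((rep e).prod' K ⋙ steinK lin a)) (wz_per y i)⟩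
  continuous_toFun := Lp.continuous_mk _ ((stein_phi_cont Z lin a).comp
    (f := fun p : BC (Codiscrete G) × (I × (ι → I)) => (p.2.1, p.1, p.2.2)) (by fun_prop))

theorem stein_phi_apply (e : BC (Codiscrete G)) (s : I) (y : ι → I) :
    (steinPhi Z lin a e).1 (s, y) = Lam Z V s ((rep e).prod' (wz y) ⋙ steinK lin a) := rfl

theorem stein_phi_act (g : G) (e : BC (Codiscrete G)) :
    steinPhi Z lin a (steinAct g e) = steinPhi Z lin a e :=
  Lp.ext fun s y => by
    rw [stein_phi_apply, stein_phi_apply, steinAct, rep_BMap]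
    refine congrArg (Lam Z V s) (singleObj_ext fun b c f => ?_)
    show lin (((rep e).obj c).as * g⁻¹ * (((rep e).obj b).as * g⁻¹)⁻¹) * _ =
      lin (((rep e).obj c).as * (((rep e).obj b).as)⁻¹) * _
    rw [mul_inv_rev, inv_inv, mul_assoc, inv_mul_cancel_left]
    rfl

/-- first coordinates -/
def steinL (ι : Type) : Multiplicative (Fin 2 ⊕ ι → ℤ) →* Multiplicative (Fin 2 → ℤ) :=
  reHom fun i => some (Sum.inl i)

/-- last coordinates -/
def steinR (ι : Type) : Multiplicative (Fin 2 ⊕ ι → ℤ) →* Multiplicative (ι → ℤ) :=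
  reHom fun i => some (Sum.inr i)

/-- the representation attached to a pair of commuting elements -/
def steinRho (χ : Multiplicative (Fin 2 → ℤ) →* G) : Multiplicative (Fin 2 ⊕ ι → ℤ) →* Au V :=
  MonoidHom.mk' (fun n => lin (χ (steinL ι n)) * scal V a (steinR ι n)) fun m n => by
    rw [map_mul (steinL ι), map_mul (steinR ι), map_mul χ, stein_mul]

theorem stein_phi_tor (χ : Multiplicative (Fin 2 → ℤ) →* G) (w : Fin 2 → I) (s : I) (y : ι → I) :
    (steinPhi Z lin a (steinTor χ w)).1 (s, y) =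
      (lam Z V (steinRho lin a χ)).1 (s, Sum.elim w y) := by
  rw [stein_phi_apply, lam_apply, stein_rep_tor]
  refine congrArg (Lam Z V s) (singleObj_ext fun b c f => ?_)
  show lin (χ (cbv ((cube w).obj c)) * (χ (cbv ((cube w).obj b)))⁻¹) * _ =
    lin (χ (cbv ((cube w).obj c) * (cbv ((cube w).obj b))⁻¹)) * _
  rw [map_mul χ, map_inv χ]
  rfl

theorem stein_main : ∃ (H : Type 1) (_ : Group H) (p : H →* G),
    (∀ z, p z = 1 → ∀ g, Commute z g) ∧
    (∀ χ : Multiplicative (Fin 2 → ℤ) →* G,
      cls (lam Z V (steinRho lin a χ)) = cls (lam Z V (steinRho lin a 1)) →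
        ∃ z, p z = χ (steinB 0)) ∧
    ∀ (χ : Multiplicative (Fin 2 → ℤ) →* G) (z z' : H), Commute z z' → p z = χ (steinB 0) →
      p z' = χ (steinB 1) →
      cls (lam Z V (steinRho lin a χ)) = cls (lam Z V (steinRho lin a 1)) := by
  obtain ⟨H, _, p, hc, hl, ht⟩ := exists_central_ext (G := G) steinAct stein_act_one stein_act_mul
    (steinPhi Z lin a) (stein_phi_act Z lin a) (objPt ⟨1⟩)
    ⟨fun q => steinLine 1 q.1 ![0, 0] q.2, (stein_line_cont 1).comp
      (f := fun q : BC (Codiscrete G) × I => (q.1, ![0, 0], q.2)) (by fun_prop)⟩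
    (fun e => (stein_line_zero _ _ _).trans (stein_tor_one _)) (fun e => stein_line_one _ _ _)
    fun t => rep_injective (stein_ext fun b => by
      show ((rep (steinLine 1 _ _ _)).obj b).as = _
      rw [stein_rep_line, rep_vertex]
      exact ite_self _)
  have h0 : ∀ w s y, (steinPhi Z lin a (objPt ⟨1⟩)).1 (s, y) =
      (lam Z V (steinRho lin a 1)).1 (s, Sum.elim w y) := fun w s y => by
    rw [← stein_phi_tor, stein_tor_one]
  refine ⟨H, inferInstance, p, hc, fun χ h => ?_, fun χ z z' hz h1 h2 => ?_⟩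
  · obtain ⟨K, k1, k2, k3⟩ := exists_of_joined_sum (cls_eq_iff.1 h)
    have hcont : Continuous fun t : I => steinTor χ ![t, 0] := by
      refine (((fam_cube (Fin 2)).comp (continuous_pi fun j => ?_)).whisker _).continuous_pt
      fin_cases j
      · exact continuous_id
      · exact continuous_const
    obtain ⟨z, hz⟩ := hl (χ (steinB 0))⁻¹ ⟨fun t => steinTor χ ![t, 0], hcont⟩ K
      (stein_tor_zero χ) (by
        have e := stein_line_act χ (objPt ⟨1⟩) ![0, 0] 0 0
        rw [stein_line_zero, stein_line_zero, stein_upd0] at e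
        exact e.trans (congrArg _ (stein_tor_zero χ)))
      (fun t => Lp.ext fun s y => (k2 t s y).trans (stein_phi_tor Z lin a χ _ s y).symm)
      (fun t => Lp.ext fun s y => (k3 t s y).trans (h0 _ s y).symm) k1
    exact ⟨z⁻¹, by rw [map_inv, hz, inv_inv]⟩
  · obtain ⟨τ, K, t1, t2, k1, k2, k3, k4⟩ := ht z⁻¹ z'⁻¹ hz.inv_inv
    rw [map_inv, h1] at t1
    rw [map_inv, h2] at t2
    have hcont : Continuous fun q : I × I × I => steinLine χ (τ q.2) ![q.2.1, q.2.2] q.1 := by
      refine (stein_line_cont χ).comp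
        (f := fun q : I × I × I => (τ q.2, ![q.2.1, q.2.2], q.1)) ?_
      refine (τ.continuous.comp continuous_snd).prodMk
        ((continuous_pi fun j => ?_).prodMk continuous_fst)
      fin_cases j
      · exact continuous_snd.fst
      · exact continuous_snd.snd
    let L : I × I × I → Lp ι (objPt Z) := fun q =>
      steinPhi Z lin a (steinLine χ (τ q.2) ![q.2.1, q.2.2] q.1)
    have hL : Continuous L := (steinPhi Z lin a).continuous.comp hcont
    have l1 : ∀ r t, L (r, 0, t) = L (r, 1, t) := fun r t => by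
      have e := stein_line_act χ (τ (0, t)) ![0, t] 0 r
      rw [stein_upd0, ← t1] at e
      exact ((congrArg (steinPhi Z lin a) e).trans (stein_phi_act Z lin a _ _)).symm
    have l2 : ∀ r t, L (r, t, 0) = L (r, t, 1) := fun r t => by
      have e := stein_line_act χ (τ (t, 0)) ![t, 0] 1 r
      rw [stein_upd1, ← t2] at e
      exact ((congrArg (steinPhi Z lin a) e).trans (stein_phi_act Z lin a _ _)).symm
    obtain ⟨M, m0, m1, m2⟩ := stein_glue ⟨L, hL⟩ K fun w =>
      (congrArg (steinPhi Z lin a) (stein_line_one _ _ _)).trans (k1 _ _).symm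
    refine cls_eq_iff.2 (joined_sum_of M (fun r t => m2 _ _ (l1 · t) (k3 · t) r)
      (fun r t => m2 _ _ (l2 · t) (k4 · t) r) (fun t t' s y => ?_) fun t t' s y => ?_)
    · rw [m0, ← stein_phi_tor]
      exact congrArg (fun e => (steinPhi Z lin a e).1 (s, y)) (stein_line_zero _ _ _)
    · rw [m1, k2]
      exact h0 _ s y

end Gen

theorem stein_units_sum {R : Type} [CommRing R] {ι : Type} [Fintype ι] (b : Fin 2 → Rˣ)
    (a : ι → Rˣ) (n : Multiplicative (Fin 2 ⊕ ι → ℤ)) :
    unitsHom (Sum.elim b a) n = unitsHom b (steinL ι n) * unitsHom a (steinR ι n) :=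
  Fintype.prod_sum_type _

theorem stein_re {R : Type} [CommRing R] (Z : QP R) [Subsingleton Z.M] (a : Fin 3 → Rˣ)
    (p q : Fin 3) (u v : Rˣ) :
    Gam.re (Sum.elim ![some p, some q] some) (Sy Z (Sum.elim ![u, v] a)) =
      Sy Z (a * Pi.mulSingle p u * Pi.mulSingle q v) := by
  rw [Sy, Gam.re_cls, lam_re, Sy]
  refine congrArg (fun ρ => cls (lam Z _ ρ)) (MonoidHom.ext fun n => congrArg (smulHom _) ?_)
  have h : ∀ (r : Fin 3) (w : Rˣ), ∏ i, (Pi.mulSingle r w : Fin 3 → Rˣ) i ^ n.toAdd i =
      w ^ n.toAdd r := fun r w => by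
    rw [Finset.prod_eq_single r (fun i _ hi => by rw [Pi.mulSingle_eq_of_ne hi, one_zpow])
      (fun h => absurd (Finset.mem_univ r) h), Pi.mulSingle_eq_same]
  refine (stein_units_sum _ _ _).trans ?_
  show (∏ i : Fin 2, _) * (∏ i, a i ^ n.toAdd i) =
    ∏ i, (a i * (Pi.mulSingle p u : Fin 3 → Rˣ) i * (Pi.mulSingle q v : Fin 3 → Rˣ) i) ^ n.toAdd i
  simp only [mul_zpow, Finset.prod_mul_distrib, h, Fin.prod_univ_two]
  rw [mul_comm, mul_assoc]
  rfl

variable {F : Type} [Field F] [CharZero F] (Z : QP F) [Subsingleton Z.M]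

/-- the plane -/
def steinV (F : Type) [Field F] : QP F := ⟨Fin 2 → F⟩

/-- the standard representation -/
noncomputable def steinLin (F : Type) [Field F] :
    Matrix.SpecialLinearGroup (Fin 2) F →* Au (steinV F) := Matrix.SpecialLinearGroup.toLin'

omit [CharZero F] in
theorem stein_ses {i k : Fin 2} (h : i ≠ k) : IsSES (U := rk1 F) (V := steinV F) (W := rk1 F)
    (LinearMap.single F (fun _ : Fin 2 => F) i) (LinearMap.proj (φ := fun _ : Fin 2 => F) k) := by
  refine ⟨Pi.single_injective (M := fun _ : Fin 2 => F) i,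
    fun x => ⟨fun _ => x, rfl⟩, ?_⟩
  show LinearMap.range (LinearMap.single F (fun _ : Fin 2 => F) i) =
    LinearMap.ker (LinearMap.proj (φ := fun _ : Fin 2 => F) k)
  ext x
  simp only [LinearMap.mem_range, LinearMap.mem_ker, LinearMap.coe_single, LinearMap.coe_proj,
    Function.eval]
  constructor
  · rintro ⟨y, rfl⟩
    exact Pi.single_eq_of_ne h.symm _
  · refine fun hx => ⟨x i, funext fun j => ?_⟩
    fin_cases i <;> fin_cases k <;> fin_cases j <;> simp_all

omit [CharZero F] in
theorem stein_tri (a : Fin 3 → Fˣ) {i k : Fin 2} (h : i ≠ k)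
    (χ : Multiplicative (Fin 2 → ℤ) →* Matrix.SpecialLinearGroup (Fin 2) F) (b c : Fin 2 → Fˣ)
    (h1 : ∀ n, SL2m (χ n) i i = unitsHom b n) (h2 : ∀ n, SL2m (χ n) k i = 0)
    (h3 : ∀ n, SL2m (χ n) k k = unitsHom c n) :
    cls (lam Z (steinV F) (steinRho (steinLin F) a χ)) =
      Sy Z (Sum.elim c a) * Sy Z (Sum.elim b a) := by
  refine lam_add Z (stein_ses h) _ _ _ (fun n x => ?_) fun n x => ?_
  · revert x
    show ∀ x : F, (Pi.single i ((unitsHom (Sum.elim b a) n : F) * x) : Fin 2 → F) =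
      (SL2m (χ (steinL _ n))).mulVec ((unitsHom a (steinR _ n) : F) • Pi.single i x)
    intro x
    rw [stein_units_sum, Units.val_mul, ← h1]
    have h4 := h2 (steinL _ n)
    funext j
    fin_cases i <;> fin_cases k <;> fin_cases j <;>
      simp_all [Matrix.mulVec, dotProduct, mul_assoc]
  · revert x
    show ∀ x : Fin 2 → F, (SL2m (χ (steinL _ n))).mulVec ((unitsHom a (steinR _ n) : F) • x) k =
      (unitsHom (Sum.elim c a) n : F) * x k
    intro x
    rw [stein_units_sum, Units.val_mul, ← h3]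
    have h4 := h2 (steinL _ n)
    fin_cases i <;> fin_cases k <;> simp_all [Matrix.mulVec, dotProduct, mul_assoc]

omit [CharZero F] in
theorem stein_units_one (n : Multiplicative (Fin 2 → ℤ)) : unitsHom (1 : Fin 2 → Fˣ) n = 1 := by
  simp [unitsHom]

/-- the diagonal torus -/
def steinD (F : Type) [Field F] : Fˣ →* Matrix.SpecialLinearGroup (Fin 2) F :=
  MonoidHom.mk' hD fun u v => SL2m_inj (by simp [SL2m_mul, SL2m_D, mul_comm])

theorem stein_core (a : Fin 3 → Fˣ) (u v : Fˣ) (h : v = 1 ∨ (u : F) + v = 1) :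
    Sy Z (Sum.elim ![u, v] a) * Sy Z (Sum.elim ![u⁻¹, v⁻¹] a) = Sy Z (Sum.elim ![1, 1] a) ^ 2 := by
  obtain ⟨H, _, p, hc, hl, ht⟩ := stein_main Z (steinLin F) a
  have e1 : cls (lam Z (steinV F) (steinRho (steinLin F) a 1)) =
      Sy Z (Sum.elim 1 a) * Sy Z (Sum.elim 1 a) :=
    stein_tri Z a (i := 0) (k := 1) (by decide) 1 1 1 (fun n => by simp [stein_units_one, SL2m_one])
      (fun n => by simp [SL2m_one]) fun n => by simp [stein_units_one, SL2m_one]
  obtain ⟨l1, l2⟩ := sl2_lifts p hc (fun t => by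
    obtain ⟨z, hz⟩ := hl (MonoidHom.mk' (fun n => xU ((n.toAdd 0 : F) * t)) fun m n => by
      rw [SL2_UU, toAdd_mul, Pi.add_apply, Int.cast_add, add_mul])
      ((stein_tri Z a (i := 0) (k := 1) (by decide) _ 1 1
        (fun n => by simp [stein_units_one, SL2m_U]) (fun n => by simp [SL2m_U])
        fun n => by simp [stein_units_one, SL2m_U]).trans e1.symm)
    exact ⟨z, hz.trans (by simp [steinB])⟩) fun t => by
    obtain ⟨z, hz⟩ := hl (MonoidHom.mk' (fun n => xL ((n.toAdd 0 : F) * t)) fun m n => by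
      rw [SL2_LL, toAdd_mul, Pi.add_apply, Int.cast_add, add_mul])
      ((stein_tri Z a (i := 1) (k := 0) (by decide) _ 1 1
        (fun n => by simp [stein_units_one, SL2m_L]) (fun n => by simp [SL2m_L])
        fun n => by simp [stein_units_one, SL2m_L]).trans e1.symm)
    exact ⟨z, hz.trans (by simp [steinB])⟩
  obtain ⟨z, z', h1, h2, hz⟩ : ∃ g g', p g = hD u ∧ p g' = hD v ∧ Commute g g' := by
    rcases h with rfl | h
    · obtain ⟨g, hg⟩ := l1 u
      exact ⟨g, 1, hg, (map_one p).trans (map_one (steinD F)).symm, Commute.one_right g⟩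
    · exact l2 u v h
  have e2 := ht ((steinD F).comp (unitsHom ![u, v])) z z' hz
    (h1.trans (congrArg hD (by simp [unitsHom, steinB])))
    (h2.trans (congrArg hD (by simp [unitsHom, steinB])))
  have e3 := stein_tri Z a (i := 1) (k := 0) (by decide) ((steinD F).comp (unitsHom ![u, v]))
    ![u⁻¹, v⁻¹] ![u, v] (fun n => by simp [steinD, SL2m_D, unitsHom, mul_comm])
    (fun n => by simp [steinD, SL2m_D]) fun n => by simp [steinD, SL2m_D]
  have e4 : (![1, 1] : Fin 2 → Fˣ) = 1 := by
    funext j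
    fin_cases j <;> rfl
  rw [← e3, e2, e1, e4, sq]

theorem stein_fin (a : Fin 3 → Fˣ) (p q : Fin 3) (u v : Fˣ) (h : v = 1 ∨ (u : F) + v = 1) :
    Sy Z (a * Pi.mulSingle p u * Pi.mulSingle q v) *
      Sy Z (a * Pi.mulSingle p u⁻¹ * Pi.mulSingle q v⁻¹) = Sy Z a ^ 2 := by
  have e := congrArg (Gam.re (Sum.elim ![some p, some q] some)) (stein_core Z a u v h)
  rwa [map_mul, map_pow, stein_re, stein_re, stein_re, Pi.mulSingle_one, Pi.mulSingle_one,
    mul_one, mul_one] at e

theorem Sy_jensen (a : Fin 3 → Fˣ) (p : Fin 3) (u : Fˣ) :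
    Sy Z (a * Pi.mulSingle p u) * Sy Z (a * Pi.mulSingle p u⁻¹) = Sy Z a ^ 2 := by
  have e := stein_fin Z a p p u 1 (Or.inl rfl)
  rwa [inv_one, Pi.mulSingle_one, mul_one, mul_one] at e

theorem Sy_steinberg (a : Fin 3 → Fˣ) (p q : Fin 3) (u v : Fˣ) (h : (u : F) + v = 1) :
    Sy Z (a * Pi.mulSingle p u * Pi.mulSingle q v) *
      Sy Z (a * Pi.mulSingle p u⁻¹ * Pi.mulSingle q v⁻¹) = Sy Z a ^ 2 := by
  exact stein_fin Z a p q u v (Or.inr h)

end Vale.Agent.P178
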