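import Vale.Agent.P178.Eval
import Vale.Agent.P178.Stein
import Vale.Agent.P178.Milnor
import Vale.Agent.P178.Ring

/-! P178: assembly. -/

namespace Vale.Agent.P178

open CategoryTheory Filter

theorem not_injective_Kmap : ∃ (A : Type) (_ : CommRing A) (_ : IsDomain A)
    (_ : IsRegularLocalRing A), ∀ Z : QP A, Subsingleton Z.M →
      ¬ Function.Injective (Kmap 3 A (FractionRing A) Z) := by
  obtain ⟨A, _, _, _, _, B, _, π, D, a, b, v, hD, e0, e1, e2, hv, hne⟩ := exists_ring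
  refine ⟨A, inferInstance, inferInstance, inferInstance, fun Z hZ hinj => ?_⟩
  set F := FractionRing A
  have : CharZero F := charZero_of_injective_algebraMap (IsFractionRing.injective A F)
  obtain ⟨c, hc⟩ := exists_cocSpec π D hD Z
  obtain ⟨φ, hφ⟩ := exists_det c hc.coc Z (hc.zero _ _ _ _ fun y => ⟨y, by simp [QP.mem_id]⟩)
  have hD1 : ∀ k, D k 1 = 0 := fun k => by
    have := hD k 1 1
    simpa using this
  have hS : ∀ w : Fin 3 → Aˣ, (∀ d, w d = v d ∨ w d = 1) → φ (Sy Z w) = Multiplicative.ofAdd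
      (Germ.const (dlog π (D 0) (w 0) * dlog π (D 1) (w 1) * dlog π (D 2) (w 2))) := by
    intro w hw
    refine hφ _ _ (hG_lam hD Z hc w fun k d hkd => ?_)
    rcases hw d with h | h
    · rw [h]; exact hv k d hkd
    · rw [h]; exact hD1 k
  have h1 : Tr (Sy Z) v ^ 4 ≠ 1 := by
    intro h
    have h2 := congrArg φ h
    rw [map_pow, map_one, map_Tr, Tr_eval, hS v fun _ => Or.inl rfl] at h2
    · have h3 : (4 : ℕ) • (Germ.const (dlog π (D 0) (v 0) * dlog π (D 1) (v 1) *
          dlog π (D 2) (v 2)) : Germ (atTop : Filter ℕ) B) = 0 := h2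
      have h4 : (4 : ℕ) • (dlog π (D 0) (v 0) * dlog π (D 1) (v 1) * dlog π (D 2) (v 2)) = 0 :=
        Germ.const_inj.1 h3
      apply hne
      have h5 : ∀ d, π (v d) * π ((v d)⁻¹ : Aˣ) = 1 := fun d => by
        rw [← map_mul, Units.mul_inv, map_one]
      simp only [dlog, nsmul_eq_mul, Nat.cast_ofNat] at h4
      linear_combination π (v 0) * π (v 1) * π (v 2) * h4 -
        4 * (D 0 (v 0) * D 1 (v 1) * D 2 (v 2)) * (h5 0 * (π (v 1) * π ((v 1)⁻¹ : Aˣ)) *
          (π (v 2) * π ((v 2)⁻¹ : Aˣ)) + h5 1 * (π (v 2) * π ((v 2)⁻¹ : Aˣ)) + h5 2)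
    · rintro w hw ⟨d, hd⟩
      rw [hS w hw]
      have : dlog π (D d) (w d) = 0 := by simp [dlog, hd, hD1]
      fin_cases d <;> simp_all <;> rfl
  have h2 : Gam.map (BMap (QP.bc A F)) (BMap_vertex _ Z) (Tr (Sy Z) v ^ 4) = 1 := by
    rw [map_pow, map_Tr]
    simp only [Sy_map]
    rw [Tr_comp (Units.map (algebraMap A F : A →* F)) (map_one _)]
    refine Tr_eq_one _ (Sy_commute _) (Sy_jensen _) (Sy_steinberg _) (algebraMap A F a)
      (algebraMap A F b) _ ?_ ?_ ?_
    · simpa using congrArg (algebraMap A F) e0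
    · simpa using congrArg (algebraMap A F) e1
    · simpa using congrArg (algebraMap A F) e2
  have h3 : ∀ i, Gam.re (kill i) (Tr (Sy Z) v ^ 4) = 1 := fun i => by
    rw [map_pow, map_Tr]
    simp only [Sy_kill]
    rw [Tr_kill, one_pow]
  obtain ⟨g, hg, hg'⟩ := exists_genLoop _ _ _ h3 h1 h2
  exact hg (Quotient.exact (hinj (a₁ := Quotient.mk _ g) (a₂ := Quotient.mk _ GenLoop.const)
    (Quotient.sound hg')))

end Vale.Agent.P178
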