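import Vale.Agent.P178.Rel

/-! P178: presentations of Q-morphisms by split data. -/

namespace Vale.Agent.P178

open TensorProduct

variable {R : Type} [CommRing R] {X Y Z : Type} [AddCommGroup X] [Module R X]
  [AddCommGroup Y] [Module R Y] [AddCommGroup Z] [Module R Z]

theorem mem_relComp {Γ : Submodule R (X × Y)} {Γ' : Submodule R (Y × Z)} {x : X} {z : Z} :
    (x, z) ∈ relComp Γ Γ' ↔ ∃ y, (x, y) ∈ Γ ∧ (y, z) ∈ Γ' := Iff.rfl

/-- split presentation of a relation -/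
structure Pres (Γ : Submodule R (X × Y)) (r : Y →ₗ[R] Y) (a : Y →ₗ[R] X) (s : X →ₗ[R] Y) :
    Prop where
  rr : ∀ y, r (r y) = r y
  rs : ∀ x, r (s x) = s x
  as : ∀ x, a (s x) = x
  ar : ∀ y, a (r y) = a y
  mem : ∀ x y, (x, y) ∈ Γ ↔ r y = y ∧ a y = x

theorem Pres.isQ [Module.Projective R Y] {Γ : Submodule R (X × Y)} {r : Y →ₗ[R] Y}
    {a : Y →ₗ[R] X} {s : X →ₗ[R] Y} (h : Pres Γ r a s) : IsQ Γ := by
  refine ⟨fun x => ⟨s x, (h.mem _ _).2 ⟨h.rs x, h.as x⟩⟩, fun x hx => ?_, ?_⟩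
  · rw [← ((h.mem _ _).1 hx).2, map_zero]
  · have hk : Γ.map (LinearMap.snd R X Y) ≤ LinearMap.ker (LinearMap.id - r) := by
      rintro _ ⟨⟨x, y⟩, hp, rfl⟩
      simp [((h.mem _ _).1 hp).1]
    refine Module.Projective.of_split (M := Y) ((Γ.map (LinearMap.snd R X Y)).liftQ _ hk)
      (Submodule.mkQ _) ?_
    ext y
    simp only [LinearMap.coe_comp, Function.comp_apply, Submodule.mkQ_apply,
      Submodule.liftQ_apply, LinearMap.sub_apply, LinearMap.id_coe, id_eq]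
    rw [Submodule.Quotient.eq]
    refine ⟨(-a y, -r y), Γ.neg_mem ((h.mem _ _).2 ⟨h.rr y, h.ar y⟩), by simp⟩

theorem IsQ.exists_pres [Module.Projective R X] {Γ : Submodule R (X × Y)} (h : IsQ Γ) :
    ∃ r a s, Pres Γ r a s := by
  obtain ⟨h1, h2, h3⟩ := h
  set E := Γ.map (LinearMap.snd R X Y) with hE
  obtain ⟨σ, hσ⟩ := Module.projective_lifting_property E.mkQ LinearMap.id E.mkQ_surjective
  have hσ' : ∀ c, E.mkQ (σ c) = c := fun c => LinearMap.congr_fun hσ c
  set r : Y →ₗ[R] Y := LinearMap.id - σ ∘ₗ E.mkQ with hr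
  have hrE : ∀ y, r y ∈ E := fun y => by
    rw [← Submodule.Quotient.mk_eq_zero, ← Submodule.mkQ_apply, hr, LinearMap.sub_apply, map_sub,
      LinearMap.comp_apply, hσ', LinearMap.id_apply, sub_self]
  have hfix : ∀ y ∈ E, r y = y := fun y hy => by
    have : E.mkQ y = 0 := by simpa using hy
    simp [hr, this]
  let φ : Γ →ₗ[R] E := (LinearMap.snd R X Y).restrict (fun p hp => ⟨p, hp, rfl⟩)
  have hφ : Function.Bijective φ := by
    constructor
    · rw [← LinearMap.ker_eq_bot, LinearMap.ker_eq_bot']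
      rintro ⟨⟨x, y⟩, hp⟩ h0
      have hy : y = 0 := congrArg Subtype.val h0
      subst hy
      exact Subtype.ext (Prod.ext (h2 x hp) rfl)
    · rintro ⟨_, ⟨p, hp, rfl⟩⟩
      exact ⟨⟨p, hp⟩, rfl⟩
  let e := LinearEquiv.ofBijective φ hφ
  let a : Y →ₗ[R] X := (LinearMap.fst R X Y) ∘ₗ Γ.subtype ∘ₗ e.symm.toLinearMap ∘ₗ
    r.codRestrict E hrE
  have ha : ∀ x y, (x, y) ∈ Γ → a y = x := fun x y hp => by
    have : r.codRestrict E hrE y = e ⟨(x, y), hp⟩ :=
      Subtype.ext (hfix y ⟨(x, y), hp, rfl⟩)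
    simp [a, this]
  obtain ⟨l, hl⟩ := Module.projective_lifting_property ((LinearMap.fst R X Y) ∘ₗ Γ.subtype)
    LinearMap.id (fun x => by obtain ⟨y, hy⟩ := h1 x; exact ⟨⟨(x, y), hy⟩, rfl⟩)
  have hl' : ∀ x, (l x).1.1 = x := fun x => LinearMap.congr_fun hl x
  have hs : ∀ x, (x, (l x).1.2) ∈ Γ := fun x => by
    have := (l x).2
    rwa [show (l x).1 = (x, (l x).1.2) from Prod.ext (hl' x) rfl] at this
  refine ⟨r, a, (LinearMap.snd R X Y) ∘ₗ Γ.subtype ∘ₗ l, fun y => hfix _ (hrE y),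
    fun x => hfix _ ⟨_, hs x, rfl⟩, fun x => ha _ _ (hs x), fun y => ?_, fun x y => ⟨fun hp =>
      ⟨hfix y ⟨_, hp, rfl⟩, ha x y hp⟩, ?_⟩⟩
  · have : r.codRestrict E hrE (r y) = r.codRestrict E hrE y := Subtype.ext (hfix _ (hrE y))
    simp [a, this]
  · rintro ⟨h4, rfl⟩
    obtain ⟨⟨x, y'⟩, hp, hy⟩ := h4 ▸ hrE y
    have : y' = y := hy
    subst this
    rw [ha x y' hp]; exact hp

theorem Pres.comp {Γ : Submodule R (X × Y)} {r : Y →ₗ[R] Y} {a : Y →ₗ[R] X} {s : X →ₗ[R] Y}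
    (h : Pres Γ r a s) {Γ' : Submodule R (Y × Z)} {r' : Z →ₗ[R] Z} {a' : Z →ₗ[R] Y}
    {s' : Y →ₗ[R] Z} (h' : Pres Γ' r' a' s') :
    Pres (relComp Γ Γ') (r' - s' ∘ₗ (LinearMap.id - r) ∘ₗ a') (a ∘ₗ a') (s' ∘ₗ s) := by
  refine ⟨fun z => ?_, fun x => ?_, fun x => ?_, fun z => ?_, fun x z => ?_⟩
  · simp [h.rr, h'.rr, h'.rs, h'.as, h'.ar]
  · simp [h.rs, h'.rs, h'.as]
  · simp [h.as, h'.as]
  · simp [h.ar, h'.as, h'.ar]
  · simp only [mem_relComp, h.mem, h'.mem, LinearMap.sub_apply, LinearMap.comp_apply,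
      LinearMap.id_apply]
    constructor
    · rintro ⟨y, ⟨h1, h2⟩, h3, h4⟩
      simp [h1, h2, h3, h4]
    · rintro ⟨h1, h2⟩
      have h3 : s' (a' z - r (a' z)) = 0 := by
        have := congrArg r' h1
        rwa [map_sub, h'.rr, h'.rs, sub_eq_self] at this
      have h4 : a' z - r (a' z) = 0 := by rw [← h'.as (a' z - r (a' z)), h3, map_zero]
      rw [h3, sub_zero] at h1
      exact ⟨a' z, ⟨(sub_eq_zero.1 h4).symm, h2⟩, h1, rfl⟩

theorem Pres.bc (S : Type) [CommRing S] [Algebra R S] {Γ : Submodule R (X × Y)} {r : Y →ₗ[R] Y}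
    {a : Y →ₗ[R] X} {s : X →ₗ[R] Y} (h : Pres Γ r a s) :
    Pres (relBC S Γ) (r.baseChange S) (a.baseChange S) (s.baseChange S) := by
  have e1 : ∀ y, r.baseChange S (r.baseChange S y) = r.baseChange S y := fun y => by
    induction y using TensorProduct.induction_on <;> simp_all [h.rr]
  have e4 : ∀ y, a.baseChange S (r.baseChange S y) = a.baseChange S y := fun y => by
    induction y using TensorProduct.induction_on <;> simp_all [h.ar]
  refine ⟨e1, fun x => ?_, fun x => ?_, e4, fun x y => ⟨fun hp => ?_, ?_⟩⟩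
  · induction x using TensorProduct.induction_on <;> simp_all [h.rs]
  · induction x using TensorProduct.induction_on <;> simp_all [h.as]
  · have : ∀ p ∈ relBC S Γ, r.baseChange S p.2 = p.2 ∧ a.baseChange S p.2 = p.1 := by
      intro p hp
      induction hp using Submodule.span_induction with
      | mem p hp =>
        obtain ⟨⟨x, y⟩, hq, rfl⟩ := hp
        simp [((h.mem _ _).1 hq).1, ((h.mem _ _).1 hq).2]
      | zero => simp
      | add p q _ _ hp hq => simp [hp.1, hp.2, hq.1, hq.2]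
      | smul c p _ hp => simp [hp.1, hp.2]
    exact this _ hp
  · rintro ⟨h1, rfl⟩
    have : ∀ y, (a.baseChange S y, r.baseChange S y) ∈ relBC S Γ := fun y => by
      induction y using TensorProduct.induction_on with
      | zero => rw [map_zero, map_zero]; exact (relBC S Γ).zero_mem
      | tmul c y =>
        have := (relBC S Γ).smul_mem c (Submodule.subset_span
          ⟨(a y, r y), (h.mem _ _).2 ⟨h.rr y, h.ar y⟩, rfl⟩)
        simpa [TensorProduct.smul_tmul'] using this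
      | add y y' hy hy' => simpa using (relBC S Γ).add_mem hy hy'
    simpa [h1] using this y

theorem Pres.ext {Γ Γ' : Submodule R (X × Y)} {r : Y →ₗ[R] Y} {a : Y →ₗ[R] X}
    {s s' : X →ₗ[R] Y} (h : Pres Γ r a s) (h' : Pres Γ' r a s') : Γ = Γ' := by
  ext ⟨x, y⟩
  rw [h.mem, h'.mem]

theorem pres_id : Pres (LinearMap.graph (LinearMap.id : X →ₗ[R] X)) LinearMap.id LinearMap.id
    LinearMap.id :=
  ⟨fun _ => rfl, fun _ => rfl, fun _ => rfl, fun _ => rfl, fun x y => by simp⟩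

theorem isQ_id [Module.Projective R X] : IsQ (LinearMap.graph (LinearMap.id : X →ₗ[R] X)) :=
  pres_id.isQ

theorem IsQ.comp [Module.Projective R X] [Module.Projective R Y] [Module.Projective R Z]
    {Γ : Submodule R (X × Y)} {Γ' : Submodule R (Y × Z)} (h : IsQ Γ) (h' : IsQ Γ') :
    IsQ (relComp Γ Γ') := by
  obtain ⟨r, a, s, hp⟩ := h.exists_pres
  obtain ⟨r', a', s', hp'⟩ := h'.exists_pres
  exact (hp.comp hp').isQ

theorem IsQ.bc (S : Type) [CommRing S] [Algebra R S] [Module.Projective R X]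
    [Module.Projective R Y] {Γ : Submodule R (X × Y)} (h : IsQ Γ) : IsQ (relBC S Γ) := by
  obtain ⟨r, a, s, hp⟩ := h.exists_pres
  exact (hp.bc S).isQ

theorem relComp_id_left (Γ : Submodule R (X × Y)) :
    relComp (LinearMap.graph (LinearMap.id : X →ₗ[R] X)) Γ = Γ := by
  ext ⟨x, y⟩
  simp [mem_relComp]

theorem relComp_id_right (Γ : Submodule R (X × Y)) :
    relComp Γ (LinearMap.graph (LinearMap.id : Y →ₗ[R] Y)) = Γ := by
  ext ⟨x, y⟩
  simp [mem_relComp]

theorem relComp_assoc {W : Type} [AddCommGroup W] [Module R W] (Γ : Submodule R (X × Y))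
    (Γ' : Submodule R (Y × Z)) (Γ'' : Submodule R (Z × W)) :
    relComp (relComp Γ Γ') Γ'' = relComp Γ (relComp Γ' Γ'') := by
  ext ⟨x, w⟩
  simp only [mem_relComp]
  exact ⟨fun ⟨z, ⟨y, h1, h2⟩, h3⟩ => ⟨y, h1, z, h2, h3⟩,
    fun ⟨y, h1, z, h2, h3⟩ => ⟨z, ⟨y, h1, h2⟩, h3⟩⟩

theorem relBC_id (S : Type) [CommRing S] [Algebra R S] :
    relBC S (LinearMap.graph (LinearMap.id : X →ₗ[R] X)) = LinearMap.graph LinearMap.id := by
  have := (pres_id (R := R) (X := X)).bc S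
  rw [LinearMap.baseChange_id] at this
  exact this.ext pres_id

theorem relBC_comp (S : Type) [CommRing S] [Algebra R S] [Module.Projective R X]
    [Module.Projective R Y] {Γ : Submodule R (X × Y)} {Γ' : Submodule R (Y × Z)} (h : IsQ Γ)
    (h' : IsQ Γ') : relBC S (relComp Γ Γ') = relComp (relBC S Γ) (relBC S Γ') := by
  obtain ⟨r, a, s, hp⟩ := h.exists_pres
  obtain ⟨r', a', s', hp'⟩ := h'.exists_pres
  have h1 := (hp.comp hp').bc S
  have h2 := (hp.bc S).comp (hp'.bc S)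
  rw [LinearMap.baseChange_sub, LinearMap.baseChange_comp, LinearMap.baseChange_comp,
    LinearMap.baseChange_sub, LinearMap.baseChange_id, LinearMap.baseChange_comp] at h1
  exact h1.ext h2

end Vale.Agent.P178
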