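import Vale.Agent.P178.Defs

/-! P178: special morphisms of the Q-construction. -/

namespace Vale.Agent.P178

open CategoryTheory

variable {R : Type} [CommRing R]

theorem QP.hom_ext {X Y : QP R} {f g : X ⟶ Y} (h : ∀ x y, (x, y) ∈ f.1 ↔ (x, y) ∈ g.1) : f = g :=
  Subtype.ext (Submodule.ext fun p => h p.1 p.2)

theorem QP.mem_comp {X Y Z : QP R} (f : X ⟶ Y) (g : Y ⟶ Z) (x : X.M) (z : Z.M) :
    (x, z) ∈ (f ≫ g).1 ↔ ∃ y, (x, y) ∈ f.1 ∧ (y, z) ∈ g.1 := Iff.rfl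

theorem QP.comp_val {X Y Z : QP R} (f : X ⟶ Y) (g : Y ⟶ Z) : (f ≫ g).1 = relComp f.1 g.1 := rfl

theorem QP.mem_id {X : QP R} (x y : X.M) : (x, y) ∈ (𝟙 X : X ⟶ X).1 ↔ y = x := Iff.rfl

theorem pres_bot (Z V : QP R) [Subsingleton Z.M] :
    Pres (⊥ : Submodule R (Z.M × V.M)) 0 0 0 :=
  ⟨fun _ => rfl, fun _ => rfl, fun _ => Subsingleton.elim _ _, fun _ => rfl, fun x y => by
    simp [Prod.ext_iff, eq_comm, and_comm]⟩

theorem pres_top (Z V : QP R) [Subsingleton Z.M] :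
    Pres (⊤ : Submodule R (Z.M × V.M)) LinearMap.id 0 0 :=
  ⟨fun _ => rfl, fun _ => rfl, fun _ => Subsingleton.elim _ _, fun _ => rfl, fun x y => by
    simp [Subsingleton.elim 0 x]⟩

theorem pres_graph {V W : QP R} (e : V.M ≃ₗ[R] W.M) :
    Pres (LinearMap.graph e.toLinearMap) LinearMap.id e.symm.toLinearMap e.toLinearMap :=
  ⟨fun _ => rfl, fun _ => rfl, fun x => e.symm_apply_apply x, fun _ => rfl, fun x y => by
    simp [LinearEquiv.symm_apply_eq]⟩

/-- the admissible monomorphism `0 ↣ V` -/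
def qI (Z V : QP R) [Subsingleton Z.M] : Z ⟶ V := ⟨⊥, (pres_bot Z V).isQ⟩

/-- the admissible epimorphism `V ↠ 0` -/
def qQ (Z V : QP R) [Subsingleton Z.M] : Z ⟶ V := ⟨⊤, (pres_top Z V).isQ⟩

/-- an isomorphism -/
def qG {V W : QP R} (e : V.M ≃ₗ[R] W.M) : V ⟶ W :=
  ⟨LinearMap.graph e.toLinearMap, (pres_graph e).isQ⟩

theorem mem_qI (Z V : QP R) [Subsingleton Z.M] (x : Z.M) (y : V.M) :
    (x, y) ∈ (qI Z V).1 ↔ y = 0 := by
  change (x, y) ∈ (⊥ : Submodule R (Z.M × V.M)) ↔ _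
  simp [Prod.ext_iff, Subsingleton.elim x 0]

theorem mem_qQ (Z V : QP R) [Subsingleton Z.M] (x : Z.M) (y : V.M) :
    (x, y) ∈ (qQ Z V).1 ↔ True := Iff.rfl

theorem mem_qG {V W : QP R} (e : V.M ≃ₗ[R] W.M) (x : V.M) (y : W.M) :
    (x, y) ∈ (qG e).1 ↔ y = e x := Iff.rfl

theorem qG_refl (V : QP R) : qG (LinearEquiv.refl R V.M) = 𝟙 V := rfl

theorem qG_comp {U V W : QP R} (e : U.M ≃ₗ[R] V.M) (e' : V.M ≃ₗ[R] W.M) :
    qG e ≫ qG e' = qG (e.trans e') :=
  QP.hom_ext fun x z => by simp [QP.mem_comp, mem_qG]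

theorem qI_qG (Z : QP R) [Subsingleton Z.M] {V W : QP R} (e : V.M ≃ₗ[R] W.M) :
    qI Z V ≫ qG e = qI Z W :=
  QP.hom_ext fun x z => by simp [QP.mem_comp, mem_qG, mem_qI]

theorem qQ_qG (Z : QP R) [Subsingleton Z.M] {V W : QP R} (e : V.M ≃ₗ[R] W.M) :
    qQ Z V ≫ qG e = qQ Z W :=
  QP.hom_ext fun x z => by
    simp only [QP.mem_comp, mem_qG, mem_qQ, true_and, iff_true]
    exact ⟨e.symm z, by simp⟩

/-- a short exact sequence -/
structure IsSES {U V W : QP R} (j : U.M →ₗ[R] V.M) (p : V.M →ₗ[R] W.M) : Prop where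
  inj : Function.Injective j
  surj : Function.Surjective p
  ex : LinearMap.range j = LinearMap.ker p

/-- the admissible monomorphism of a short exact sequence -/
def qMono {U V W : QP R} {j : U.M →ₗ[R] V.M} {p : V.M →ₗ[R] W.M} (h : IsSES j p) : U ⟶ V :=
  ⟨LinearMap.graph j, fun x => ⟨j x, rfl⟩, fun x hx => h.inj (by
    rw [map_zero]; exact Eq.symm hx), by
    have e : (LinearMap.graph j).map (LinearMap.snd R U.M V.M) = LinearMap.ker p := by
      rw [← h.ex]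
      ext y
      constructor
      · rintro ⟨⟨x, y'⟩, hp, rfl⟩
        exact ⟨x, Eq.symm hp⟩
      · rintro ⟨x, rfl⟩
        exact ⟨(x, j x), rfl, rfl⟩
    rw [e]
    exact Module.Projective.of_equiv (p.quotKerEquivOfSurjective h.surj).symm⟩

/-- the admissible epimorphism of a short exact sequence -/
def qEpi {U V W : QP R} {j : U.M →ₗ[R] V.M} {p : V.M →ₗ[R] W.M} (h : IsSES j p) : W ⟶ V :=
  ⟨(LinearMap.graph p).comap (LinearEquiv.prodComm R W.M V.M).toLinearMap,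
    fun x => by obtain ⟨y, rfl⟩ := h.surj x; exact ⟨y, rfl⟩,
    fun x hx => Eq.trans hx (map_zero p), by
    have e : ((LinearMap.graph p).comap (LinearEquiv.prodComm R W.M V.M).toLinearMap).map
        (LinearMap.snd R W.M V.M) = ⊤ := by
      rw [eq_top_iff]
      exact fun y _ => ⟨(p y, y), rfl, rfl⟩
    rw [e]
    infer_instance⟩

theorem mem_qMono {U V W : QP R} {j : U.M →ₗ[R] V.M} {p : V.M →ₗ[R] W.M} (h : IsSES j p)
    (x : U.M) (y : V.M) : (x, y) ∈ (qMono h).1 ↔ y = j x := Iff.rfl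

theorem mem_qEpi {U V W : QP R} {j : U.M →ₗ[R] V.M} {p : V.M →ₗ[R] W.M} (h : IsSES j p)
    (x : W.M) (y : V.M) : (x, y) ∈ (qEpi h).1 ↔ x = p y := Iff.rfl

section SES

variable (Z : QP R) [Subsingleton Z.M] {U V W : QP R} {j : U.M →ₗ[R] V.M} {p : V.M →ₗ[R] W.M}
  (h : IsSES j p)

theorem qI_qMono : qI Z U ≫ qMono h = qI Z V :=
  QP.hom_ext fun x z => by simp [QP.mem_comp, mem_qMono, mem_qI]

theorem qQ_qEpi : qQ Z W ≫ qEpi h = qQ Z V :=
  QP.hom_ext fun x z => by simp [QP.mem_comp, mem_qEpi, mem_qQ]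

theorem qI_qEpi : qI Z W ≫ qEpi h = qQ Z U ≫ qMono h :=
  QP.hom_ext fun x z => by
    simp only [QP.mem_comp, mem_qEpi, mem_qI, mem_qQ, mem_qMono, true_and, exists_eq_left]
    have := SetLike.ext_iff.1 h.ex z
    simp only [LinearMap.mem_range, LinearMap.mem_ker] at this
    rw [eq_comm, ← this]
    simp only [eq_comm]

theorem qG_qMono (e : U.M ≃ₗ[R] U.M) (e' : V.M ≃ₗ[R] V.M) (he : ∀ x, j (e x) = e' (j x)) :
    qG e ≫ qMono h = qMono h ≫ qG e' :=
  QP.hom_ext fun x z => by simp [QP.mem_comp, mem_qMono, mem_qG, he]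

theorem qG_qEpi (e : W.M ≃ₗ[R] W.M) (e' : V.M ≃ₗ[R] V.M) (he : ∀ x, p (e' x) = e (p x)) :
    qG e ≫ qEpi h = qEpi h ≫ qG e' :=
  QP.hom_ext fun x z => by
    simp only [QP.mem_comp, mem_qEpi, mem_qG, exists_eq_left]
    constructor
    · intro h1
      refine ⟨e'.symm z, e.injective ?_, by simp⟩
      rw [h1, ← he, LinearEquiv.apply_symm_apply]
    · rintro ⟨y, rfl, rfl⟩
      exact (he y).symm

end SES

/-- automorphism group of a module -/
abbrev Au (V : QP R) : Type := V.M ≃ₗ[R] V.M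

/-- the free module of rank one -/
def rk1 (R : Type) [CommRing R] : QP R := ⟨R⟩

/-- scalar automorphisms -/
def smulHom (V : QP R) : Rˣ →* Au V := DistribMulAction.toModuleAut R V.M

theorem smulHom_apply (V : QP R) (w : Rˣ) (x : V.M) : smulHom V w x = (w : R) • x := rfl

/-- multiplication by a unit on the free module of rank one -/
def sc (w : Rˣ) : rk1 R ⟶ rk1 R := qG (smulHom (rk1 R) w)

instance QP.bc_subsingleton (S : Type) [CommRing S] [Algebra R S] (Z : QP R) [Subsingleton Z.M] :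
    Subsingleton ((QP.bc R S).obj Z).M :=
  inferInstanceAs (Subsingleton (TensorProduct R S Z.M))

end Vale.Agent.P178
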