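import Vale.Agent.P178.Defs

/-! P178: points of `|N C|` as step functors `(0,1) ⥤ C`. -/

namespace Vale.Agent.P178

open CategoryTheory

universe v u v' u' v'' u'' w w'

/-- the open unit interval, as a linearly ordered category -/
abbrev J : Type := Set.Ioo (0 : ℝ) 1

/-- the objPt of `Δⁿ` seen at height `a`: the least `j` with `a ≤ t₀ + ⋯ + t_j` -/
noncomputable def vtxFun {n : ℕ} (t : stdSimplex ℝ (Fin (n + 1))) (a : J) : Fin (n + 1) :=
  (Finset.univ.filter fun j => a.1 ≤ ∑ i ∈ Finset.Iic j, t i).min' (by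
    refine ⟨Fin.last n, Finset.mem_filter.2 ⟨Finset.mem_univ _, ?_⟩⟩
    have h : Finset.Iic (Fin.last n) = Finset.univ := by
      ext i; simp [Fin.le_last]
    rw [h, stdSimplex.sum_eq_one]
    exact a.2.2.le)

theorem vtxFun_le_iff {n : ℕ} (t : stdSimplex ℝ (Fin (n + 1))) (a : J) (j : Fin (n + 1)) :
    vtxFun t a ≤ j ↔ a.1 ≤ ∑ i ∈ Finset.Iic j, t i := by
  have h1 : vtxFun t a ∈ Finset.univ.filter fun j => a.1 ≤ ∑ i ∈ Finset.Iic j, t i :=
    Finset.min'_mem _ _
  exact ⟨fun h => (Finset.mem_filter.1 h1).2.trans (Finset.sum_le_sum_of_subset_of_nonneg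
    (Finset.Iic_subset_Iic.2 h) fun i _ _ => t.2.1 i),
    fun h => Finset.min'_le _ j (Finset.mem_filter.2 ⟨Finset.mem_univ _, h⟩)⟩

theorem vtxFun_mono {n : ℕ} (t : stdSimplex ℝ (Fin (n + 1))) : Monotone (vtxFun t) :=
  fun _ _ h => (vtxFun_le_iff t _ _).2 (le_trans h ((vtxFun_le_iff t _ _).1 le_rfl))

/-- the step functor of a point of the standard simplex -/
noncomputable def vtx {n : ℕ} (t : stdSimplex ℝ (Fin (n + 1))) : J ⥤ Fin (n + 1) :=
  (vtxFun_mono t).functor

/-- step functors -/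
def IsStep {C : Type u} [Category.{v} C] (G : J ⥤ C) : Prop :=
  ∃ (n : ℕ) (σ : ComposableArrows C n) (t : stdSimplex ℝ (Fin (n + 1))), G = vtx t ⋙ σ

theorem real_thr_le {x y : ℝ} (hx : x ≤ 1) (hy : 0 ≤ y) (h : ∀ a : J, a.1 ≤ x → a.1 ≤ y) :
    x ≤ y := by
  by_contra h1
  rw [not_le] at h1
  have := h ⟨(x + y) / 2, by linarith, by linarith⟩ (by dsimp only; linarith)
  dsimp only at this
  linarith

theorem real_sum_mem {n : ℕ} (t : stdSimplex ℝ (Fin (n + 1))) (s : Finset (Fin (n + 1))) :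
    0 ≤ ∑ i ∈ s, t i ∧ ∑ i ∈ s, t i ≤ 1 :=
  ⟨Finset.sum_nonneg fun i _ => t.2.1 i, (Finset.sum_le_sum_of_subset_of_nonneg
    (Finset.subset_univ s) fun i _ _ => t.2.1 i).trans_eq t.2.2⟩

theorem vtxFun_injective {n : ℕ} :
    Function.Injective (vtxFun : stdSimplex ℝ (Fin (n + 1)) → J → Fin (n + 1)) := by
  intro t t' h
  have h1 : ∀ j, ∑ i ∈ Finset.Iic j, t i = ∑ i ∈ Finset.Iic j, t' i := fun j => le_antisymm
    (real_thr_le (real_sum_mem t _).2 (real_sum_mem t' _).1 fun a => by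
      rw [← vtxFun_le_iff, ← vtxFun_le_iff, h]; exact id)
    (real_thr_le (real_sum_mem t' _).2 (real_sum_mem t _).1 fun a => by
      rw [← vtxFun_le_iff, ← vtxFun_le_iff, h]; exact id)
  ext j
  induction j using WellFoundedLT.induction with
  | ind j ih =>
    have h2 := h1 j
    rw [← Finset.add_sum_Iio_eq_sum_Iic, ← Finset.add_sum_Iio_eq_sum_Iic,
      Finset.sum_congr rfl fun i hi => ih i (Finset.mem_Iio.1 hi)] at h2
    exact add_right_cancel h2

theorem vtxFun_map {m n : ℕ} {al : Fin (m + 1) → Fin (n + 1)} (hal : Monotone al)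
    (t : stdSimplex ℝ (Fin (m + 1))) (a : J) :
    vtxFun (stdSimplex.map al t) a = al (vtxFun t a) := by
  refine eq_of_forall_ge_iff fun j => ?_
  have h1 : ∑ i ∈ Finset.Iic j, stdSimplex.map al t i =
      ∑ i ∈ Finset.univ.filter fun i => al i ≤ j, t i := by
    simp only [stdSimplex.map_coe, FunOnFinite.linearMap_apply_apply]
    rw [Finset.sum_fiberwise_eq_sum_filter]
    simp
  rw [vtxFun_le_iff, h1]
  constructor
  · intro h
    have h2 : (Finset.univ.filter fun i => al i ≤ j).Nonempty := by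
      rw [Finset.nonempty_iff_ne_empty]
      intro h2
      rw [h2, Finset.sum_empty] at h
      exact absurd a.2.1 (not_lt.2 h)
    exact (hal ((vtxFun_le_iff t a _).2 (h.trans (Finset.sum_le_sum_of_subset_of_nonneg
      (fun i hi => Finset.mem_Iic.2 (Finset.le_max' _ i hi)) fun i _ _ => t.2.1 i)))).trans
        (Finset.mem_filter.1 (Finset.max'_mem _ h2)).2
  · exact fun h => ((vtxFun_le_iff t a _).1 le_rfl).trans (Finset.sum_le_sum_of_subset_of_nonneg
      (fun i hi => Finset.mem_filter.2 ⟨Finset.mem_univ _, (hal (Finset.mem_Iic.1 hi)).trans h⟩)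
      fun i _ _ => t.2.1 i)

/-- a step function with given thresholds comes from a point of the simplex -/
theorem exists_vtx_of_thresholds {m : ℕ} (g : J → Fin (m + 1)) (T : Fin (m + 1) → ℝ)
    (h : ∀ a j, g a ≤ j ↔ a.1 ≤ T j) : ∃ t : stdSimplex ℝ (Fin (m + 1)), vtxFun t = g ∧
      (∀ j, ∑ i ∈ Finset.Iic j, t i = max 0 (min 1 (T j))) ∧
      ∀ j, t j = max 0 (min 1 (T j)) -
        (Fin.cons 0 (fun j => max 0 (min 1 (T j))) : Fin (m + 2) → ℝ) j.castSucc := by
  set U : Fin (m + 2) → ℝ := Fin.cons 0 fun j => max 0 (min 1 (T j)) with hU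
  have h0 : ∀ (a : J) j, a.1 ≤ max 0 (min 1 (T j)) ↔ g a ≤ j := fun a j => by
    rw [h, le_max_iff, le_min_iff]
    exact ⟨fun h => h.elim (fun h => absurd a.2.1 (not_lt.2 h)) And.right,
      fun h => Or.inr ⟨a.2.2.le, h⟩⟩
  have h1 : ∀ j, max 0 (min 1 (T j)) ≤ 1 := fun j => max_le zero_le_one (min_le_left _ _)
  have h2 : ∀ j, ∑ i ∈ Finset.Iic j, (U i.succ - U i.castSucc) = max 0 (min 1 (T j)) := fun j => by
    rw [Fin.sum_Iic_sub, hU, Fin.cons_succ, Fin.cons_zero, sub_zero]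
  refine ⟨⟨fun i => U i.succ - U i.castSucc, fun i => sub_nonneg.2 ?_, ?_⟩, funext fun a =>
    eq_of_forall_ge_iff fun j => ?_, h2, fun j => rfl⟩
  · refine Fin.cases (le_max_left _ _) (fun i => ?_) i
    refine real_thr_le (h1 i.castSucc) (le_max_left _ _) fun a ha => (h0 a i.succ).2 ?_
    exact ((h0 a _).1 ha).trans Fin.castSucc_lt_succ.le
  · have h3 : Finset.Iic (Fin.last m) = Finset.univ := by
      ext i; simp [Fin.le_last]
    rw [← h3, h2]
    exact le_antisymm (h1 _) (real_thr_le le_rfl (le_max_left _ _) fun a _ =>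
      (h0 a _).2 (Fin.le_last _))
  · rw [vtxFun_le_iff, ← h0]
    exact (congrArg (a.1 ≤ ·) (h2 j)).to_iff

section Rep

open Opposite Simplicial

variable {C : Type u} [Category.{v} C]

theorem simplexMap_pull {m n : ℕ} {al : Fin (m + 1) → Fin (n + 1)} (hal : Monotone al)
    (σ : ComposableArrows C n) (t : stdSimplex ℝ (Fin (m + 1))) :
    simplexMap (hal.functor ⋙ σ) t = simplexMap σ (stdSimplex.map al t) := by
  have h := congrArg (fun φ => TopCat.toSSetObjEquiv (BC C) (op ⦋m⦌) (φ σ) t)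
    ((sSetTopAdj.unit.app (nerve C)).naturality
      (SimplexCategory.mkHom ⟨al, hal⟩ : ⦋m⦌ ⟶ ⦋n⦌).op)
  exact h

theorem real_homEquiv {Y : TopCat.{max u v}} (g : SSet.toTop.obj (nerve C) ⟶ Y) {n : ℕ}
    (σ : ComposableArrows C n) (t : stdSimplex ℝ (Fin (n + 1))) : TopCat.toSSetObjEquiv Y (op ⦋n⦌)
      ((sSetTopAdj.homEquiv (nerve C) Y g).app (op ⦋n⦌) σ) t = g.hom (simplexMap σ t) := by
  rw [Adjunction.homEquiv_unit]
  rfl

theorem real_desc {Y : Type (max u v)} [TopologicalSpace Y]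
    (f : ∀ n, ComposableArrows C n → C(stdSimplex ℝ (Fin (n + 1)), Y))
    (hf : ∀ (m n : ℕ) (al : Fin (m + 1) → Fin (n + 1)) (hal : Monotone al) σ t,
      f m (hal.functor ⋙ σ) t = f n σ (stdSimplex.map al t)) :
    ∃ g : C(BC C, Y), ∀ n σ t, g (simplexMap σ t) = f n σ t := by
  let φ : nerve C ⟶ TopCat.toSSet.obj (TopCat.of Y) :=
    { app := fun n => ↾fun σ => ((TopCat.of Y).toSSetObjEquiv n).symm (f _ σ)
      naturality := fun n m al => by
        ext σ
        have h : f _ (al.unop.toOrderHom.monotone.functor ⋙ σ) =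
            (f _ σ).comp ⟨_, stdSimplex.continuous_map al.unop.toOrderHom⟩ :=
          ContinuousMap.ext fun t => hf _ _ _ al.unop.toOrderHom.monotone σ t
        exact congrArg ((TopCat.of Y).toSSetObjEquiv m).symm h }
  refine ⟨((sSetTopAdj.homEquiv (nerve C) _).symm φ).hom, fun n σ t =>
    (real_homEquiv _ σ t).symm.trans ?_⟩
  rw [Equiv.apply_symm_apply]
  rfl

theorem real_ext {Y : Type (max u v)} [TopologicalSpace Y] {g g' : C(BC C, Y)}
    (h : ∀ n (σ : ComposableArrows C n) t, g (simplexMap σ t) = g' (simplexMap σ t)) : g = g' := by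
  refine congrArg TopCat.Hom.hom ((sSetTopAdj.homEquiv (nerve C) (TopCat.of Y)).injective
    (a₁ := TopCat.ofHom g) (a₂ := TopCat.ofHom g') ?_)
  ext ⟨⟨n⟩⟩ σ
  refine ((TopCat.of Y).toSSetObjEquiv _).injective (ContinuousMap.ext fun t => ?_)
  exact (real_homEquiv _ σ t).trans ((h n σ t).trans (real_homEquiv _ σ t).symm)

theorem simplexMap_surj (x : BC C) :
    ∃ (n : ℕ) (σ : ComposableArrows C n) (t : stdSimplex ℝ (Fin (n + 1))),
      simplexMap σ t = x := by
  letI : TopologicalSpace (ULift.{max u v} Prop) := ⊤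
  have h := real_ext (C := C) (Y := ULift.{max u v} Prop)
    (g := ⟨fun x => ⟨∃ (n : ℕ) (σ : ComposableArrows C n) (t : stdSimplex ℝ (Fin (n + 1))),
      simplexMap σ t = x⟩, continuous_top⟩) (g' := ⟨fun _ => ⟨True⟩, continuous_top⟩)
    fun n σ t => congrArg ULift.up (eq_true ⟨n, σ, t, rfl⟩)
  exact of_eq_true (congrArg ULift.down (DFunLike.congr_fun h x))

theorem continuous_of_simplex {Y : Type w} [TopologicalSpace Y] (f : BC C → Y)
    (h : ∀ (n : ℕ) (σ : ComposableArrows C n), Continuous fun t => f (simplexMap σ t)) :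
    Continuous f := by
  refine continuous_def.2 fun U hU => ?_
  obtain ⟨g, hg⟩ := real_desc (C := C) (Y := ULift.{max u v} Prop)
    (fun n σ => ⟨fun t => ⟨f (simplexMap σ t) ∈ U⟩,
      continuous_uliftUp.comp (continuous_Prop.2 (hU.preimage (h n σ)))⟩)
    fun m n al hal σ t => congrArg (fun y => ULift.up (f y ∈ U)) (simplexMap_pull hal σ t)
  have h1 := continuous_Prop.1 (continuous_uliftDown.comp g.continuous)
  refine (Set.ext fun x => ?_ : _ = f ⁻¹' U) ▸ h1
  obtain ⟨n, σ, t, rfl⟩ := simplexMap_surj x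
  exact (congrArg ULift.down (hg n σ t)).to_iff

theorem real_inj {n n' : ℕ} (σ : ComposableArrows C n) (σ' : ComposableArrows C n')
    (t : stdSimplex ℝ (Fin (n + 1))) (t' : stdSimplex ℝ (Fin (n' + 1)))
    (h : vtx t ⋙ σ = vtx t' ⋙ σ') : simplexMap σ t = simplexMap σ' t' := by
  let k : J → ℕ := fun a => (vtxFun t a).1 + (vtxFun t' a).1
  have k1 : ∀ a b, k a ≤ k b ↔ vtxFun t a ≤ vtxFun t b ∧ vtxFun t' a ≤ vtxFun t' b := by
    intro a b
    simp only [k, Fin.le_def]
    rcases le_total a b with h | h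
    all_goals
      have h1 := Fin.le_def.1 (vtxFun_mono t h)
      have h2 := Fin.le_def.1 (vtxFun_mono t' h)
      omega
  have hf : (Set.range k).Finite := (Set.finite_lt_nat (n + 1 + (n' + 1))).subset <| by
    rintro _ ⟨a, rfl⟩
    exact Nat.add_lt_add (vtxFun t a).2 (vtxFun t' a).2
  obtain ⟨m, hm⟩ := Nat.exists_eq_succ_of_ne_zero (Finset.card_pos.2
    ⟨k ⟨1 / 2, by norm_num, by norm_num⟩, hf.mem_toFinset.2 ⟨_, rfl⟩⟩).ne'
  let e := hf.toFinset.orderIsoOfFin hm
  let g : J → Fin (m + 1) := fun a => e.symm ⟨k a, hf.mem_toFinset.2 ⟨_, rfl⟩⟩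
  have g1 : ∀ a b, g a ≤ g b ↔ k a ≤ k b := fun a b => e.symm.le_iff_le
  have g2 : ∀ j, ∃ a, g a = j := fun j => by
    obtain ⟨a, ha⟩ := hf.mem_toFinset.1 (e j).2
    exact ⟨a, e.symm_apply_eq.2 (Subtype.ext ha)⟩
  choose r hr using g2
  have r1 : Monotone r := StrictMono.monotone fun i j hij => lt_of_not_ge fun h1 => by
    have := (g1 _ _).2 ((k1 _ _).2 ⟨vtxFun_mono t h1, vtxFun_mono t' h1⟩)
    rw [hr, hr] at this
    exact absurd hij (not_lt.2 this)
  obtain ⟨s, hs, -⟩ := exists_vtx_of_thresholds g (fun j => min (∑ i ∈ Finset.Iic (vtxFun t (r j)),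
    t i) (∑ i ∈ Finset.Iic (vtxFun t' (r j)), t' i)) fun a j => by
      rw [le_min_iff, ← vtxFun_le_iff, ← vtxFun_le_iff, ← k1, ← g1, hr]
  have a1 := fun a => (k1 (r (g a)) a).1 ((g1 _ _).1 (hr _).le)
  have a2 := fun a => (k1 a (r (g a))).1 ((g1 _ _).1 (hr _).ge)
  have e1 : stdSimplex.map (vtxFun t ∘ r) s = t := vtxFun_injective (funext fun a => by
    rw [vtxFun_map ((vtxFun_mono t).comp r1), hs]
    exact le_antisymm (a1 a).1 (a2 a).1)
  have e2 : stdSimplex.map (vtxFun t' ∘ r) s = t' := vtxFun_injective (funext fun a => by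
    rw [vtxFun_map ((vtxFun_mono t').comp r1), hs]
    exact le_antisymm (a1 a).2 (a2 a).2)
  exact ((congrArg _ e1).symm.trans (simplexMap_pull ((vtxFun_mono t).comp r1) σ s).symm).trans
    ((congrArg (fun G => simplexMap (r1.functor ⋙ G) s) h).trans
      ((simplexMap_pull ((vtxFun_mono t').comp r1) σ' s).trans (congrArg _ e2)))

theorem exists_rep : ∃ r : BC C → J ⥤ C, Function.Injective r ∧
    ∀ (n : ℕ) (σ : ComposableArrows C n) (t : stdSimplex ℝ (Fin (n + 1))),
      r (simplexMap σ t) = vtx t ⋙ σ := by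
  letI : TopologicalSpace (J ⥤ C) := ⊤
  obtain ⟨g, hg⟩ := real_desc (C := C) (Y := J ⥤ C)
    (fun n σ => ⟨fun t => vtx t ⋙ σ, continuous_top⟩) fun m n al hal σ t =>
      congrArg (· ⋙ σ) (CategoryTheory.Functor.ext (F := vtx t ⋙ hal.functor)
        (G := vtx (stdSimplex.map al t))
        (fun a => (vtxFun_map hal t a).symm) fun _ _ _ => Subsingleton.elim _ _)
  refine ⟨g, fun x y h => ?_, hg⟩
  obtain ⟨n, σ, t, rfl⟩ := simplexMap_surj x
  obtain ⟨n', σ', t', rfl⟩ := simplexMap_surj y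
  exact real_inj σ σ' t t' ((hg _ _ _).symm.trans (h.trans (hg _ _ _)))

/-- the step functor of a point of `|N C|` -/
noncomputable def rep : BC C → J ⥤ C := exists_rep.choose

theorem rep_injective : Function.Injective (rep : BC C → J ⥤ C) := (exists_rep (C := C)).choose_spec.1

theorem rep_simplexMap {n : ℕ} (σ : ComposableArrows C n) (t : stdSimplex ℝ (Fin (n + 1))) :
    rep (simplexMap σ t) = vtx t ⋙ σ := (exists_rep (C := C)).choose_spec.2 n σ t

open Classical in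
/-- the point of `|N C|` with a given step functor -/
noncomputable def pt (G : J ⥤ C) : BC C :=
  if h : ∃ x, rep x = G then h.choose else objPt (G.obj ⟨1 / 2, by norm_num, by norm_num⟩)

theorem pt_rep (x : BC C) : pt (rep x) = x := by
  have h : ∃ y, rep y = rep x := ⟨x, rfl⟩
  rw [pt, dif_pos h]
  exact rep_injective h.choose_spec

theorem isStep_rep (x : BC C) : IsStep (rep x) := by
  obtain ⟨n, σ, t, rfl⟩ := simplexMap_surj x
  exact ⟨n, σ, t, rep_simplexMap σ t⟩

theorem rep_pt {G : J ⥤ C} (h : IsStep G) : rep (pt G) = G := by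
  obtain ⟨n, σ, t, rfl⟩ := h
  rw [← rep_simplexMap, pt_rep]

theorem pt_vtx {n : ℕ} (σ : ComposableArrows C n) (t : stdSimplex ℝ (Fin (n + 1))) :
    pt (vtx t ⋙ σ) = simplexMap σ t := by
  rw [← rep_simplexMap, pt_rep]

theorem rep_vertex (X : C) : rep (objPt X) = (Functor.const J).obj X := by
  rw [objPt, rep_simplexMap]
  rfl

theorem pt_const (X : C) : pt ((Functor.const J).obj X) = objPt X := by
  rw [← rep_vertex, pt_rep]

theorem rep_BMap {D : Type u} [Category.{v} D] (F : C ⥤ D) (x : BC C) :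
    rep (BMap F x) = rep x ⋙ F := by
  obtain ⟨n, σ, t, rfl⟩ := simplexMap_surj x
  rw [BMap_simplexMap, rep_simplexMap, rep_simplexMap]
  rfl

theorem BMap_pt {D : Type u} [Category.{v} D] (F : C ⥤ D) {G : J ⥤ C} (h : IsStep G) :
    BMap F (pt G) = pt (G ⋙ F) := by
  rw [← pt_rep (BMap F (pt G)), rep_BMap, rep_pt h]

theorem IsStep.whisker {D : Type u'} [Category.{v'} D] {G : J ⥤ C} (h : IsStep G) (K : C ⥤ D) :
    IsStep (G ⋙ K) := by
  obtain ⟨n, σ, t, rfl⟩ := h
  exact ⟨n, σ ⋙ K, t, rfl⟩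

/-- a step functor is constant near `1` -/
theorem IsStep.eventually_const {G : J ⥤ C} (h : IsStep G) :
    ∃ c : ℝ, c < 1 ∧ ∀ (a b : J) (hab : a ≤ b), c < a.1 →
      Arrow.mk (G.map (homOfLE hab)) = Arrow.mk (𝟙 (G.obj a)) := by
  obtain ⟨n, σ, t, rfl⟩ := h
  have h1 : ∀ j, ∀ᶠ c in nhdsWithin (1 : ℝ) (Set.Iio 1),
      ∑ i ∈ Finset.Iic j, t i < 1 → ∑ i ∈ Finset.Iic j, t i < c := fun j => by
    by_cases h : ∑ i ∈ Finset.Iic j, t i < 1
    · exact (eventually_nhdsWithin_of_eventually_nhds (lt_mem_nhds h)).mono fun _ h _ => h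
    · exact Filter.Eventually.of_forall fun _ h' => absurd h' h
  obtain ⟨c, hc, hc1⟩ := ((Filter.eventually_all.2 h1).and self_mem_nhdsWithin).exists
  refine ⟨c, hc1, fun a b hab ha => ?_⟩
  have h2 : vtxFun t a = vtxFun t b := le_antisymm (vtxFun_mono t hab) <|
    (vtxFun_le_iff t b _).2 <| b.2.2.le.trans <| not_lt.1 fun h =>
      absurd ((hc _ h).trans ha) (not_lt.2 ((vtxFun_le_iff t a _).1 le_rfl))
  have h3 : ∀ (x y : Fin (n + 1)) (f : x ⟶ y), x = y →
      Arrow.mk (σ.map f) = Arrow.mk (𝟙 (σ.obj x)) := by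
    rintro x _ f rfl
    rw [Subsingleton.elim f (𝟙 x), σ.map_id]
  exact h3 _ _ _ h2

end Rep

end Vale.Agent.P178
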