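import Mathlib

/-! P178: morphisms of Quillen's Q-construction, recorded as linear relations. -/

namespace Vale.Agent.P178

open TensorProduct

variable {R : Type} [CommRing R] {X Y Z : Type} [AddCommGroup X] [Module R X]
  [AddCommGroup Y] [Module R Y] [AddCommGroup Z] [Module R Z]

/-- `Γ ⊆ X × Y` is the image of `E` for a diagram `X ↞ E ↣ Y` with `E → X` surjective and
`E → Y` injective with projective cokernel. -/
def IsQ (Γ : Submodule R (X × Y)) : Prop :=
  (∀ x, ∃ y, (x, y) ∈ Γ) ∧ (∀ x, (x, 0) ∈ Γ → x = 0) ∧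
    Module.Projective R (Y ⧸ Γ.map (LinearMap.snd R X Y))

/-- Composition of relations (the pullback of the two diagrams). -/
def relComp (Γ : Submodule R (X × Y)) (Γ' : Submodule R (Y × Z)) : Submodule R (X × Z) where
  carrier := {p | ∃ y, (p.1, y) ∈ Γ ∧ (y, p.2) ∈ Γ'}
  add_mem' := fun ⟨y, h, h'⟩ ⟨z, k, k'⟩ => ⟨y + z, Γ.add_mem h k, Γ'.add_mem h' k'⟩
  zero_mem' := ⟨0, Γ.zero_mem, Γ'.zero_mem⟩
  smul_mem' := fun c _ ⟨y, h, h'⟩ => ⟨c • y, Γ.smul_mem c h, Γ'.smul_mem c h'⟩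

/-- Base change of a relation. -/
def relBC (S : Type) [CommRing S] [Algebra R S] (Γ : Submodule R (X × Y)) :
    Submodule S ((S ⊗[R] X) × (S ⊗[R] Y)) :=
  Submodule.span S ((fun p : X × Y =>
    (TensorProduct.tmul R (1 : S) p.1, TensorProduct.tmul R (1 : S) p.2)) '' Γ)

end Vale.Agent.P178
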